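import Crest.Agent.Lib.SRC.Defs

/-!
Sorted lists and discrete measurability.
-/

open MeasureTheory Set

namespace Crest.Agent.SRC

section sorted
variable {E : Type*} [DecidableEq E]

/-- Strictly sorted by labels. -/
abbrev SS (t : E → unitInterval) (l : List E) : Prop := l.Pairwise (fun a b => t a < t b)

private lemma orderedInsert_congr {α : Type*} (r r' : α → α → Prop) [DecidableRel r] [DecidableRel r']
    (a : α) (l : List α) (h : ∀ b ∈ l, (r a b ↔ r' a b)) :
    List.orderedInsert r a l = List.orderedInsert r' a l := by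
  induction l with
  | nil => rfl
  | cons b l ih =>
    simp only [List.orderedInsert_cons]
    by_cases hb : r a b
    · have : r' a b := (h b (by simp)).1 hb
      simp [hb, this]
    · have : ¬ r' a b := fun h' => hb ((h b (by simp)).2 h')
      simp only [hb, this, if_false]
      rw [ih fun b' hb' => h b' (by simp [hb'])]

private lemma insertionSort_congr {α : Type*} (r r' : α → α → Prop) [DecidableRel r] [DecidableRel r']
    (l : List α) (h : ∀ a ∈ l, ∀ b ∈ l, (r a b ↔ r' a b)) :
    List.insertionSort r l = List.insertionSort r' l := by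
  induction l with
  | nil => rfl
  | cons a l ih =>
    simp only [List.insertionSort_cons]
    rw [ih fun x hx y hy => h x (by simp [hx]) y (by simp [hy])]
    apply orderedInsert_congr
    intro b hb
    have hb' : b ∈ l := (List.perm_insertionSort r' l).mem_iff.1 hb
    exact h a (by simp) b (by simp [hb'])

/-- `sortedL` as an honest insertion sort. -/
lemma hf_sortedL_eq_insertionSort (t : E → unitInterval) (Z : Finset E) :
    open Classical in
    sortedL t Z = List.insertionSort (fun a b => t a ≤ t b) Z.toList := by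
  classical
  unfold sortedL srt
  apply insertionSort_congr
  intro a ha b hb
  have ha' : a ∈ Z := Finset.mem_toList.1 ha
  have hb' : b ∈ Z := Finset.mem_toList.1 hb
  simp [cmpRel, ha', hb']

lemma hf_sortedL_perm (t : E → unitInterval) (Z : Finset E) : (sortedL t Z).Perm Z.toList := by
  classical
  rw [hf_sortedL_eq_insertionSort]
  exact List.perm_insertionSort _ _

lemma hf_mem_sortedL {t : E → unitInterval} {Z : Finset E} {e : E} : e ∈ sortedL t Z ↔ e ∈ Z := by
  rw [(hf_sortedL_perm t Z).mem_iff, Finset.mem_toList]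

lemma hf_sortedL_toFinset (t : E → unitInterval) (Z : Finset E) : (sortedL t Z).toFinset = Z := by
  ext e; simp [hf_mem_sortedL]

lemma hf_sortedL_nodup (t : E → unitInterval) (Z : Finset E) : (sortedL t Z).Nodup :=
  (hf_sortedL_perm t Z).nodup_iff.2 Z.nodup_toList

lemma hf_sortedL_pairwise_le (t : E → unitInterval) (Z : Finset E) :
    (sortedL t Z).Pairwise (fun a b => t a ≤ t b) := by
  classical
  rw [hf_sortedL_eq_insertionSort]
  have : IsTrans E (fun a b => t a ≤ t b) := ⟨fun _ _ _ => le_trans⟩
  have : Std.Total (fun a b : E => t a ≤ t b) := ⟨fun a b => le_total _ _⟩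
  exact List.pairwise_insertionSort _ _

lemma hf_sortedL_SS {t : E → unitInterval} {Z : Finset E} (ht : Set.InjOn t Z) : SS t (sortedL t Z) := by
  have h1 := hf_sortedL_pairwise_le t Z
  have h2 := hf_sortedL_nodup t Z
  unfold List.Nodup at h2
  have h3 := List.Pairwise.and_mem.1 (h1.and h2)
  refine h3.imp ?_
  rintro a b ⟨ha, hb, hle, hne⟩
  refine lt_of_le_of_ne hle ?_
  intro e
  exact hne (ht (by simpa [hf_mem_sortedL] using ha) (by simpa [hf_mem_sortedL] using hb) e)

lemma SS.nodup {t : E → unitInterval} {l : List E} (hl : SS t l) : l.Nodup :=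
  hl.imp (fun {a b} h e => by rw [e] at h; exact lt_irrefl _ h)

/-- Uniqueness of sorted lists. -/
lemma hf_sortedL_eq_of_SS {t : E → unitInterval} {Z : Finset E} {l : List E} (hl : SS t l)
    (hZ : l.toFinset = Z) (ht : Set.InjOn t Z) : sortedL t Z = l := by
  have hp : (sortedL t Z).Perm l := by
    refine (hf_sortedL_perm t Z).trans ?_
    subst hZ
    exact List.toFinset_toList hl.nodup
  refine List.Perm.eq_of_pairwise (le := fun a b => t a ≤ t b) ?_ (hf_sortedL_pairwise_le t Z) ?_ hp
  · intro a b ha hb h1 h2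
    exact ht (by simpa [hf_mem_sortedL] using ha) (by subst hZ; simpa using hb) (le_antisymm h1 h2)
  · exact hl.imp le_of_lt

lemma hf_sortedL_congr {t t' : E → unitInterval} {Z : Finset E} (h : ∀ e ∈ Z, t' e = t e) :
    sortedL t' Z = sortedL t Z := by
  classical
  rw [hf_sortedL_eq_insertionSort, hf_sortedL_eq_insertionSort]
  apply insertionSort_congr
  intro a ha b hb
  rw [h a (Finset.mem_toList.1 ha), h b (Finset.mem_toList.1 hb)]

lemma hf_sortedL_empty (t : E → unitInterval) : sortedL t ∅ = [] := by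
  classical
  rw [hf_sortedL_eq_insertionSort]; simp

/-- Filtering a sorted list. -/
lemma hf_sortedL_filter {t : E → unitInterval} {Z : Finset E} (ht : Set.InjOn t Z)
    (p : E → Prop) [DecidablePred p] :
    (sortedL t Z).filter (fun e => decide (p e)) = sortedL t (Z.filter p) := by
  symm
  apply hf_sortedL_eq_of_SS
  · exact (hf_sortedL_SS ht).filter _
  · ext e; simp [hf_mem_sortedL]
  · exact ht.mono (fun x hx => (Finset.mem_filter.1 hx).1)

end sorted

section dm

/-- Discretely measurable map. -/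
def Dm {Ω X : Type*} [MeasurableSpace Ω] (f : Ω → X) : Prop := ∀ x, MeasurableSet (f ⁻¹' {x})

variable {Ω X Y β : Type*} [MeasurableSpace Ω]

lemma Dm.const (x : X) : Dm (fun _ : Ω => x) := fun y => MeasurableSet.const _

lemma Dm.comp [Countable X] {f : Ω → X} (hf : Dm f) (G : X → Y) : Dm (fun ω => G (f ω)) := by
  intro y
  have : (fun ω => G (f ω)) ⁻¹' {y} = ⋃ x : {x // G x = y}, f ⁻¹' {x.1} := by
    ext ω; simp
  rw [this]
  exact MeasurableSet.iUnion fun x => hf x.1

lemma Dm.prod {f : Ω → X} {g : Ω → Y} (hf : Dm f) (hg : Dm g) : Dm (fun ω => (f ω, g ω)) := by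
  rintro ⟨x, y⟩
  have : (fun ω => (f ω, g ω)) ⁻¹' {(x, y)} = f ⁻¹' {x} ∩ g ⁻¹' {y} := by
    ext ω; simp
  rw [this]
  exact (hf x).inter (hg y)

lemma Dm.measurable [Countable X] [MeasurableSpace β] {f : Ω → X} (hf : Dm f) (G : X → β) :
    Measurable (fun ω => G (f ω)) := by
  intro U _
  have : (fun ω => G (f ω)) ⁻¹' U = ⋃ x : {x // G x ∈ U}, f ⁻¹' {x.1} := by
    ext ω; simp
  rw [this]
  exact MeasurableSet.iUnion fun x => hf x.1

lemma Dm.filter [DecidableEq X] (Z : Finset X) (p : Ω → X → Prop) [∀ ω, DecidablePred (p ω)]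
    (hp : ∀ e ∈ Z, MeasurableSet {ω | p ω e}) : Dm (fun ω => Z.filter (p ω)) := by
  classical
  let _ : MeasurableSpace (Finset X) := ⊤
  have key : ∀ Z : Finset X, (∀ e ∈ Z, MeasurableSet {ω | p ω e}) →
      Measurable (fun ω => Z.filter (p ω)) := by
    intro Z
    induction Z using Finset.induction_on with
    | empty => intro _; simpa using measurable_const
    | insert a Z _ ih =>
      intro h
      have hZ := ih fun e he => h e (Finset.mem_insert_of_mem he)
      have e : (fun ω => (insert a Z).filter (p ω)) =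
          fun ω => if p ω a then insert a (Z.filter (p ω)) else Z.filter (p ω) := by
        funext ω; exact Finset.filter_insert _ _ _
      rw [e]
      exact Measurable.ite (h a (Finset.mem_insert_self _ _))
        (Measurable.comp (g := fun S => insert a S) (fun _ _ => trivial) hZ) hZ
  intro x
  exact key Z hp (trivial : MeasurableSet[⊤] ({x} : Set (Finset X)))

lemma Dm.sortedL [DecidableEq X] [Countable X] (Z0 : Finset X) (Z : Ω → Finset X) (hZ : Dm Z)
    (hZ0 : ∀ ω, Z ω ⊆ Z0) (t : Ω → X → unitInterval) (ht : ∀ e, Measurable fun ω => t ω e) :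
    Dm (fun ω => Crest.Agent.SRC.sortedL (t ω) (Z ω)) := by
  classical
  have hR : Dm (fun ω => cmpRel (t ω) Z0) := by
    unfold cmpRel
    refine Dm.filter _ _ ?_
    rintro ⟨a, b⟩ _
    exact measurableSet_le (ht a).subtype_val (ht b).subtype_val
  have e : (fun ω => Crest.Agent.SRC.sortedL (t ω) (Z ω)) =
      fun ω => (fun p : Finset X × Finset (X × X) => srt ((p.1 ×ˢ p.1) ∩ p.2) p.1) (Z ω, cmpRel (t ω) Z0) := by
    funext ω
    show srt (cmpRel (t ω) (Z ω)) (Z ω) = srt _ _
    congr 1
    ext ⟨a, b⟩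
    simp only [cmpRel, Finset.mem_filter, Finset.mem_product, Finset.mem_inter]
    constructor
    · rintro ⟨⟨ha, hb⟩, h⟩
      exact ⟨⟨ha, hb⟩, ⟨hZ0 ω ha, hZ0 ω hb⟩, h⟩
    · rintro ⟨⟨ha, hb⟩, _, h⟩
      exact ⟨⟨ha, hb⟩, h⟩
  rw [e]
  exact Dm.comp (hZ.prod hR) (fun p : Finset X × Finset (X × X) => srt ((p.1 ×ˢ p.1) ∩ p.2) p.1)

end dm

end Crest.Agent.SRC
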