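import Crest.Agent.Lib.SRC.Pair3
import Crest.Agent.Lib.SRC.Sorted

/-!
Deterministic list level: unrolling `W` and the telescope, time-structured functionals `Phi`, `Psi`.
-/

namespace Crest.Agent.SRC
namespace MassSys

open scoped Classical

variable {E : Type*} [DecidableEq E] (M : MassSys E) (o : E)

lemma Esum_W_cons (g h : E) (D : Finset E) (l : List E) (hh : h ∉ D) :
    M.Esum D (fun c => M.W o g c (h :: l)) ≤ M.Esum (insert h D) (fun c => M.W o g c l) +
      2 * M.Esum D (fun c => |M.cov c g h| * M.Fl o h c l) := by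
  rw [M.Esum_insert _ _ hh, ← Esum_mul_left, ← Esum_add]
  apply Esum_mono
  intro S _ hpos
  have := M.W_cons_le_Fl o g h (S, D \ S) l hpos
  linarith

lemma Esum_W_unroll (t : E → unitInterval) (g : E) : ∀ (l : List E) (D : Finset E), SS t l →
    (∀ h ∈ l, h ∉ D) →
    M.Esum D (fun c => M.W o g c l) ≤ M.Esum (D ∪ l.toFinset) (fun c => M.W o g c []) +
      2 * ∑ h ∈ l.toFinset, M.Esum (D ∪ l.toFinset.filter (fun e => t e < t h))
        (fun c => |M.cov c g h| * M.Fl o h c (l.filter (fun e => t h < t e))) := by
  intro l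
  induction l with
  | nil => intro D _ _; simp
  | cons h0 l ih =>
    intro D hl hD
    have hl' : SS t l := (List.pairwise_cons.1 hl).2
    have hmin : ∀ e ∈ l, t h0 < t e := (List.pairwise_cons.1 hl).1
    have hh0 : h0 ∉ l := fun h => lt_irrefl _ (hmin h0 h)
    have hD0 : h0 ∉ D := hD h0 (by simp)
    have hD' : ∀ h ∈ l, h ∉ insert h0 D := by
      intro h hh hc
      rcases Finset.mem_insert.1 hc with e | e
      · exact hh0 (e ▸ hh)
      · exact hD h (by simp [hh]) e
    have h1 := M.Esum_W_cons o g h0 D l hD0
    have h2 := ih (insert h0 D) hl' hD'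
    have e1 : insert h0 D ∪ l.toFinset = D ∪ (h0 :: l).toFinset := by
      ext e; simp only [Finset.mem_union, Finset.mem_insert, List.mem_toFinset, List.mem_cons]; tauto
    rw [e1] at h2
    have hnot : h0 ∉ l.toFinset := by simpa using hh0
    have e2 : (h0 :: l).toFinset = insert h0 l.toFinset := by simp
    rw [e2] at h2
    rw [e2, Finset.sum_insert hnot]
    have e3 : M.Esum (D ∪ (insert h0 l.toFinset).filter (fun e => t e < t h0))
        (fun c => |M.cov c g h0| * M.Fl o h0 c ((h0 :: l).filter (fun e => t h0 < t e))) =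
        M.Esum D (fun c => |M.cov c g h0| * M.Fl o h0 c l) := by
      have a1 : (insert h0 l.toFinset).filter (fun e => t e < t h0) = ∅ := by
        ext e
        simp only [Finset.mem_filter, Finset.mem_insert, List.mem_toFinset, Finset.notMem_empty, iff_false]
        rintro ⟨rfl | he, hlt⟩
        · exact lt_irrefl _ hlt
        · exact lt_asymm hlt (hmin e he)
      have a2 : (h0 :: l).filter (fun e => decide (t h0 < t e)) = l := by
        rw [List.filter_cons_of_neg (by simp)]
        exact List.filter_eq_self.2 (by simpa using hmin)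
      rw [a1, a2, Finset.union_empty]
    have e4 : ∀ h ∈ l.toFinset, M.Esum (D ∪ (insert h0 l.toFinset).filter (fun e => t e < t h))
        (fun c => |M.cov c g h| * M.Fl o h c ((h0 :: l).filter (fun e => t h < t e))) =
        M.Esum (insert h0 D ∪ l.toFinset.filter (fun e => t e < t h))
        (fun c => |M.cov c g h| * M.Fl o h c (l.filter (fun e => t h < t e))) := by
      intro h hh
      have hh' : h ∈ l := by simpa using hh
      have a1 : D ∪ (insert h0 l.toFinset).filter (fun e => t e < t h) =
          insert h0 D ∪ l.toFinset.filter (fun e => t e < t h) := by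
        ext e
        simp only [Finset.mem_union, Finset.mem_filter, Finset.mem_insert, List.mem_toFinset]
        constructor
        · rintro (he | ⟨rfl | he, hlt⟩)
          · exact Or.inl (Or.inr he)
          · exact Or.inl (Or.inl rfl)
          · exact Or.inr ⟨he, hlt⟩
        · rintro ((rfl | he) | ⟨he, hlt⟩)
          · exact Or.inr ⟨Or.inl rfl, hmin h hh'⟩
          · exact Or.inl he
          · exact Or.inr ⟨Or.inr he, hlt⟩
      have a2 : (h0 :: l).filter (fun e => decide (t h < t e)) = l.filter (fun e => decide (t h < t e)) := by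
        rw [List.filter_cons_of_neg]
        simpa using (hmin h hh').le
      rw [a1, a2]
    rw [e3, Finset.sum_congr rfl e4]
    linarith

/-! ### time-structured functionals -/

/-- Domain at time `r`. -/
noncomputable def dm (A B : Finset E) (s r : unitInterval) (t : E → unitInterval) : Finset E :=
  A.filter (fun e => t e < s) ∪ B.filter (fun e => t e < r)

/-- Sorted list of the `B`-sites in the time window `[r, T)`. -/
noncomputable def ls (B : Finset E) (r T : unitInterval) (t : E → unitInterval) : List E :=
  sortedL t (B.filter (fun e => r ≤ t e ∧ t e < T))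

/-- `E_c W_g[c; list]`. -/
noncomputable def Phi (A B : Finset E) (s r T : unitInterval) (t : E → unitInterval) (g : E) : ℝ :=
  M.Esum (dm A B s r t) (fun c => M.W o g c (ls B r T t))

/-- Hop term. -/
noncomputable def Psi (A B : Finset E) (s r T : unitInterval) (t : E → unitInterval) (g h : E) : ℝ :=
  M.Esum (dm A B s r t) (fun c => |M.cov c g h| * M.Fl o h c (ls B r T t))

lemma Phi_nonneg (A B : Finset E) (s r T : unitInterval) (t : E → unitInterval) (g : E) :
    0 ≤ M.Phi o A B s r T t g :=
  M.Esum_nonneg fun _ _ => M.W_nonneg o _ _ _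

lemma Phi_le_one (A B : Finset E) (s r T : unitInterval) (t : E → unitInterval) (g : E) :
    M.Phi o A B s r T t g ≤ 1 :=
  M.Esum_le_one fun _ _ => M.W_le_one o _ _ _

lemma Psi_nonneg (A B : Finset E) (s r T : unitInterval) (t : E → unitInterval) (g h : E) :
    0 ≤ M.Psi o A B s r T t g h :=
  M.Esum_nonneg fun _ _ => mul_nonneg (abs_nonneg _) (M.Fl_nonneg o _ _ _)

/-- Unrolled recursion at fixed labels. -/
lemma Phi_unroll {A B : Finset E} (hAB : Disjoint A B) {s r T : unitInterval} {t : E → unitInterval}
    (ht : Set.InjOn t B) (hrT : r ≤ T) (g : E) :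
    M.Phi o A B s r T t g ≤ M.Phi o A B s T T t g +
      2 * ∑ h ∈ B.filter (fun e => r ≤ t e ∧ t e < T), M.Psi o A (B.erase h) s (t h) T t g h := by
  set Z := B.filter (fun e => r ≤ t e ∧ t e < T) with hZ
  have hZB : (Z : Set E) ⊆ B := fun x hx => (Finset.mem_filter.1 hx).1
  have htZ : Set.InjOn t Z := ht.mono hZB
  have hSS := hf_sortedL_SS htZ
  have hToF := hf_sortedL_toFinset t Z
  have hD : ∀ h ∈ sortedL t Z, h ∉ dm A B s r t := by
    intro h hh hc
    have hhZ : h ∈ Z := hf_mem_sortedL.1 hh
    obtain ⟨hhB, h1, _⟩ := Finset.mem_filter.1 hhZ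
    rcases Finset.mem_union.1 hc with hc | hc
    · exact Finset.disjoint_left.1 hAB (Finset.mem_filter.1 hc).1 hhB
    · exact absurd (Finset.mem_filter.1 hc).2 (not_lt.2 h1)
  have key := M.Esum_W_unroll o t g (sortedL t Z) (dm A B s r t) hSS hD
  rw [hToF] at key
  have e1 : dm A B s r t ∪ Z = dm A B s T t := by
    ext e
    simp only [dm, hZ, Finset.mem_union, Finset.mem_filter]
    constructor
    · rintro ((h | h) | h)
      · exact Or.inl h
      · exact Or.inr ⟨h.1, h.2.trans_le hrT⟩
      · exact Or.inr ⟨h.1, h.2.2⟩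
    · rintro (h | h)
      · exact Or.inl (Or.inl h)
      · by_cases hr : t e < r
        · exact Or.inl (Or.inr ⟨h.1, hr⟩)
        · exact Or.inr ⟨h.1, not_lt.1 hr, h.2⟩
  rw [e1] at key
  have e2 : ls B T T t = [] := by
    unfold ls
    have : B.filter (fun e => T ≤ t e ∧ t e < T) = ∅ := by
      ext e; simp only [Finset.mem_filter, Finset.notMem_empty, iff_false]
      rintro ⟨_, h1, h2⟩; exact absurd h2 (not_lt.2 h1)
    rw [this, hf_sortedL_empty]
  have e3 : M.Phi o A B s T T t g = M.Esum (dm A B s T t) (fun c => M.W o g c []) := by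
    unfold Phi; rw [e2]
  rw [e3]
  refine key.trans_eq ?_
  congr 2
  apply Finset.sum_congr rfl
  intro h hh
  obtain ⟨hhB, hrh, hhT⟩ := Finset.mem_filter.1 hh
  unfold Psi
  have a1 : dm A B s r t ∪ Z.filter (fun e => t e < t h) = dm A (B.erase h) s (t h) t := by
    ext e
    simp only [dm, hZ, Finset.mem_union, Finset.mem_filter, Finset.mem_erase]
    constructor
    · rintro ((h1 | h1) | h1)
      · exact Or.inl h1
      · have : t e < t h := h1.2.trans_le hrh
        exact Or.inr ⟨⟨fun e' => lt_irrefl _ (e' ▸ this), h1.1⟩, this⟩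
      · exact Or.inr ⟨⟨fun e' => lt_irrefl _ (e' ▸ h1.2), h1.1.1⟩, h1.2⟩
    · rintro (h1 | ⟨⟨_, h2⟩, h3⟩)
      · exact Or.inl (Or.inl h1)
      · by_cases hr : t e < r
        · exact Or.inl (Or.inr ⟨h2, hr⟩)
        · exact Or.inr ⟨⟨h2, not_lt.1 hr, h3.trans hhT⟩, h3⟩
  have a2 : (sortedL t Z).filter (fun e => decide (t h < t e)) = ls (B.erase h) (t h) T t := by
    rw [hf_sortedL_filter htZ (fun e => t h < t e)]
    unfold ls
    congr 1
    ext e
    simp only [hZ, Finset.mem_filter, Finset.mem_erase]
    constructor
    · rintro ⟨⟨h1, _, h3⟩, h4⟩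
      exact ⟨⟨fun e' => lt_irrefl _ (e' ▸ h4), h1⟩, h4.le, h3⟩
    · rintro ⟨⟨h0, h1⟩, h2, h3⟩
      have hne : t h ≠ t e := fun e' => h0 (ht h1 hhB e'.symm)
      have h4 : t h < t e := lt_of_le_of_ne h2 hne
      exact ⟨⟨h1, hrh.trans h2, h3⟩, h4⟩
  rw [a1, a2]

/-! ### telescope -/

/-- Pair functional where the first chain only reveals sites of `F`. -/
noncomputable def VF (F : Finset E) : List E → St E → St E → ℝ
  | [], α, β => |M.a α o - M.a β o|
  | g :: l, α, β =>
    if g ∈ F then I2 (M.a α g) (M.a β g) (fun x y => VF F l (add α g x) (add β g y))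
    else M.a β g * VF F l α (add β g true) + (1 - M.a β g) * VF F l α (add β g false)

/-- Restriction of a list to `F`. -/
noncomputable def res (F : Finset E) (l : List E) : List E := l.filter (fun e => decide (e ∈ F))

lemma VF_nonneg (F : Finset E) (l : List E) : ∀ α β : St E, 0 ≤ M.VF o F l α β := by
  induction l with
  | nil => intro α β; exact abs_nonneg _
  | cons g l ih =>
    intro α β
    rw [VF]
    split_ifs with hg
    · exact I2_nonneg (M.a_nonneg _ _) (M.a_le_one _ _) (M.a_nonneg _ _) (M.a_le_one _ _)
        (fun x y => ih _ _)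
    · exact add_nonneg (mul_nonneg (M.a_nonneg _ _) (ih _ _))
        (mul_nonneg (sub_nonneg.2 (M.a_le_one _ _)) (ih _ _))

lemma VF_triangle (F : Finset E) (l : List E) : ∀ α β γ : St E,
    M.VF o F l α β ≤ M.V o (res F l) α γ + M.VF o F l γ β := by
  induction l with
  | nil => intro α β γ; exact abs_sub_le _ _ _
  | cons g l ih =>
    intro α β γ
    by_cases hg : g ∈ F
    · have e : res F (g :: l) = g :: res F l := by
        unfold res; rw [List.filter_cons_of_pos (by simpa using hg)]
      rw [e, V_cons, VF, VF, if_pos hg, if_pos hg]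
      exact I2_triangle (M.a_nonneg _ _) (M.a_le_one _ _) (M.a_nonneg _ _) (M.a_le_one _ _)
        (M.a_nonneg _ _) (M.a_le_one _ _) (fun x y z => ih _ _ _)
    · have e : res F (g :: l) = res F l := by
        unfold res; rw [List.filter_cons_of_neg (by simpa using hg)]
      rw [e, VF, VF, if_neg hg, if_neg hg]
      have h1 := ih α (add β g true) γ
      have h0 := ih α (add β g false) γ
      have ha := M.a_nonneg β g
      have hb := sub_nonneg.2 (M.a_le_one β g)
      nlinarith [mul_le_mul_of_nonneg_left h1 ha, mul_le_mul_of_nonneg_left h0 hb]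

lemma VF_cons_self_mem (F : Finset E) (g : E) (l : List E) (c : St E) (hg : g ∈ F) :
    M.VF o F (g :: l) c c = M.a c g * M.VF o F l (add c g true) (add c g true) +
      (1 - M.a c g) * M.VF o F l (add c g false) (add c g false) := by
  rw [VF, if_pos hg, I2_of_le le_rfl]
  ring

lemma VF_cons_self_not_mem (F : Finset E) (g : E) (l : List E) (c : St E) (hg : g ∉ F) :
    M.VF o F (g :: l) c c ≤ M.W o g c (res F l) +
      (M.a c g * M.VF o F l (add c g true) (add c g true) +
      (1 - M.a c g) * M.VF o F l (add c g false) (add c g false)) := by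
  rw [VF, if_neg hg]
  have h1 := M.VF_triangle o F l c (add c g true) (add c g true)
  have h0 := M.VF_triangle o F l c (add c g false) (add c g false)
  rw [M.V_symm o _ c (add c g true)] at h1
  rw [M.V_symm o _ c (add c g false)] at h0
  have ha := M.a_nonneg c g
  have hb := sub_nonneg.2 (M.a_le_one c g)
  unfold W
  nlinarith [mul_le_mul_of_nonneg_left h1 ha, mul_le_mul_of_nonneg_left h0 hb]

lemma VF_nil_self (F : Finset E) (c : St E) : M.VF o F [] c c = 0 := by
  simp [VF]

/-- Telescoped form. -/
lemma Esum_VF_unroll (F : Finset E) (t : E → unitInterval) : ∀ (l : List E) (D : Finset E), SS t l →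
    (∀ h ∈ l, h ∉ D) →
    M.Esum D (fun c => M.VF o F l c c) ≤
      ∑ f ∈ l.toFinset.filter (fun e => e ∉ F), M.Esum (D ∪ l.toFinset.filter (fun e => t e < t f))
        (fun c => M.W o f c (res F (l.filter (fun e => t f < t e)))) := by
  intro l
  induction l with
  | nil =>
    intro D _ _
    simp [VF_nil_self, Esum]
  | cons h0 l ih =>
    intro D hl hD
    have hl' : SS t l := (List.pairwise_cons.1 hl).2
    have hmin : ∀ e ∈ l, t h0 < t e := (List.pairwise_cons.1 hl).1
    have hh0 : h0 ∉ l := fun h => lt_irrefl _ (hmin h0 h)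
    have hD0 : h0 ∉ D := hD h0 (by simp)
    have hD' : ∀ h ∈ l, h ∉ insert h0 D := by
      intro h hh hc
      rcases Finset.mem_insert.1 hc with e | e
      · exact hh0 (e ▸ hh)
      · exact hD h (by simp [hh]) e
    have h2 := ih (insert h0 D) hl' hD'
    have hnot : h0 ∉ l.toFinset := by simpa using hh0
    have e2 : (h0 :: l).toFinset = insert h0 l.toFinset := by simp
    have e4 : ∀ h ∈ l.toFinset.filter (fun e => e ∉ F),
        M.Esum (D ∪ (insert h0 l.toFinset).filter (fun e => t e < t h))
        (fun c => M.W o h c (res F ((h0 :: l).filter (fun e => t h < t e)))) =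
        M.Esum (insert h0 D ∪ l.toFinset.filter (fun e => t e < t h))
        (fun c => M.W o h c (res F (l.filter (fun e => t h < t e)))) := by
      intro h hh
      have hh' : h ∈ l := by simpa using (Finset.mem_filter.1 hh).1
      have a1 : D ∪ (insert h0 l.toFinset).filter (fun e => t e < t h) =
          insert h0 D ∪ l.toFinset.filter (fun e => t e < t h) := by
        ext e
        simp only [Finset.mem_union, Finset.mem_filter, Finset.mem_insert, List.mem_toFinset]
        constructor
        · rintro (he | ⟨rfl | he, hlt⟩)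
          · exact Or.inl (Or.inr he)
          · exact Or.inl (Or.inl rfl)
          · exact Or.inr ⟨he, hlt⟩
        · rintro ((rfl | he) | ⟨he, hlt⟩)
          · exact Or.inr ⟨Or.inl rfl, hmin h hh'⟩
          · exact Or.inl he
          · exact Or.inr ⟨Or.inr he, hlt⟩
      have a2 : (h0 :: l).filter (fun e => decide (t h < t e)) = l.filter (fun e => decide (t h < t e)) := by
        rw [List.filter_cons_of_neg]
        simpa using (hmin h hh').le
      rw [a1, a2]
    rw [e2]
    by_cases hg : h0 ∈ F
    · have a0 : (insert h0 l.toFinset).filter (fun e => e ∉ F) = l.toFinset.filter (fun e => e ∉ F) := by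
        rw [Finset.filter_insert, if_neg (by simpa using hg)]
      rw [a0, Finset.sum_congr rfl e4]
      refine le_trans (le_of_eq ?_) h2
      rw [M.Esum_insert _ _ hD0]
      apply Finset.sum_congr rfl
      intro S _
      congr 1
      exact M.VF_cons_self_mem o F h0 l _ hg
    · have a0 : (insert h0 l.toFinset).filter (fun e => e ∉ F) =
          insert h0 (l.toFinset.filter (fun e => e ∉ F)) := by
        rw [Finset.filter_insert, if_pos hg]
      have hnot' : h0 ∉ l.toFinset.filter (fun e => e ∉ F) := fun h => hnot (Finset.mem_filter.1 h).1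
      rw [a0, Finset.sum_insert hnot', Finset.sum_congr rfl e4]
      have a1 : (insert h0 l.toFinset).filter (fun e => t e < t h0) = ∅ := by
        ext e
        simp only [Finset.mem_filter, Finset.mem_insert, List.mem_toFinset, Finset.notMem_empty, iff_false]
        rintro ⟨rfl | he, hlt⟩
        · exact lt_irrefl _ hlt
        · exact lt_asymm hlt (hmin e he)
      have a2 : (h0 :: l).filter (fun e => decide (t h0 < t e)) = l := by
        rw [List.filter_cons_of_neg (by simp)]
        exact List.filter_eq_self.2 (by simpa using hmin)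
      rw [a1, a2, Finset.union_empty]
      have h3 : M.Esum D (fun c => M.VF o F (h0 :: l) c c) ≤
          M.Esum D (fun c => M.W o h0 c (res F l)) + M.Esum (insert h0 D) (fun c => M.VF o F l c c) := by
        rw [M.Esum_insert _ _ hD0, ← Esum_add]
        exact M.Esum_mono fun S _ _ => M.VF_cons_self_not_mem o F h0 l _ hg
      linarith

end MassSys
end Crest.Agent.SRC
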