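import Crest.Agent.Lib.SRC.Defs

/-!
Elementary facts on the sequential chain (helper7): sorted lists, transport along embeddings,
joint measurability, consequences of the mass axioms.
-/

open MeasureTheory

namespace Crest.Agent.SRC

set_option linter.unusedSectionVars false
set_option linter.unusedSimpArgs false

local notation "I" => unitInterval

section Sorted
variable {E : Type*} [DecidableEq E]

theorem mem_cmpRel (t : E → I) (Z : Finset E) (a b : E) :
    (a, b) ∈ cmpRel t Z ↔ a ∈ Z ∧ b ∈ Z ∧ (t a : ℝ) ≤ t b := by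
  classical
  simp [cmpRel, and_assoc]

/-- The comparison relation of a label function. -/
def leRel (t : E → I) (a b : E) : Prop := (t a : ℝ) ≤ t b

instance (t : E → I) : Std.Total (leRel t) := ⟨fun a b => le_total (t a : ℝ) (t b)⟩
instance (t : E → I) : IsTrans E (leRel t) := ⟨fun _ _ _ h h' => le_trans h h'⟩

open Classical in
theorem sortedL_eq (t : E → I) (Z : Finset E) :
    sortedL t Z = List.insertionSort (leRel t) Z.toList := by
  have := List.map_insertionSort (fun a b => (a, b) ∈ cmpRel t Z) (leRel t) id Z.toList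
    (by
      intro a ha b hb
      rw [mem_cmpRel]
      have ha' : a ∈ Z := by simpa using ha
      have hb' : b ∈ Z := by simpa using hb
      simp [ha', hb', leRel])
  simpa [sortedL, srt] using this

theorem sortedL_perm_cb (t : E → I) (Z : Finset E) : (sortedL t Z).Perm Z.toList := by
  classical
  rw [sortedL_eq]
  exact List.perm_insertionSort _ _

theorem mem_sortedL_cb (t : E → I) (Z : Finset E) (a : E) : a ∈ sortedL t Z ↔ a ∈ Z := by
  rw [(sortedL_perm_cb t Z).mem_iff]; simp

theorem sortedL_pairwise (t : E → I) (Z : Finset E) : (sortedL t Z).Pairwise (leRel t) := by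
  classical
  rw [sortedL_eq]
  exact List.pairwise_insertionSort _ _

theorem sortedL_nodup_cb (t : E → I) (Z : Finset E) : (sortedL t Z).Nodup :=
  (sortedL_perm_cb t Z).nodup_iff.mpr Z.nodup_toList

/-- A list without repeats, with the members of `Z`, increasing for an injective `t`,
is `sortedL t Z`. -/
theorem eq_sortedL {t : E → I} {Z : Finset E} (ht : Set.InjOn t Z) {l : List E}
    (hmem : ∀ a, a ∈ l ↔ a ∈ Z) (hnd : l.Nodup) (hs : l.Pairwise (leRel t)) :
    l = sortedL t Z := by
  refine List.Perm.eq_of_pairwise (le := leRel t) ?_ hs (sortedL_pairwise t Z) ?_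
  · intro a b ha hb hab hba
    have ha' : a ∈ Z := (hmem a).1 ha
    have hb' : b ∈ Z := (mem_sortedL_cb t Z b).1 hb
    exact ht ha' hb' (Subtype.ext (le_antisymm hab hba))
  · refine (List.perm_ext_iff_of_nodup hnd (sortedL_nodup_cb t Z)).2 ?_
    intro a
    rw [hmem, mem_sortedL_cb]

theorem mem_below (t : E → I) (F : Finset E) (o a : E) :
    a ∈ below t F o ↔ a ≠ o ∧ a ∈ F ∧ (t a : ℝ) < t o := by
  classical
  simp [below, mem_sortedL_cb, and_assoc]

theorem below_pairwise (t : E → I) (F : Finset E) (o : E) :
    (below t F o).Pairwise (leRel t) := sortedL_pairwise _ _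

theorem below_nodup (t : E → I) (F : Finset E) (o : E) : (below t F o).Nodup :=
  sortedL_nodup_cb _ _

/-- Characterization of `below` for labels injective on `F`. -/
theorem eq_below {t : E → I} {F : Finset E} {o : E} (ht : Set.InjOn t F) {l : List E}
    (hmem : ∀ a, a ∈ l ↔ a ≠ o ∧ a ∈ F ∧ (t a : ℝ) < t o) (hnd : l.Nodup)
    (hs : l.Pairwise (leRel t)) : l = below t F o := by
  classical
  refine eq_sortedL ?_ ?_ hnd hs
  · intro a ha b hb hab
    simp only [Finset.coe_filter, Finset.mem_erase, Set.mem_ofPred_eq] at ha hb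
    exact ht ha.1.2 hb.1.2 hab
  · intro a
    rw [hmem]
    simp [and_assoc]

/-- Transport of `below` along an embedding. -/
theorem below_map {E₂ : Type*} [DecidableEq E₂] (ι : E₂ ↪ E) (t : E → I) (F : Finset E₂) (o : E₂)
    (ht : Set.InjOn t (F.map ι : Finset E)) :
    (below (t ∘ ι) F o).map ι = below t (F.map ι) (ι o) := by
  refine eq_below ht ?_ ?_ ?_
  · intro a
    simp only [List.mem_map, mem_below, Function.comp, Finset.mem_map]
    constructor
    · rintro ⟨b, ⟨hbo, hbF, hb⟩, rfl⟩
      exact ⟨fun h => hbo (ι.injective h), ⟨b, hbF, rfl⟩, hb⟩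
    · rintro ⟨hao, ⟨b, hbF, rfl⟩, hb⟩
      exact ⟨b, ⟨fun h => hao (by rw [h]), hbF, hb⟩, rfl⟩
  · exact (below_nodup _ _ _).map ι.injective
  · rw [List.pairwise_map]
    exact below_pairwise (t ∘ ι) F o

end Sorted

namespace MassSys

variable {E : Type*} [DecidableEq E] (M : MassSys E)

/-- Transport of the conditional probability along an embedding. -/
theorem a_map {E₂ : Type*} [DecidableEq E₂] (M₂ : MassSys E₂) (ι : E₂ ↪ E)
    (hm : ∀ P Q, M₂.m P Q = M.m (P.map ι) (Q.map ι)) (c : St E₂) (g : E₂) :
    M₂.a c g = M.a (c.1.map ι, c.2.map ι) (ι g) := by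
  simp [a, hm, Finset.map_insert]

/-- Transport of a run along an embedding. -/
theorem run_map {E₂ : Type*} [DecidableEq E₂] (M₂ : MassSys E₂) (ι : E₂ ↪ E)
    (hm : ∀ P Q, M₂.m P Q = M.m (P.map ι) (Q.map ι)) (v : E → I) (l : List E₂) (c : St E₂) :
    M.run v (c.1.map ι, c.2.map ι) (l.map ι) =
      ((M₂.run (v ∘ ι) c l).1.map ι, (M₂.run (v ∘ ι) c l).2.map ι) := by
  induction l generalizing c with
  | nil => rfl
  | cons g l ih =>
    simp only [List.map_cons, run, List.foldl_cons]
    have h := ih (M₂.step (v ∘ ι) c g)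
    simp only [run] at h
    rw [← h]
    congr 1
    simp only [step, a_map M M₂ ι hm, Function.comp]
    split_ifs <;> simp [Finset.map_insert]

/-- Transport of the chain output along an embedding of the sites. -/
theorem out_embed {E₂ : Type*} [DecidableEq E₂] (M₂ : MassSys E₂) (ι : E₂ ↪ E)
    (hm : ∀ P Q, M₂.m P Q = M.m (P.map ι) (Q.map ι)) (t v : E → I) (F : Finset E₂) (o : E₂)
    (ht : Set.InjOn t (F.map ι : Finset E)) :
    M₂.out (t ∘ ι) (v ∘ ι) F o = M.out t v (F.map ι) (ι o) := by
  classical
  have h1 := run_map M M₂ ι hm v (below (t ∘ ι) F o) (∅, ∅)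
  rw [below_map ι t F o ht] at h1
  have h2 : M.a (M.run v (∅, ∅) (below t (F.map ι) (ι o))) (ι o) =
      M₂.a (M₂.run (v ∘ ι) (∅, ∅) (below (t ∘ ι) F o)) o := by
    rw [a_map M M₂ ι hm, ← h1]
    simp
  simp only [out, h2, Function.comp]

/-- `out_equiv` is the special case of a bijection. -/
theorem out_equiv' (M' : MassSys E) (ι : E ≃ E)
    (hm : ∀ P Q, M'.m P Q = M.m (P.map ι.toEmbedding) (Q.map ι.toEmbedding))
    (t v : E → I) (F : Finset E) (o : E)
    (ht : Set.InjOn t (F.map ι.toEmbedding : Finset E)) :
    M'.out (t ∘ ι) (v ∘ ι) F o = M.out t v (F.map ι.toEmbedding) (ι o) :=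
  out_embed M M' ι.toEmbedding hm t v F o ht

/-! ### Consequences of the axioms -/

/-- Absent sites can be added by subtraction. -/
theorem m_insert_right (P Q : Finset E) (g : E) :
    M.m P (insert g Q) = M.m P Q - M.m (insert g P) Q := by
  linarith [M.split P Q g]

/-- Summing out the finite set `W` of undetermined sites. -/
theorem sum_powerset (W P Q : Finset E) :
    ∑ R ∈ W.powerset, M.m (P ∪ R) (Q ∪ (W \ R)) = M.m P Q := by
  induction W using Finset.induction_on generalizing P Q with
  | empty => simp
  | insert g W hg ih =>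
    rw [Finset.sum_powerset_insert hg]
    have h1 : ∑ R ∈ W.powerset, M.m (P ∪ R) (Q ∪ (insert g W \ R)) = M.m P (insert g Q) := by
      rw [← ih P (insert g Q)]
      refine Finset.sum_congr rfl fun R hR => ?_
      congr 1
      have hgR : g ∉ R := fun h => hg (Finset.mem_powerset.1 hR h)
      ext x
      simp only [Finset.mem_union, Finset.mem_sdiff, Finset.mem_insert]
      grind
    have h2 : ∑ R ∈ W.powerset, M.m (P ∪ insert g R) (Q ∪ (insert g W \ insert g R)) =
        M.m (insert g P) Q := by
      rw [← ih (insert g P) Q]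
      refine Finset.sum_congr rfl fun R hR => ?_
      congr 1
      · ext x
        simp only [Finset.mem_union, Finset.mem_insert]
        grind
      · ext x
        simp only [Finset.mem_union, Finset.mem_sdiff, Finset.mem_insert]
        grind
    rw [h1, h2]
    linarith [M.split P Q g]

/-- Extensionality: the masses of inclusion events determine all masses. -/
theorem m_ext (M' : MassSys E) (h : ∀ P, M.m P ∅ = M'.m P ∅) (P Q : Finset E) :
    M.m P Q = M'.m P Q := by
  induction Q using Finset.induction_on generalizing P with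
  | empty => exact h P
  | insert g Q _ ih => rw [m_insert_right, m_insert_right, ih, ih]

end MassSys

/-! ### Measurability -/

section Meas

/-- Piecewise definition along a countable measurable partition. -/
theorem measurable_cases {Ω β γ : Type*} [MeasurableSpace Ω] [MeasurableSpace γ] [Countable β]
    (h : Ω → β) (hh : ∀ b, MeasurableSet (h ⁻¹' {b})) (f : β → Ω → γ)
    (hf : ∀ b, Measurable (f b)) : Measurable (fun ω => f (h ω) ω) := by
  intro s hs
  have : (fun ω => f (h ω) ω) ⁻¹' s = ⋃ b, (h ⁻¹' {b}) ∩ (f b ⁻¹' s) := by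
    ext ω
    simp
  rw [this]
  exact MeasurableSet.iUnion fun b => (hh b).inter (hf b hs)

variable {Ω : Type*} [MeasurableSpace Ω]
variable {E : Type*} [DecidableEq E] [Countable E]

theorem measurableSet_le_label {t : Ω → E → I} (ht : ∀ e, Measurable fun ω => t ω e) (a b : E) :
    MeasurableSet {ω | (t ω a : ℝ) ≤ t ω b} :=
  measurableSet_le (measurable_subtype_coe.comp (ht a)) (measurable_subtype_coe.comp (ht b))

theorem measurableSet_iff_const {A : Set Ω} (hA : MeasurableSet A) (c : Prop) :
    MeasurableSet {ω | ω ∈ A ↔ c} := by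
  by_cases hc : c
  · have : {ω | ω ∈ A ↔ c} = A := by ext ω; simp [hc]
    rw [this]; exact hA
  · have : {ω | ω ∈ A ↔ c} = Aᶜ := by ext ω; simp [hc]
    rw [this]; exact hA.compl

theorem measurableSet_cmpRel_eq {t : Ω → E → I} (ht : ∀ e, Measurable fun ω => t ω e)
    (Z : Finset E) (R : Finset (E × E)) :
    MeasurableSet {ω | cmpRel (t ω) Z = R} := by
  classical
  by_cases hR : R ⊆ Z ×ˢ Z
  · have : {ω | cmpRel (t ω) Z = R} =
        ⋂ p ∈ (Z ×ˢ Z), {ω | ω ∈ {ω | (t ω p.1 : ℝ) ≤ t ω p.2} ↔ p ∈ R} := by
      ext ω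
      simp only [Set.mem_ofPred_eq, Set.mem_iInter]
      constructor
      · rintro rfl p hp
        simp only [cmpRel, Finset.mem_filter]
        tauto
      · intro h
        ext q
        simp only [cmpRel, Finset.mem_filter]
        constructor
        · rintro ⟨hq, hle⟩; exact (h q hq).1 hle
        · intro hq
          have hq' := hR hq
          exact ⟨hq', (h q hq').2 hq⟩
    rw [this]
    exact MeasurableSet.biInter (Finset.countable_toSet _) fun p _ =>
      measurableSet_iff_const (measurableSet_le_label ht p.1 p.2) _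
  · have : {ω | cmpRel (t ω) Z = R} = ∅ := by
      ext ω
      simp only [Set.mem_ofPred_eq, Set.mem_empty_iff_false, iff_false]
      rintro rfl
      exact hR (Finset.filter_subset _ _)
    rw [this]
    exact MeasurableSet.empty

theorem measurableSet_belowSet_eq {t : Ω → E → I} (ht : ∀ e, Measurable fun ω => t ω e)
    (F : Finset E) (o : E) (Z : Finset E) :
    MeasurableSet {ω | ((F.erase o).filter (fun e => (t ω e : ℝ) < t ω o)) = Z} := by
  classical
  by_cases hZ : Z ⊆ F.erase o
  · have : {ω | ((F.erase o).filter (fun e => (t ω e : ℝ) < t ω o)) = Z} =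
        ⋂ e ∈ F.erase o, {ω | ω ∈ {ω | (t ω o : ℝ) ≤ t ω e}ᶜ ↔ e ∈ Z} := by
      ext ω
      simp only [Set.mem_ofPred_eq, Set.mem_iInter, Set.mem_compl_iff, not_le]
      constructor
      · rintro rfl e he
        simp only [Finset.mem_filter]
        tauto
      · intro h
        ext e
        simp only [Finset.mem_filter]
        constructor
        · rintro ⟨he, hlt⟩; exact (h e he).1 hlt
        · intro he
          exact ⟨hZ he, (h e (hZ he)).2 he⟩
    rw [this]
    exact MeasurableSet.biInter (Finset.countable_toSet _) fun e _ =>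
      measurableSet_iff_const (measurableSet_le_label ht o e).compl _
  · have : {ω | ((F.erase o).filter (fun e => (t ω e : ℝ) < t ω o)) = Z} = ∅ := by
      ext ω
      simp only [Set.mem_ofPred_eq, Set.mem_empty_iff_false, iff_false]
      rintro rfl
      exact hZ (Finset.filter_subset _ _)
    rw [this]
    exact MeasurableSet.empty

/-- `below` takes each value on a measurable set. -/
theorem measurableSet_below_eq {t : Ω → E → I} (ht : ∀ e, Measurable fun ω => t ω e)
    (F : Finset E) (o : E) (l : List E) :
    MeasurableSet {ω | below (t ω) F o = l} := by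
  classical
  have : {ω | below (t ω) F o = l} =
      ⋃ Z : Finset E, ⋃ R : Finset (E × E),
        {ω | ((F.erase o).filter (fun e => (t ω e : ℝ) < t ω o)) = Z} ∩
          ({ω | cmpRel (t ω) Z = R} ∩ {_ω | srt R Z = l}) := by
    ext ω
    simp only [Set.mem_ofPred_eq, Set.mem_iUnion, Set.mem_inter_iff, exists_and_left, exists_prop]
    constructor
    · intro h
      refine ⟨_, rfl, _, rfl, ?_⟩
      rw [← h]
      simp only [below, sortedL]
    · rintro ⟨Z, hZ, R, hR, hl⟩
      rw [← hl, ← hR, ← hZ]
      simp only [below, sortedL]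
  rw [this]
  refine MeasurableSet.iUnion fun Z => MeasurableSet.iUnion fun R => ?_
  exact (measurableSet_belowSet_eq ht F o Z).inter
    ((measurableSet_cmpRel_eq ht Z R).inter (MeasurableSet.const _))

namespace MassSys

variable (Mf : Ω → MassSys E) (hM : ∀ P Q, Measurable fun ω => (Mf ω).m P Q)
include hM

theorem measurable_a (c : St E) (g : E) : Measurable fun ω => (Mf ω).a c g := by
  simp only [a]
  exact (hM _ _).div (hM _ _)

theorem measurableSet_lt_a {v : Ω → E → I} (hv : ∀ e, Measurable fun ω => v ω e) (c : St E)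
    (g : E) : MeasurableSet {ω | ((v ω g : I) : ℝ) < (Mf ω).a c g} :=
  measurableSet_lt (measurable_subtype_coe.comp (hv g)) (measurable_a Mf hM c g)

theorem measurableSet_run_eq {v : Ω → E → I} (hv : ∀ e, Measurable fun ω => v ω e)
    (l : List E) (c c₀ : St E) : MeasurableSet {ω | (Mf ω).run (v ω) c l = c₀} := by
  classical
  induction l generalizing c with
  | nil =>
    by_cases h : c = c₀
    · simp [run, h]
    · simp [run, h]
  | cons g l ih =>
    have hs : {ω | (Mf ω).run (v ω) c (g :: l) = c₀} =
        ({ω | ((v ω g : I) : ℝ) < (Mf ω).a c g} ∩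
            {ω | (Mf ω).run (v ω) (insert g c.1, c.2) l = c₀}) ∪
          ({ω | ((v ω g : I) : ℝ) < (Mf ω).a c g}ᶜ ∩
            {ω | (Mf ω).run (v ω) (c.1, insert g c.2) l = c₀}) := by
      ext ω
      by_cases h : ((v ω g : I) : ℝ) < (Mf ω).a c g <;>
        simp [run, step, h]
    rw [hs]
    exact ((measurableSet_lt_a Mf hM hv c g).inter (ih _)).union
      ((measurableSet_lt_a Mf hM hv c g).compl.inter (ih _))

/-- Joint measurability of the output in a parameter. -/
theorem measurable_out_param' (t v : Ω → E → I) (ht : ∀ e, Measurable fun ω => t ω e)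
    (hv : ∀ e, Measurable fun ω => v ω e) (F : Finset E) (o : E) :
    Measurable fun ω => (Mf ω).out (t ω) (v ω) F o := by
  classical
  refine measurable_to_bool ?_
  have : (fun ω => (Mf ω).out (t ω) (v ω) F o) ⁻¹' {true} =
      ⋃ l : List E, ⋃ c : St E, {ω | below (t ω) F o = l} ∩
        ({ω | (Mf ω).run (v ω) (∅, ∅) l = c} ∩ {ω | ((v ω o : I) : ℝ) < (Mf ω).a c o}) := by
    ext ω
    simp only [Set.mem_preimage, Set.mem_singleton_iff, Set.mem_iUnion, Set.mem_inter_iff,
      Set.mem_ofPred_eq, exists_and_left, exists_prop, out, decide_eq_true_eq]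
    constructor
    · intro h
      exact ⟨_, rfl, _, rfl, h⟩
    · rintro ⟨l, hl, c, hc, h⟩
      rw [hl, hc]
      exact h
  rw [this]
  exact MeasurableSet.iUnion fun l => MeasurableSet.iUnion fun c =>
    (measurableSet_below_eq ht F o l).inter
      ((measurableSet_run_eq Mf hM hv l _ c).inter (measurableSet_lt_a Mf hM hv c o))

end MassSys

end Meas

end Crest.Agent.SRC
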