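import Mathlib
import Crest.Prelude.Def_Labels

/-!
Common interface for rows S0254/S0255 (helper4): abstract consistent masses, sequential chain.
-/

open MeasureTheory

namespace Crest.Agent.SRC

/-- Consistent masses: `m P Q` = mass of "all of `P` present, all of `Q` absent". -/
structure MassSys (E : Type*) [DecidableEq E] where
  m : Finset E → Finset E → ℝ
  nonneg : ∀ P Q, 0 ≤ m P Q
  empty : m ∅ ∅ = 1
  contra : ∀ P Q, ¬ Disjoint P Q → m P Q = 0
  split : ∀ P Q g, m P Q = m (insert g P) Q + m P (insert g Q)

/-- States of the chain: (present, absent). -/
abbrev St (E : Type*) := Finset E × Finset E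

namespace MassSys

variable {E : Type*} [DecidableEq E] (M : MassSys E)

/-- Pairwise negative correlation under every finite conditioning (cross-multiplied). -/
def NC : Prop :=
  ∀ (P Q : Finset E) (f g : E), f ≠ g → f ∉ P → f ∉ Q → g ∉ P → g ∉ Q →
    M.m (insert f (insert g P)) Q * M.m P Q ≤ M.m (insert f P) Q * M.m (insert g P) Q

/-- Row-sum bound (stochastic covering) under every finite conditioning (cross-multiplied):
`∑_{f∈J} |Cov^c(f,g)| ≤ π_g^c`, multiplied by `m(c)^2`. -/
def ROW : Prop :=
  ∀ (P Q : Finset E) (g : E) (J : Finset E), g ∉ J → g ∉ P → g ∉ Q → Disjoint J P → Disjoint J Q →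
    ∑ f ∈ J, (M.m (insert f P) Q * M.m (insert g P) Q - M.m (insert f (insert g P)) Q * M.m P Q)
      ≤ M.m (insert g P) Q * M.m P (insert g Q)

/-- Conditional probability of `g` given state `c`. -/
noncomputable def a (c : St E) (g : E) : ℝ := M.m (insert g c.1) c.2 / M.m c.1 c.2

/-- One step of the chain. -/
noncomputable def step (v : E → unitInterval) (c : St E) (g : E) : St E :=
  open Classical in
  if ((v g : unitInterval) : ℝ) < M.a c g then (insert g c.1, c.2) else (c.1, insert g c.2)

/-- Run the chain along a list of sites. -/
noncomputable def run (v : E → unitInterval) (c : St E) (l : List E) : St E :=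
  l.foldl (M.step v) c

end MassSys

/-- Sort a finset by a relation given as a finset of pairs (insertion sort of `Z.toList`). -/
noncomputable def srt {E : Type*} [DecidableEq E] (R : Finset (E × E)) (Z : Finset E) : List E :=
  List.insertionSort (fun a b => (a, b) ∈ R) Z.toList

/-- The comparison relation of labels on `Z`. -/
noncomputable def cmpRel {E : Type*} [DecidableEq E] (t : E → unitInterval) (Z : Finset E) :
    Finset (E × E) :=
  open Classical in (Z ×ˢ Z).filter (fun p => (t p.1 : ℝ) ≤ t p.2)

/-- `Z` sorted by increasing label. -/
noncomputable def sortedL {E : Type*} [DecidableEq E] (t : E → unitInterval) (Z : Finset E) : List E :=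
  srt (cmpRel t Z) Z

/-- The sites of `F` other than `o` with label below that of `o`, in label order. -/
noncomputable def below {E : Type*} [DecidableEq E] (t : E → unitInterval) (F : Finset E) (o : E) :
    List E :=
  open Classical in sortedL t ((F.erase o).filter (fun e => (t e : ℝ) < t o))

namespace MassSys
variable {E : Type*} [DecidableEq E] (M : MassSys E)

/-- Output of the chain on the finite set `F` at the site `o`. -/
noncomputable def out (t v : E → unitInterval) (F : Finset E) (o : E) : Bool :=
  open Classical in decide (((v o : unitInterval) : ℝ) < M.a (M.run v (∅, ∅) (below t F o)) o)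

end MassSys

/-- The canonical law of the two independent label fields on the sites. -/
noncomputable def muL (E : Type*) : Measure ((E → unitInterval) × (E → unitInterval)) :=
  (Crest.ProbabilityR.Labels.labelMeasure E).prod (Crest.ProbabilityR.Labels.labelMeasure E)

end Crest.Agent.SRC
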