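import Crest.Agent.Lib.SRC.Defs
import Crest.Agent.Lib.SRCore

/-!
The consistent masses of a probability law on binary configurations; strongly Rayleigh laws satisfy
the hypotheses `NC`, `ROW`; shift invariance of the masses.
-/

open MeasureTheory Crest.ProbabilityR.StronglyRayleigh

namespace Crest.Agent.SRC

variable {ι : Type*} [DecidableEq ι]

omit [DecidableEq ι] in
lemma cyl_eq_empty {P Q : Finset ι} (h : ¬ Disjoint P Q) : SRCore.cyl P Q = ∅ := by
  obtain ⟨g, hgP, hgQ⟩ := Finset.not_disjoint_iff.mp h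
  ext ω
  simp only [SRCore.cyl, Set.mem_ofPred_eq, Set.mem_empty_iff_false, iff_false, not_and]
  intro h1 h2
  have h3 := h1 g hgP
  have h4 := h2 g hgQ
  rw [h3] at h4
  exact absurd h4 (by simp)

/-- The masses of a probability law on configurations. -/
noncomputable def massOfMeasure (ν : Measure (ι → Bool)) [IsProbabilityMeasure ν] : MassSys ι where
  m := SRCore.mass ν
  nonneg := SRCore.mass_nonneg ν
  empty := by
    have : SRCore.cyl (∅ : Finset ι) ∅ = Set.univ := by
      ext ω; simp [SRCore.cyl]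
    simp [SRCore.mass, this]
  contra := by
    intro P Q h
    simp [SRCore.mass, cyl_eq_empty h]
  split := SRCore.mass_add ν

variable (ν : Measure (ι → Bool)) [IsProbabilityMeasure ν]

theorem massOfMeasure_m (P Q : Finset ι) :
    (massOfMeasure ν).m P Q = (ν (SRCore.cyl P Q)).toReal := rfl

theorem massOfMeasure_NC (hsr : IsStronglyRayleigh ν) : (massOfMeasure ν).NC := by
  intro P Q f g hfg hfP hfQ hgP hgQ
  by_cases hPQ : Disjoint P Q
  · exact SRCore.mass_nc hsr hPQ hfP hgP hgQ hfg
  · have h0 : (massOfMeasure ν).m P Q = 0 := (massOfMeasure ν).contra P Q hPQ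
    rw [h0, mul_zero]
    exact mul_nonneg ((massOfMeasure ν).nonneg _ _) ((massOfMeasure ν).nonneg _ _)

theorem massOfMeasure_ROW (hsr : IsStronglyRayleigh ν) : (massOfMeasure ν).ROW := by
  intro P Q g J hgJ hgP hgQ hJP hJQ
  by_cases hPQ : Disjoint P Q
  · have hrow := SRCore.mass_row (ν := ν) hsr hPQ hJP.symm hgP hgQ hgJ
    refine le_trans (Finset.sum_le_sum fun f _ => ?_) hrow
    have h1 := SRCore.mass_add ν P Q g
    have h2 := SRCore.mass_add ν (insert f P) Q g
    rw [Finset.insert_comm] at h2
    change SRCore.mass ν (insert f P) Q * SRCore.mass ν (insert g P) Q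
      - SRCore.mass ν (insert f (insert g P)) Q * SRCore.mass ν P Q ≤ _
    rw [h1, h2, abs_sub_comm]
    refine le_trans (le_of_eq ?_) (le_abs_self _)
    ring
  · have hne : ∀ x, ¬ Disjoint (insert x P) Q := by
      intro x hd
      exact hPQ (Finset.disjoint_of_subset_left (Finset.subset_insert x P) hd)
    have h0 : ∀ x, (massOfMeasure ν).m (insert x P) Q = 0 := fun x =>
      (massOfMeasure ν).contra _ _ (hne x)
    rw [h0 g, zero_mul]
    refine Finset.sum_nonpos fun f _ => ?_
    rw [h0 f, (massOfMeasure ν).contra P Q hPQ]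
    simp

/-- Shift invariance of the masses. -/
theorem massOfMeasure_shift {Γ : Type*} [Group Γ] [DecidableEq Γ]
    (ν : Measure (Γ → Bool)) [IsProbabilityMeasure ν] (hinv : IsShiftInvariant ν) (h : Γ)
    (P Q : Finset Γ) :
    (massOfMeasure ν).m P Q =
      (massOfMeasure ν).m (P.map (Equiv.mulLeft h).toEmbedding) (Q.map (Equiv.mulLeft h).toEmbedding) := by
  have := hinv h⁻¹ (SRCore.cyl P Q) (SRCore.measurableSet_cyl P Q)
  rw [massOfMeasure_m, massOfMeasure_m, ← this]
  congr 2
  ext ω
  simp only [SRCore.cyl, leftShift, Set.mem_preimage, Set.mem_ofPred_eq, inv_inv, Finset.mem_map,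
    Equiv.coe_toEmbedding, Equiv.coe_mulLeft, forall_exists_index, and_imp,
    forall_apply_eq_imp_iff₂]

end Crest.Agent.SRC
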