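import Mathlib
import Crest.Prelude.Def_Labels

/-!
Splitting independent uniform labels (helper7, rows S0254/S0255):
* `split_law`: two injective reindexings with disjoint ranges give independent label fields.
* `Psi`: a measurable map `I → (ℕ → I)` pushing Lebesgue to i.i.d. uniform.
* `curry_law`: applying `Psi` coordinatewise gives i.i.d. labels indexed by `V × ℕ`.
* `ae_injective`: i.i.d. labels on a countable set are a.s. injective.
-/

open MeasureTheory Measure Crest.ProbabilityR.Labels

namespace Crest.Agent.SRC.Split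

local notation "I" => unitInterval

instance labelMeasure_isProb (V : Type*) : IsProbabilityMeasure (labelMeasure V) := by
  unfold labelMeasure; infer_instance

theorem labelMeasure_pi {V : Type*} (s : Finset V) (t : V → Set I)
    (ht : ∀ i ∈ s, MeasurableSet (t i)) :
    labelMeasure V (Set.pi s t) = ∏ i ∈ s, volume (t i) :=
  infinitePi_pi _ ht

theorem univ_mem_squareCylinders {ι : Type*} :
    (Set.univ : Set (ι → I)) ∈ squareCylinders (fun _ : ι => {s : Set I | MeasurableSet s}) := by
  refine ⟨∅, fun _ => Set.univ, ?_, ?_⟩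
  · intro i _; exact (MeasurableSet.univ : MeasurableSet (Set.univ : Set I))
  · simp

/-- The trivial finite spanning sets for the label measure, in square cylinders. -/
noncomputable def spanning (ι : Type*) :
    (labelMeasure ι).FiniteSpanningSetsIn
      (squareCylinders (fun _ : ι => {s : Set I | MeasurableSet s})) where
  set := fun _ => Set.univ
  set_mem := fun _ => univ_mem_squareCylinders
  finite := fun _ => measure_lt_top _ _
  spanning := by simp [Set.iUnion_const]

/-- Two injective reindexings with disjoint ranges give independent i.i.d. label fields. -/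
theorem split_law {ι ι₀ ι₁ : Type*} (f₀ : ι₀ → ι) (f₁ : ι₁ → ι)
    (h₀ : Function.Injective f₀) (h₁ : Function.Injective f₁) (hd : ∀ a b, f₀ a ≠ f₁ b) :
    (labelMeasure ι).map (fun y => (y ∘ f₀, y ∘ f₁)) =
      (labelMeasure ι₀).prod (labelMeasure ι₁) := by
  classical
  have hm : Measurable (fun y : ι → I => (y ∘ f₀, y ∘ f₁)) := by
    refine Measurable.prodMk ?_ ?_ <;>
    · refine measurable_pi_iff.mpr fun a => ?_
      exact measurable_pi_apply _
  symm
  refine MeasureTheory.Measure.prod_eq_generateFrom generateFrom_squareCylinders generateFrom_squareCylinders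
    (isPiSystem_squareCylinders (fun _ => MeasurableSpace.isPiSystem_measurableSet) (by simp))
    (isPiSystem_squareCylinders (fun _ => MeasurableSpace.isPiSystem_measurableSet) (by simp))
    (spanning ι₀) (spanning ι₁) ?_
  rintro _ ⟨s₀, t₀, ht₀, rfl⟩ _ ⟨s₁, t₁, ht₁, rfl⟩
  have ht₀' : ∀ a, MeasurableSet (t₀ a) := fun a => ht₀ a (Set.mem_univ _)
  have ht₁' : ∀ a, MeasurableSet (t₁ a) := fun a => ht₁ a (Set.mem_univ _)
  -- the combined box
  let W : ι → Set I := Function.extend f₀ t₀ (Function.extend f₁ t₁ (fun _ => Set.univ))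
  have hW₀ : ∀ a, W (f₀ a) = t₀ a := fun a => h₀.extend_apply _ _ _
  have hW₁ : ∀ b, W (f₁ b) = t₁ b := by
    intro b
    have hnr : ¬ ∃ a, f₀ a = f₁ b := by
      rintro ⟨a, ha⟩; exact hd a b ha
    simp only [W]
    rw [Function.extend_apply' _ _ _ hnr]
    exact h₁.extend_apply _ _ _
  have hWm : ∀ i, MeasurableSet (W i) := by
    intro i
    by_cases h : ∃ a, f₀ a = i
    · obtain ⟨a, rfl⟩ := h; rw [hW₀]; exact ht₀' a
    · by_cases h' : ∃ b, f₁ b = i
      · obtain ⟨b, rfl⟩ := h'; rw [hW₁]; exact ht₁' b
      · simp only [W]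
        rw [Function.extend_apply' _ _ _ h, Function.extend_apply' _ _ _ h']
        exact MeasurableSet.univ
  have hset : (fun y : ι → I => (y ∘ f₀, y ∘ f₁)) ⁻¹'
      (((s₀ : Set ι₀).pi t₀) ×ˢ ((s₁ : Set ι₁).pi t₁)) =
      Set.pi (↑(s₀.map ⟨f₀, h₀⟩ ∪ s₁.map ⟨f₁, h₁⟩) : Set ι) W := by
    ext y
    simp only [Set.mem_preimage, Set.mem_prod, Set.mem_pi, Finset.mem_coe, Function.comp,
      Finset.coe_union, Set.mem_union, Finset.coe_map, Set.mem_image]
    constructor
    · rintro ⟨hy₀, hy₁⟩ i (⟨a, ha, rfl⟩ | ⟨b, hb, rfl⟩)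
      · show y (f₀ a) ∈ W (f₀ a)
        rw [hW₀]; exact hy₀ a ha
      · show y (f₁ b) ∈ W (f₁ b)
        rw [hW₁]; exact hy₁ b hb
    · intro hy
      refine ⟨fun a ha => ?_, fun b hb => ?_⟩
      · have := hy (f₀ a) (Or.inl ⟨a, ha, rfl⟩)
        rwa [hW₀] at this
      · have := hy (f₁ b) (Or.inr ⟨b, hb, rfl⟩)
        rwa [hW₁] at this
  have hmeas : MeasurableSet (((s₀ : Set ι₀).pi t₀) ×ˢ ((s₁ : Set ι₁).pi t₁)) :=
    (MeasurableSet.pi s₀.countable_toSet fun a _ => ht₀' a).prod
      (MeasurableSet.pi s₁.countable_toSet fun a _ => ht₁' a)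
  rw [Measure.map_apply hm hmeas, hset, labelMeasure_pi _ _ (fun i _ => hWm i),
    labelMeasure_pi _ _ (fun i _ => ht₀' i), labelMeasure_pi _ _ (fun i _ => ht₁' i)]
  have hdisj : Disjoint (s₀.map ⟨f₀, h₀⟩) (s₁.map ⟨f₁, h₁⟩) := by
    rw [Finset.disjoint_left]
    intro i hi hi'
    simp only [Finset.mem_map, Function.Embedding.coeFn_mk] at hi hi'
    obtain ⟨a, _, rfl⟩ := hi
    obtain ⟨b, _, hb⟩ := hi'
    exact hd a b hb.symm
  rw [Finset.prod_union hdisj, Finset.prod_map, Finset.prod_map]
  simp only [Function.Embedding.coeFn_mk, hW₀, hW₁]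

/-- A measurable map from the unit interval to i.i.d. uniform sequences preserving the measure. -/
theorem exists_Psi : ∃ f : I → ℕ → I, Measurable f ∧ (volume : Measure I).map f = labelMeasure ℕ :=
  Measure.exists_measurable_map_eq (labelMeasure ℕ)

/-- The fixed splitting map. -/
noncomputable def Psi : I → ℕ → I := Classical.choose exists_Psi

theorem Psi_measurable : Measurable Psi := (Classical.choose_spec exists_Psi).1

theorem Psi_map : (volume : Measure I).map Psi = labelMeasure ℕ :=
  (Classical.choose_spec exists_Psi).2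

/-- Apply `Psi` at every index and uncurry. -/
noncomputable def splitAll {V : Type*} (x : V → I) : V × ℕ → I := fun p => Psi (x p.1) p.2

theorem splitAll_measurable {V : Type*} : Measurable (splitAll (V := V)) := by
  refine measurable_pi_iff.mpr fun p => ?_
  exact (measurable_pi_apply p.2).comp (Psi_measurable.comp (measurable_pi_apply p.1))

theorem curry_law {V : Type*} : (labelMeasure V).map splitAll = labelMeasure (V × ℕ) := by
  have h1 : (labelMeasure V).map (fun x u => Psi (x u)) =
      infinitePi (fun _ : V => infinitePi (fun _ : ℕ => (volume : Measure I))) := by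
    unfold labelMeasure
    rw [infinitePi_map_pi (fun _ : V => (volume : Measure I)) (fun _ => Psi_measurable)]
    congr 1
    funext _
    exact Psi_map
  have h2 := infinitePi_map_curry_symm (ι := V) (κ := ℕ) (X := I)
    (fun _ _ => (volume : Measure I))
  have hsplit : (splitAll (V := V)) =
      (MeasurableEquiv.curry V ℕ I).symm ∘ (fun x u => Psi (x u)) := by
    funext x p
    rfl
  rw [hsplit, ← Measure.map_map (MeasurableEquiv.measurable _) ?_, h1, h2]
  · rfl
  · refine measurable_pi_iff.mpr fun u => ?_
    exact Psi_measurable.comp (measurable_pi_apply u)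

/-- Two labels at distinct indices differ almost surely. -/
theorem ae_ne {V : Type*} {a b : V} (hab : a ≠ b) :
    ∀ᵐ y ∂(labelMeasure V), y a ≠ y b := by
  have h := split_law (ι := V) (ι₀ := Unit) (ι₁ := Unit) (fun _ => a) (fun _ => b)
    (fun _ _ _ => rfl) (fun _ _ _ => rfl) (fun _ _ => hab)
  have hm : Measurable (fun y : V → I => ((y ∘ fun _ : Unit => a), (y ∘ fun _ : Unit => b))) := by
    refine Measurable.prodMk ?_ ?_ <;>
    · refine measurable_pi_iff.mpr fun c => ?_
      exact measurable_pi_apply _
  let D : Set ((Unit → I) × (Unit → I)) := {p | p.1 () = p.2 ()}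
  have hD : MeasurableSet D :=
    measurableSet_eq_fun ((measurable_pi_apply ()).comp measurable_fst)
      ((measurable_pi_apply ()).comp measurable_snd)
  have h0 : ((labelMeasure Unit).prod (labelMeasure Unit)) D = 0 := by
    rw [Measure.prod_apply hD]
    have : ∀ p : Unit → I, labelMeasure Unit (Prod.mk p ⁻¹' D) = 0 := by
      intro p
      have : Prod.mk p ⁻¹' D = Set.pi (↑({()} : Finset Unit)) (fun _ => {p ()}) := by
        ext q
        constructor
        · intro h i _
          exact (show q () = p () from Eq.symm h)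
        · intro h
          have := h () (by simp)
          exact Eq.symm this
      rw [this, labelMeasure_pi _ _ (fun _ _ => measurableSet_singleton _)]
      simp
    simp [this]
  rw [← h, Measure.map_apply hm hD] at h0
  rw [ae_iff]
  simpa [D] using h0

/-- i.i.d. labels on a countable index set are almost surely injective. -/
theorem ae_injective {V : Type*} [Countable V] :
    ∀ᵐ y ∂(labelMeasure V), Function.Injective y := by
  have : ∀ᵐ y ∂(labelMeasure V), ∀ a b : V, a ≠ b → y a ≠ y b := by
    rw [ae_all_iff]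
    intro a
    rw [ae_all_iff]
    intro b
    by_cases hab : a = b
    · subst hab; simp
    · filter_upwards [ae_ne hab] with y hy _ using hy
  filter_upwards [this] with y hy a b hab
  by_contra hne
  exact hy a b hne hab

end Crest.Agent.SRC.Split
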