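import Crest.Agent.Lib.SRC.ChainBasic
import Crest.Agent.Lib.SRC.Split

/-!
Exact law of the sequential chain on a finite set (helper6): `out_law_proved`.
-/

open MeasureTheory
open scoped ENNReal
open Crest.Agent.SRC.Split

namespace Crest.Agent.SRC

set_option linter.unusedSectionVars false

local notation "I" => unitInterval

namespace MassSys

variable {E : Type*} [DecidableEq E] (M : MassSys E)

lemma a_nonneg_ol (c : St E) (g : E) : 0 ≤ M.a c g :=
  div_nonneg (M.nonneg _ _) (M.nonneg _ _)

lemma a_le_one_ol (c : St E) (g : E) : M.a c g ≤ 1 := by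
  unfold a
  apply div_le_one_of_le₀
  · have := M.split c.1 c.2 g
    have h2 := M.nonneg c.1 (insert g c.2)
    linarith
  · exact M.nonneg _ _

/-- mass multiplication rule, present -/
lemma m_mul_a (c : St E) (g : E) : M.m c.1 c.2 * M.a c g = M.m (insert g c.1) c.2 := by
  unfold a
  by_cases h : M.m c.1 c.2 = 0
  · rw [h, zero_mul]
    have := M.split c.1 c.2 g
    have h1 := M.nonneg c.1 (insert g c.2)
    have h2 := M.nonneg (insert g c.1) c.2
    linarith
  · field_simp

/-- mass multiplication rule, absent -/
lemma m_mul_one_sub_a (c : St E) (g : E) :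
    M.m c.1 c.2 * (1 - M.a c g) = M.m c.1 (insert g c.2) := by
  have := M.m_mul_a c g
  have h := M.split c.1 c.2 g
  rw [mul_sub, mul_one, this]
  linarith

/-- deterministic path of states prescribed by `P` -/
def pstep (P : Finset E) (c : St E) (g : E) : St E :=
  if g ∈ P then (insert g c.1, c.2) else (c.1, insert g c.2)

/-- the state after following `P` along a list -/
def path (P : Finset E) (c : St E) (l : List E) : St E := l.foldl (pstep P) c

/-- the labels `v` follow the path prescribed by `P` -/
def good (v : E → I) (P : Finset E) : St E → List E → Prop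
  | _, [] => True
  | c, g :: l => (((v g : I) : ℝ) < M.a c g ↔ g ∈ P) ∧ good v P (pstep P c g) l

lemma step_eq_pstep (v : E → I) (P : Finset E) (c : St E) (g : E)
    (h : ((v g : I) : ℝ) < M.a c g ↔ g ∈ P) : M.step v c g = pstep P c g := by
  unfold step pstep
  by_cases hg : g ∈ P
  · simp [hg, h.mpr hg]
  · have : ¬ ((v g : I) : ℝ) < M.a c g := fun h2 => hg (h.mp h2)
    simp [hg, this]

lemma path_fst_snd (P : Finset E) (c : St E) (l : List E) :
    (path P c l).1 = c.1 ∪ (l.toFinset ∩ P) ∧ (path P c l).2 = c.2 ∪ (l.toFinset \ P) := by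
  induction l generalizing c with
  | nil => simp [path]
  | cons g l ih =>
    have h : path P c (g :: l) = path P (pstep P c g) l := rfl
    rw [h]
    obtain ⟨h1, h2⟩ := ih (pstep P c g)
    rw [h1, h2]
    unfold pstep
    by_cases hg : g ∈ P
    · simp only [hg, if_true]
      constructor
      · ext x
        simp only [Finset.mem_union, Finset.mem_insert, Finset.mem_inter, List.mem_toFinset,
          List.mem_cons]
        constructor
        · rintro ((rfl | h) | h)
          · exact Or.inr ⟨Or.inl rfl, hg⟩
          · exact Or.inl h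
          · exact Or.inr ⟨Or.inr h.1, h.2⟩
        · rintro (h | ⟨rfl | h, h'⟩)
          · exact Or.inl (Or.inr h)
          · exact Or.inl (Or.inl rfl)
          · exact Or.inr ⟨h, h'⟩
      · ext x
        simp only [Finset.mem_union, Finset.mem_sdiff, List.mem_toFinset, List.mem_cons]
        constructor
        · rintro (h | h)
          · exact Or.inl h
          · exact Or.inr ⟨Or.inr h.1, h.2⟩
        · rintro (h | ⟨rfl | h, h'⟩)
          · exact Or.inl h
          · exact absurd hg h'
          · exact Or.inr ⟨h, h'⟩
    · simp only [hg, if_false]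
      constructor
      · ext x
        simp only [Finset.mem_union, Finset.mem_inter, List.mem_toFinset, List.mem_cons]
        constructor
        · rintro (h | h)
          · exact Or.inl h
          · exact Or.inr ⟨Or.inr h.1, h.2⟩
        · rintro (h | ⟨rfl | h, h'⟩)
          · exact Or.inl h
          · exact absurd h' hg
          · exact Or.inr ⟨h, h'⟩
      · ext x
        simp only [Finset.mem_union, Finset.mem_insert, Finset.mem_sdiff, List.mem_toFinset,
          List.mem_cons]
        constructor
        · rintro ((rfl | h) | h)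
          · exact Or.inr ⟨Or.inl rfl, hg⟩
          · exact Or.inl h
          · exact Or.inr ⟨Or.inr h.1, h.2⟩
        · rintro (h | ⟨rfl | h, h'⟩)
          · exact Or.inl (Or.inr h)
          · exact Or.inl (Or.inl rfl)
          · exact Or.inr ⟨h, h'⟩

lemma volume_lt (a : ℝ) (h0 : 0 ≤ a) (h1 : a ≤ 1) :
    (volume : Measure I) {x : I | (x : ℝ) < a} = ENNReal.ofReal a := by
  have : {x : I | (x : ℝ) < a} = Set.Iio (⟨a, h0, h1⟩ : I) := by
    ext x
    exact Iff.rfl
  rw [this, unitInterval.volume_Iio]

lemma volume_not_lt (a : ℝ) (h0 : 0 ≤ a) (h1 : a ≤ 1) :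
    (volume : Measure I) {x : I | ¬ (x : ℝ) < a} = ENNReal.ofReal (1 - a) := by
  have : {x : I | ¬ (x : ℝ) < a} = Set.Ici (⟨a, h0, h1⟩ : I) := by
    ext x
    simp only [Set.mem_ofPred_eq, Set.mem_Ici, not_lt]
    exact Iff.rfl
  rw [this, unitInterval.volume_Ici]

/-- the event `good` is a box with the right product measure -/
lemma good_box (P : Finset E) (c : St E) (l : List E) (hl : l.Nodup) :
    ∃ R : E → Set I, (∀ e, MeasurableSet (R e)) ∧
      {v : E → I | M.good v P c l} = Set.pi (l.toFinset : Set E) R ∧
      M.m c.1 c.2 * ∏ e ∈ l.toFinset, ((volume : Measure I) (R e)).toReal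
        = M.m (path P c l).1 (path P c l).2 := by
  induction l generalizing c with
  | nil =>
    refine ⟨fun _ => Set.univ, fun _ => MeasurableSet.univ, ?_, ?_⟩
    · ext v
      simp [good]
    · simp [path]
  | cons g l ih =>
    have hg : g ∉ l := (List.nodup_cons.mp hl).1
    have hl' : l.Nodup := (List.nodup_cons.mp hl).2
    obtain ⟨R, hRm, hR, hRp⟩ := ih (pstep P c g) hl'
    set a := M.a c g with ha
    have ha0 : 0 ≤ a := M.a_nonneg_ol c g
    have ha1 : a ≤ 1 := M.a_le_one_ol c g
    set R0 : Set I := if g ∈ P then {x : I | (x : ℝ) < a} else {x : I | ¬ (x : ℝ) < a} with hR0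
    have hR0m : MeasurableSet R0 := by
      have h1 : MeasurableSet {x : I | (x : ℝ) < a} :=
        measurableSet_lt measurable_subtype_coe measurable_const
      rw [hR0]
      split_ifs
      · exact h1
      · exact h1.compl
    refine ⟨Function.update R g R0, ?_, ?_, ?_⟩
    · intro e
      by_cases he : e = g
      · subst he
        simpa using hR0m
      · rw [Function.update_of_ne he]
        exact hRm e
    · ext v
      have hgood : M.good v P c (g :: l) ↔ ((((v g : I) : ℝ) < a ↔ g ∈ P) ∧
          M.good v P (pstep P c g) l) := Iff.rfl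
      simp only [Set.mem_ofPred_eq]
      rw [hgood]
      have h2 : M.good v P (pstep P c g) l ↔ v ∈ Set.pi (l.toFinset : Set E) R := by
        have := Set.ext_iff.mp hR v
        simpa using this
      rw [h2]
      have h3 : (((v g : I) : ℝ) < a ↔ g ∈ P) ↔ v g ∈ R0 := by
        rw [hR0]
        by_cases hgP : g ∈ P
        · simp [hgP]
        · simp [hgP]
      rw [h3]
      simp only [Set.mem_pi, List.coe_toFinset, Set.mem_ofPred_eq, List.toFinset_cons,
        Finset.coe_insert, Set.mem_insert_iff, forall_eq_or_imp]
      constructor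
      · rintro ⟨h4, h5⟩
        constructor
        · simpa using h4
        · intro e he
          have : e ≠ g := fun h => hg (h ▸ he)
          rw [Function.update_of_ne this]
          exact h5 e he
      · rintro ⟨h4, h5⟩
        constructor
        · simpa using h4
        · intro e he
          have h6 : e ≠ g := fun h => hg (h ▸ he)
          have := h5 e he
          rwa [Function.update_of_ne h6] at this
    · have hprod : ∏ e ∈ (g :: l).toFinset, ((volume : Measure I) (Function.update R g R0 e)).toReal
          = ((volume : Measure I) R0).toReal * ∏ e ∈ l.toFinset, ((volume : Measure I) (R e)).toReal := by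
        rw [List.toFinset_cons, Finset.prod_insert (by simpa using hg)]
        congr 1
        · simp
        · apply Finset.prod_congr rfl
          intro e he
          have : e ≠ g := fun h => hg (h ▸ (List.mem_toFinset.mp he))
          rw [Function.update_of_ne this]
      rw [hprod]
      have hpath : path P c (g :: l) = path P (pstep P c g) l := rfl
      rw [hpath, ← hRp]
      have hstep : M.m c.1 c.2 * ((volume : Measure I) R0).toReal
          = M.m (pstep P c g).1 (pstep P c g).2 := by
        rw [hR0]
        by_cases hgP : g ∈ P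
        · simp only [hgP, if_true, pstep]
          rw [volume_lt a ha0 ha1, ENNReal.toReal_ofReal ha0]
          exact M.m_mul_a c g
        · simp only [hgP, if_false, pstep]
          rw [volume_not_lt a ha0 ha1, ENNReal.toReal_ofReal (by linarith)]
          exact M.m_mul_one_sub_a c g
      rw [← mul_assoc, hstep]

/-- measure of `good` -/
lemma measure_good (P : Finset E) (c : St E) (l : List E) (hl : l.Nodup) (hc : M.m c.1 c.2 = 1) :
    Crest.ProbabilityR.Labels.labelMeasure E {v : E → I | M.good v P c l}
      = ENNReal.ofReal (M.m (path P c l).1 (path P c l).2) := by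
  obtain ⟨R, hRm, hR, hRp⟩ := M.good_box P c l hl
  rw [hR, hc, one_mul] at *
  rw [← hRp]
  rw [labelMeasure_pi _ _ (fun e _ => hRm e)]
  rw [ENNReal.ofReal_prod_of_nonneg (fun _ _ => ENNReal.toReal_nonneg)]
  apply Finset.prod_congr rfl
  intro e _
  rw [ENNReal.ofReal_toReal (measure_ne_top _ _)]


/-- `below` on a splitting of the sorted list -/
lemma below_of_split {t : E → I} {F : Finset E} (ht : Set.InjOn t F) {l1 l2 : List E} {g : E}
    (hl : sortedL t F = l1 ++ g :: l2) : below t F g = l1 := by
  have hnd : (l1 ++ g :: l2).Nodup := hl ▸ sortedL_nodup_cb t F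
  have hpw : (l1 ++ g :: l2).Pairwise (leRel t) := hl ▸ sortedL_pairwise t F
  have hmemF : ∀ a, a ∈ l1 ++ g :: l2 ↔ a ∈ F := by
    intro a
    rw [← hl, mem_sortedL_cb]
  rw [List.pairwise_append] at hpw
  have hg1 : g ∉ l1 := by
    intro h
    have := List.nodup_append.mp hnd
    exact this.2.2 g h g (List.mem_cons_self) rfl
  have hgF : g ∈ F := (hmemF g).mp (by simp)
  symm
  apply eq_below ht
  · intro a
    constructor
    · intro ha
      have hne : a ≠ g := fun h => hg1 (h ▸ ha)
      have haF : a ∈ F := (hmemF a).mp (by simp [ha])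
      have hle : leRel t a g := hpw.2.2 a ha g (List.mem_cons_self)
      refine ⟨hne, haF, lt_of_le_of_ne hle ?_⟩
      intro heq
      exact hne (ht haF hgF (Subtype.ext heq))
    · rintro ⟨hne, haF, hlt⟩
      have := (hmemF a).mpr haF
      rw [List.mem_append, List.mem_cons] at this
      rcases this with h | h | h
      · exact h
      · exact absurd h hne
      · exfalso
        have hp2 := (List.pairwise_cons.mp hpw.2.1).1 a h
        exact absurd hlt (not_lt.mpr hp2)
  · exact (List.nodup_append.mp hnd).1
  · exact hpw.1

/-- correctness of all outputs is the same as following the path -/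
lemma correct_iff_good {t : E → I} {F : Finset E} (ht : Set.InjOn t F) (v : E → I) (P : Finset E)
    (l1 l2 : List E) (hl : sortedL t F = l1 ++ l2)
    (hrun : M.run v (∅, ∅) l1 = path P (∅, ∅) l1) :
    (∀ e ∈ l2, (M.out t v F e = true ↔ e ∈ P)) ↔ M.good v P (path P (∅, ∅) l1) l2 := by
  induction l2 generalizing l1 with
  | nil => simp [good]
  | cons g l2 ih =>
    have hb : below t F g = l1 := below_of_split ht hl
    have hout : (M.out t v F g = true ↔ g ∈ P) ↔
        (((v g : I) : ℝ) < M.a (path P (∅, ∅) l1) g ↔ g ∈ P) := by
      unfold out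
      rw [hb, hrun]
      simp
    have hgood : M.good v P (path P (∅, ∅) l1) (g :: l2) ↔
        ((((v g : I) : ℝ) < M.a (path P (∅, ∅) l1) g ↔ g ∈ P) ∧
          M.good v P (pstep P (path P (∅, ∅) l1) g) l2) := Iff.rfl
    rw [hgood, List.forall_mem_cons, hout]
    constructor
    · rintro ⟨h1, h2⟩
      refine ⟨h1, ?_⟩
      have hstep := M.step_eq_pstep v P _ g h1
      have hrun' : M.run v (∅, ∅) (l1 ++ [g]) = path P (∅, ∅) (l1 ++ [g]) := by
        simp only [run, path, List.foldl_append, List.foldl_cons, List.foldl_nil] at hrun ⊢
        rw [hrun]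
        exact hstep
      have hl' : sortedL t F = (l1 ++ [g]) ++ l2 := by simpa using hl
      have := (ih (l1 ++ [g]) hl' hrun').mp h2
      have hp : path P (∅, ∅) (l1 ++ [g]) = pstep P (path P (∅, ∅) l1) g := by
        simp [path, List.foldl_append]
      rwa [hp] at this
    · rintro ⟨h1, h2⟩
      refine ⟨h1, ?_⟩
      have hstep := M.step_eq_pstep v P _ g h1
      have hrun' : M.run v (∅, ∅) (l1 ++ [g]) = path P (∅, ∅) (l1 ++ [g]) := by
        simp only [run, path, List.foldl_append, List.foldl_cons, List.foldl_nil] at hrun ⊢
        rw [hrun]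
        exact hstep
      have hl' : sortedL t F = (l1 ++ [g]) ++ l2 := by simpa using hl
      have hp : path P (∅, ∅) (l1 ++ [g]) = pstep P (path P (∅, ∅) l1) g := by
        simp [path, List.foldl_append]
      rw [← hp] at h2
      exact (ih (l1 ++ [g]) hl' hrun').mpr h2

/-- **Exact law of the chain on a finite set.** -/
theorem out_law_proved [Countable E] (F P : Finset E) (hP : P ⊆ F) :
    muL E {x | (∀ e ∈ P, M.out x.1 x.2 F e = true) ∧ (∀ e ∈ F \ P, M.out x.1 x.2 F e = false)}
      = ENNReal.ofReal (M.m P (F \ P)) := by
  classical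
  set S : Set ((E → I) × (E → I)) :=
    {x | (∀ e ∈ P, M.out x.1 x.2 F e = true) ∧ (∀ e ∈ F \ P, M.out x.1 x.2 F e = false)} with hS
  have hout : ∀ e, Measurable (fun x : (E → I) × (E → I) => M.out x.1 x.2 F e) := fun e =>
    MassSys.measurable_out_param' (fun _ => M) (fun _ _ => measurable_const) _ _
      (fun e => (measurable_pi_apply e).comp measurable_fst)
      (fun e => (measurable_pi_apply e).comp measurable_snd) F e
  have hSm : MeasurableSet S := by
    have h1 : S = (⋂ e ∈ P, {x | M.out x.1 x.2 F e = true}) ∩
        (⋂ e ∈ F \ P, {x | M.out x.1 x.2 F e = false}) := by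
      ext x
      simp [hS]
    rw [h1]
    apply MeasurableSet.inter
    · apply Finset.measurableSet_biInter
      intro e _
      exact (hout e) (measurableSet_singleton true)
    · apply Finset.measurableSet_biInter
      intro e _
      exact (hout e) (measurableSet_singleton false)
  unfold muL
  rw [Measure.prod_apply hSm]
  have hae : ∀ᵐ t ∂(Crest.ProbabilityR.Labels.labelMeasure E),
      Crest.ProbabilityR.Labels.labelMeasure E (Prod.mk t ⁻¹' S)
        = ENNReal.ofReal (M.m P (F \ P)) := by
    filter_upwards [ae_injective (V := E)] with t ht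
    have htF : Set.InjOn t F := ht.injOn
    have hsec : Prod.mk t ⁻¹' S = {v : E → I | M.good v P (∅, ∅) (sortedL t F)} := by
      ext v
      simp only [Set.mem_preimage, hS, Set.mem_ofPred_eq]
      have h1 := M.correct_iff_good htF v P [] (sortedL t F) (by simp) (by simp [run, path])
      simp only [path, List.foldl_nil] at h1
      rw [← h1]
      constructor
      · rintro ⟨h2, h3⟩ e he
        have heF : e ∈ F := (mem_sortedL_cb t F e).mp he
        by_cases heP : e ∈ P
        · simp [heP, h2 e heP]
        · have := h3 e (Finset.mem_sdiff.mpr ⟨heF, heP⟩)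
          simp [heP, this]
      · intro h
        constructor
        · intro e he
          exact (h e ((mem_sortedL_cb t F e).mpr (hP he))).mpr he
        · intro e he
          have he' := Finset.mem_sdiff.mp he
          have h2 := h e ((mem_sortedL_cb t F e).mpr he'.1)
          cases hq : M.out t v F e
          · rfl
          · rw [hq] at h2
            exact absurd (h2.mp rfl) he'.2
    rw [hsec, M.measure_good P (∅, ∅) _ (sortedL_nodup_cb t F) M.empty]
    obtain ⟨h1, h2⟩ := path_fst_snd P (∅, ∅) (sortedL t F)
    have hfin : (sortedL t F).toFinset = F := by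
      ext x
      rw [List.mem_toFinset, mem_sortedL_cb]
    rw [hfin] at h1 h2
    rw [h1, h2]
    have e1 : ((∅ : Finset E) ∪ F ∩ P) = P := by
      rw [Finset.empty_union]
      exact Finset.inter_eq_right.mpr hP
    have e2 : ((∅ : Finset E) ∪ F \ P) = F \ P := by
      rw [Finset.empty_union]
    simp only
    rw [e1, e2]
  rw [lintegral_congr_ae hae]
  simp

end MassSys

end Crest.Agent.SRC
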