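import Crest.Agent.Lib.SRC.LimitLawD
import Crest.Agent.Lib.SRC.MassOfMeasure
import Crest.Agent.Lib.SRC.ChainBasic
import Crest.Agent.Lib.SRC.OutLaw

/-!
Row 168, S0255 assembly: strongly Rayleigh + shift invariant gives an equivariant factor of iid, given the
chain theorems (as hypotheses, to be instantiated by the real proofs).
-/

open MeasureTheory Crest.ProbabilityR.Labels Crest.ProbabilityR.StronglyRayleigh

namespace Crest.Agent.SRC

theorem factorIID_of_chain (Γ : Type*) [Group Γ] [DecidableEq Γ]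
    (ν : Measure (Γ → Bool)) [IsProbabilityMeasure ν]
    (hsr : IsStronglyRayleigh ν) (hinv : IsShiftInvariant ν)
    (hnet : (massOfMeasure ν).NC → (massOfMeasure ν).ROW → ∀ δ : ℝ, 0 < δ →
      ∃ F0 : Finset Γ, ∀ F Y : Finset Γ, F0 ⊆ F → F0 ⊆ Y →
      muL Γ {x | (massOfMeasure ν).out x.1 x.2 F 1 ≠ (massOfMeasure ν).out x.1 x.2 Y 1} ≤ ENNReal.ofReal δ)
    (hlaw : ∀ F P : Finset Γ, P ⊆ F →
      muL Γ {x | (∀ e ∈ P, (massOfMeasure ν).out x.1 x.2 F e = true) ∧
        (∀ e ∈ F \ P, (massOfMeasure ν).out x.1 x.2 F e = false)}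
        = ENNReal.ofReal ((massOfMeasure ν).m P (F \ P)))
    (hmeas : ∀ (F : Finset Γ) (o : Γ), Measurable fun x : (Γ → unitInterval) × (Γ → unitInterval) =>
      (massOfMeasure ν).out x.1 x.2 F o)
    (hequiv : ∀ (ι : Γ ≃ Γ), (∀ P Q, (massOfMeasure ν).m P Q =
        (massOfMeasure ν).m (P.map ι.toEmbedding) (Q.map ι.toEmbedding)) →
      ∀ (t v : Γ → unitInterval) (F : Finset Γ) (o : Γ),
      Set.InjOn t (F.map ι.toEmbedding : Finset Γ) →
      (massOfMeasure ν).out (t ∘ ι) (v ∘ ι) F o =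
        (massOfMeasure ν).out t v (F.map ι.toEmbedding) (ι o)) :
    ∃ Φ : (Γ → unitInterval) → (Γ → Bool), Measurable Φ ∧
      (∀ (g : Γ) (u : Γ → unitInterval), Φ (leftShift g u) = leftShift g (Φ u)) ∧
      (labelMeasure Γ).map Φ = ν := by
  set M := massOfMeasure ν with hM
  have hNC : M.NC := massOfMeasure_NC ν hsr
  have hROW : M.ROW := massOfMeasure_ROW ν hsr
  have htr : M.LeftTransport := by
    intro h t v F o ht
    exact hequiv (Equiv.mulLeft h) (massOfMeasure_shift ν hinv h) t v F o ht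
  obtain ⟨Φ, hΦm, hΦeq, hΦlaw⟩ := exists_factor_of_chain M htr (hnet hNC hROW) hlaw hmeas
  refine ⟨Φ, hΦm, hΦeq, ?_⟩
  have : IsProbabilityMeasure ((labelMeasure Γ).map Φ) :=
    Measure.isProbabilityMeasure_map hΦm.aemeasurable
  refine measure_ext_of_cyl fun P Q hPQ => ?_
  have hS := measurableSet_pattern P Q (fun i (ω : Γ → Bool) => ω i) (fun i => measurable_pi_apply i)
  rw [Measure.map_apply hΦm hS]
  refine (hΦlaw P Q hPQ).trans ?_
  rw [hM, massOfMeasure_m, ENNReal.ofReal_toReal (measure_ne_top _ _)]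
  rfl

/-- S0255 from the net Cauchy theorem of the chain. -/
theorem factorIID_of_netCauchy (Γ : Type*) [Group Γ] [Countable Γ] [DecidableEq Γ]
    (ν : Measure (Γ → Bool)) [IsProbabilityMeasure ν]
    (hsr : IsStronglyRayleigh ν) (hinv : IsShiftInvariant ν)
    (hnet : ∀ M : MassSys Γ, M.NC → M.ROW → ∀ (o : Γ) (δ : ℝ), 0 < δ →
      ∃ F0 : Finset Γ, ∀ F Y : Finset Γ, F0 ⊆ F → F0 ⊆ Y →
      muL Γ {x | M.out x.1 x.2 F o ≠ M.out x.1 x.2 Y o} ≤ ENNReal.ofReal δ) :
    ∃ Φ : (Γ → unitInterval) → (Γ → Bool), Measurable Φ ∧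
      (∀ (g : Γ) (u : Γ → unitInterval), Φ (leftShift g u) = leftShift g (Φ u)) ∧
      (labelMeasure Γ).map Φ = ν := by
  refine factorIID_of_chain Γ ν hsr hinv (fun h1 h2 δ hδ => hnet _ h1 h2 1 δ hδ)
    (fun F P hP => MassSys.out_law_proved _ F P hP) ?_ ?_
  · intro F o
    exact MassSys.measurable_out_param' (fun _ => massOfMeasure ν) (fun _ _ => measurable_const)
      (fun (x : (Γ → unitInterval) × (Γ → unitInterval)) e => x.1 e)
      (fun (x : (Γ → unitInterval) × (Γ → unitInterval)) e => x.2 e)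
      (fun e => (measurable_pi_apply e).comp measurable_fst)
      (fun e => (measurable_pi_apply e).comp measurable_snd) F o
  · intro ι hm t v F o ht
    exact MassSys.out_equiv' _ _ ι hm t v F o ht

end Crest.Agent.SRC
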