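import Crest.Agent.Lib.SRC.ChainBasic
import Crest.Prelude.Def_GraphTables
import Crest.Prelude.Def_SpanningTrees

/-!
Graph part of the S0254 rule (helper7): tables, balls, measurability, isomorphism invariance.
-/

open MeasureTheory
open Crest.ProbabilityR.GraphTables

namespace Crest.Agent.SRC.Gr

set_option linter.unusedSectionVars false
set_option linter.unusedSimpArgs false

abbrev Table := ℕ → ℕ → Bool

theorem adj_iff (A : Table) (i j : ℕ) :
    (graphOfTable A).Adj i j ↔ i ≠ j ∧ (A i j = true ∨ A j i = true) :=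
  SimpleGraph.fromRel_adj _ _ _

theorem graphOfTable_tableOf (G : SimpleGraph ℕ) : graphOfTable (tableOf G) = G := by
  classical
  ext i j
  rw [adj_iff]
  simp only [tableOf, decide_eq_true_eq]
  constructor
  · rintro ⟨_, h | h⟩
    · exact h
    · exact h.symm
  · intro h
    exact ⟨h.ne, Or.inl h⟩

theorem measurableSet_entry (i j : ℕ) : MeasurableSet {A : Table | A i j = true} := by
  have h : Measurable fun A : Table => A i j := (measurable_pi_apply j).comp (measurable_pi_apply i)
  exact h (measurableSet_singleton true)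

theorem measurableSet_adj (i j : ℕ) : MeasurableSet {A : Table | (graphOfTable A).Adj i j} := by
  have : {A : Table | (graphOfTable A).Adj i j} =
      {_A | i ≠ j} ∩ ({A | A i j = true} ∪ {A | A j i = true}) := by
    ext A
    simp [adj_iff]
  rw [this]
  exact (MeasurableSet.const _).inter ((measurableSet_entry i j).union (measurableSet_entry j i))

/-! ### Finite sets from sets -/

/-- The finite set with the members of `s` when `s` is finite; empty otherwise. -/
noncomputable def finOf {α : Type*} (s : Set α) : Finset α :=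
  open Classical in if h : s.Finite then h.toFinset else ∅

theorem mem_finOf {α : Type*} {s : Set α} (h : s.Finite) (a : α) : a ∈ finOf s ↔ a ∈ s := by
  simp [finOf, h]

theorem coe_finOf {α : Type*} {s : Set α} (h : s.Finite) : (↑(finOf s) : Set α) = s := by
  ext a
  simp [mem_finOf h]

theorem finOf_infinite {α : Type*} {s : Set α} (h : ¬ s.Finite) : finOf s = ∅ := by
  simp [finOf, h]

theorem ncard_eq_card_finOf {α : Type*} (s : Set α) : s.ncard = (finOf s).card := by
  by_cases h : s.Finite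
  · rw [Set.ncard_eq_toFinset_card s h]
    simp [finOf, h]
  · rw [finOf_infinite h, Set.Infinite.ncard h]
    simp

section Meas
variable {Ω : Type*} [MeasurableSpace Ω] {α : Type*} [Countable α]

theorem measurableSet_eq_coe (s : Ω → Set α) (hs : ∀ a, MeasurableSet {ω | a ∈ s ω})
    (W : Finset α) : MeasurableSet {ω | s ω = ↑W} := by
  classical
  have : {ω | s ω = ↑W} = ⋂ a, {ω | ω ∈ {ω | a ∈ s ω} ↔ a ∈ W} := by
    ext ω
    simp only [Set.mem_ofPred_eq, Set.mem_iInter, Set.ext_iff, Finset.mem_coe]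
  rw [this]
  exact MeasurableSet.iInter fun a => measurableSet_iff_const (hs a) _

theorem measurableSet_finite (s : Ω → Set α) (hs : ∀ a, MeasurableSet {ω | a ∈ s ω}) :
    MeasurableSet {ω | (s ω).Finite} := by
  classical
  have : {ω | (s ω).Finite} = ⋃ W : Finset α, {ω | s ω = ↑W} := by
    ext ω
    simp only [Set.mem_ofPred_eq, Set.mem_iUnion]
    constructor
    · intro h
      exact ⟨h.toFinset, by simp⟩
    · rintro ⟨W, hW⟩
      rw [hW]
      exact W.finite_toSet
  rw [this]
  exact MeasurableSet.iUnion fun W => measurableSet_eq_coe s hs W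

theorem measurableSet_finOf_eq (s : Ω → Set α) (hs : ∀ a, MeasurableSet {ω | a ∈ s ω})
    (W : Finset α) : MeasurableSet {ω | finOf (s ω) = W} := by
  classical
  have : {ω | finOf (s ω) = W} = {ω | s ω = ↑W} ∪ ({ω | (s ω).Finite}ᶜ ∩ {_ω | W = ∅}) := by
    ext ω
    simp only [Set.mem_ofPred_eq, Set.mem_union, Set.mem_inter_iff, Set.mem_compl_iff]
    by_cases h : (s ω).Finite
    · simp only [h, not_true_eq_false, false_and, or_false]
      constructor
      · rintro rfl; exact (coe_finOf h).symm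
      · intro h'
        apply Finset.coe_injective
        rw [coe_finOf h, h']
    · simp only [h, not_false_eq_true, true_and, finOf_infinite h]
      constructor
      · rintro rfl; exact Or.inr rfl
      · rintro (h' | rfl)
        · exfalso; apply h; rw [h']; exact W.finite_toSet
        · rfl
  rw [this]
  exact (measurableSet_eq_coe s hs W).union
    ((measurableSet_finite s hs).compl.inter (MeasurableSet.const _))

theorem measurable_ncard (s : Ω → Set α) (hs : ∀ a, MeasurableSet {ω | a ∈ s ω}) :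
    Measurable (fun ω => (s ω).ncard) := by
  simp_rw [ncard_eq_card_finOf]
  refine measurable_cases (fun ω => finOf (s ω)) ?_ (fun W _ => W.card) (fun _ => measurable_const)
  intro W
  exact measurableSet_finOf_eq s hs W

/-- `Nat.sInf` of a random set of naturals is measurable. -/
theorem measurableSet_sInf_eq (S : Ω → Set ℕ) (hS : ∀ n, MeasurableSet {ω | n ∈ S ω}) (n : ℕ) :
    MeasurableSet {ω | sInf (S ω) = n} := by
  have : {ω | sInf (S ω) = n} =
      ({ω | n ∈ S ω} ∩ ⋂ m ∈ Finset.range n, {ω | m ∈ S ω}ᶜ) ∪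
        ({_ω | n = 0} ∩ ⋂ m, {ω | m ∈ S ω}ᶜ) := by
    ext ω
    simp only [Set.mem_ofPred_eq, Set.mem_union, Set.mem_inter_iff, Set.mem_iInter,
      Finset.mem_range, Set.mem_compl_iff]
    constructor
    · intro h
      by_cases hne : (S ω).Nonempty
      · left
        refine ⟨?_, fun m hm => ?_⟩
        · rw [← h]; exact Nat.sInf_mem hne
        · rw [← h] at hm; exact Nat.notMem_of_lt_sInf hm
      · right
        rw [Set.not_nonempty_iff_eq_empty] at hne
        rw [hne] at h ⊢
        simp only [Nat.sInf_empty] at h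
        exact ⟨h.symm, fun m hm => hm⟩
    · rintro (⟨hn, hlt⟩ | ⟨rfl, hall⟩)
      · apply le_antisymm (Nat.sInf_le hn)
        by_contra hcon
        push Not at hcon
        have hne : (S ω).Nonempty := ⟨n, hn⟩
        exact hlt _ hcon (Nat.sInf_mem hne)
      · have : S ω = ∅ := Set.eq_empty_of_forall_notMem hall
        rw [this, Nat.sInf_empty]
  rw [this]
  refine ((hS n).inter ?_).union ((MeasurableSet.const _).inter ?_)
  · exact MeasurableSet.biInter (Finset.countable_toSet _) fun m _ => (hS m).compl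
  · exact MeasurableSet.iInter fun m => (hS m).compl

end Meas

/-! ### Balls -/

/-- Ball of radius `r` around the endpoints of `o`. -/
def ballSet (G : SimpleGraph ℕ) (o : Sym2 ℕ) : ℕ → Set ℕ
  | 0 => {z | z ∈ o}
  | r + 1 => ballSet G o r ∪ {w | ∃ y ∈ ballSet G o r, G.Adj y w}

theorem ballSet_succ_sub (G : SimpleGraph ℕ) (o : Sym2 ℕ) (r : ℕ) :
    ballSet G o r ⊆ ballSet G o (r + 1) := Set.subset_union_left

theorem ballSet_mono (G : SimpleGraph ℕ) (o : Sym2 ℕ) : Monotone (ballSet G o) :=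
  monotone_nat_of_le_succ (ballSet_succ_sub G o)

theorem ballSet_finite {G : SimpleGraph ℕ} (hl : ∀ v, (G.neighborSet v).Finite) (o : Sym2 ℕ)
    (r : ℕ) : (ballSet G o r).Finite := by
  induction r with
  | zero =>
    induction o using Sym2.ind with
    | _ a b =>
      have : {z | z ∈ s(a, b)} = ({a, b} : Set ℕ) := by ext z; simp
      simp only [ballSet, this]
      exact Set.toFinite _
  | succ r ih =>
    refine ih.union ?_
    have : {w | ∃ y ∈ ballSet G o r, G.Adj y w} = ⋃ y ∈ ballSet G o r, G.neighborSet y := by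
      ext w; simp
    rw [this]
    exact ih.biUnion fun y _ => hl y

theorem mem_ballSet_of_mem {G : SimpleGraph ℕ} {o : Sym2 ℕ} {z : ℕ} (h : z ∈ o) :
    z ∈ ballSet G o 0 := h

theorem ballSet_exhaust {G : SimpleGraph ℕ} (hc : G.Connected) (o : Sym2 ℕ) (z : ℕ) :
    ∃ r, z ∈ ballSet G o r := by
  induction o using Sym2.ind with
  | _ a b =>
    have hr : G.Reachable a z := hc.preconnected a z
    rw [SimpleGraph.reachable_iff_reflTransGen] at hr
    induction hr with
    | refl => exact ⟨0, by simp [ballSet]⟩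
    | tail _ hadj ih =>
      obtain ⟨r, hr⟩ := ih
      exact ⟨r + 1, Or.inr ⟨_, hr, hadj⟩⟩

theorem reachable_of_mem_ballSet {G : SimpleGraph ℕ} {a : ℕ} {z r : ℕ}
    (h : z ∈ ballSet G s(a, a) r) : G.Reachable a z := by
  induction r generalizing z with
  | zero =>
    have : z = a := by simpa [ballSet] using h
    rw [this]
  | succ r ih =>
    rcases h with h | ⟨y, hy, hadj⟩
    · exact ih h
    · exact (ih hy).trans hadj.reachable

theorem ballSet_comap (G : SimpleGraph ℕ) (σ : Equiv.Perm ℕ) (o : Sym2 ℕ) (r : ℕ) :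
    ballSet (G.comap σ) o r = σ ⁻¹' (ballSet G (Sym2.map σ o) r) := by
  induction r with
  | zero =>
    ext z
    simp only [ballSet, Set.mem_preimage, Set.mem_ofPred_eq, Sym2.mem_map]
    constructor
    · intro h; exact ⟨z, h, rfl⟩
    · rintro ⟨y, hy, hyz⟩
      rwa [← σ.injective hyz]
  | succ r ih =>
    ext z
    simp only [ballSet, Set.mem_preimage, Set.mem_union, Set.mem_ofPred_eq, ih, SimpleGraph.comap_adj]
    constructor
    · rintro (h | ⟨y, hy, hadj⟩)
      · exact Or.inl h
      · exact Or.inr ⟨σ y, hy, hadj⟩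
    · rintro (h | ⟨y, hy, hadj⟩)
      · exact Or.inl h
      · refine Or.inr ⟨σ.symm y, ?_, ?_⟩
        · simpa using hy
        · simpa using hadj

theorem measurableSet_mem_ballSet (o : Sym2 ℕ) (r z : ℕ) :
    MeasurableSet {A : Table | z ∈ ballSet (graphOfTable A) o r} := by
  induction r generalizing z with
  | zero => simp only [ballSet, Set.mem_ofPred_eq]; exact MeasurableSet.const _
  | succ r ih =>
    have : {A : Table | z ∈ ballSet (graphOfTable A) o (r + 1)} =
        {A | z ∈ ballSet (graphOfTable A) o r} ∪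
          ⋃ y, ({A | y ∈ ballSet (graphOfTable A) o r} ∩ {A | (graphOfTable A).Adj y z}) := by
      ext A
      simp [ballSet]
    rw [this]
    exact (ih z).union (MeasurableSet.iUnion fun y => (ih y).inter (measurableSet_adj y z))

/-! ### Edge balls -/

/-- The edges of `G` inside the ball of radius `r` around the endpoints of `o`. -/
noncomputable def Fe (G : SimpleGraph ℕ) (o : Sym2 ℕ) (r : ℕ) : Finset (Sym2 ℕ) :=
  finOf {e | e ∈ G.edgeSet ∧ ∀ z ∈ e, z ∈ ballSet G o r}

theorem Fe_set_finite {G : SimpleGraph ℕ} (hl : ∀ v, (G.neighborSet v).Finite) (o : Sym2 ℕ)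
    (r : ℕ) : {e | e ∈ G.edgeSet ∧ ∀ z ∈ e, z ∈ ballSet G o r}.Finite := by
  classical
  have hB := ballSet_finite hl o r
  refine (hB.toFinset.sym2.finite_toSet).subset ?_
  rintro e ⟨_, he⟩
  simp only [Finset.mem_coe, Finset.mem_sym2_iff, Set.Finite.mem_toFinset]
  exact he

theorem mem_Fe {G : SimpleGraph ℕ} (hl : ∀ v, (G.neighborSet v).Finite) {o : Sym2 ℕ} {r : ℕ}
    {e : Sym2 ℕ} : e ∈ Fe G o r ↔ e ∈ G.edgeSet ∧ ∀ z ∈ e, z ∈ ballSet G o r := by
  unfold Fe
  rw [mem_finOf (Fe_set_finite hl o r)]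
  rfl

theorem Fe_subset_edgeSet {G : SimpleGraph ℕ} (hl : ∀ v, (G.neighborSet v).Finite) (o : Sym2 ℕ)
    (r : ℕ) : (↑(Fe G o r) : Set (Sym2 ℕ)) ⊆ G.edgeSet := fun _ he => ((mem_Fe hl).1 he).1

theorem Fe_mono {G : SimpleGraph ℕ} (hl : ∀ v, (G.neighborSet v).Finite) (o : Sym2 ℕ) :
    Monotone (Fe G o) := by
  intro r r' hrr' e he
  rw [mem_Fe hl] at he ⊢
  exact ⟨he.1, fun z hz => ballSet_mono G o hrr' (he.2 z hz)⟩

theorem Fe_exhaust {G : SimpleGraph ℕ} (hc : G.Connected) (hl : ∀ v, (G.neighborSet v).Finite)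
    (o : Sym2 ℕ) {e : Sym2 ℕ} (he : e ∈ G.edgeSet) : ∃ r, e ∈ Fe G o r := by
  induction e using Sym2.ind with
  | _ a b =>
    obtain ⟨r₁, hr₁⟩ := ballSet_exhaust hc o a
    obtain ⟨r₂, hr₂⟩ := ballSet_exhaust hc o b
    refine ⟨max r₁ r₂, (mem_Fe hl).2 ⟨he, ?_⟩⟩
    intro z hz
    rcases Sym2.mem_iff.1 hz with rfl | rfl
    · exact ballSet_mono G o (le_max_left _ _) hr₁
    · exact ballSet_mono G o (le_max_right _ _) hr₂

theorem Fe_contains {G : SimpleGraph ℕ} (hc : G.Connected) (hl : ∀ v, (G.neighborSet v).Finite)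
    (o : Sym2 ℕ) (W : Finset (Sym2 ℕ)) (hW : (↑W : Set (Sym2 ℕ)) ⊆ G.edgeSet) :
    ∃ r₀, ∀ r, r₀ ≤ r → W ⊆ Fe G o r := by
  classical
  induction W using Finset.induction_on with
  | empty => exact ⟨0, fun _ _ => Finset.empty_subset _⟩
  | insert e W _ ih =>
    have hW' : (↑W : Set (Sym2 ℕ)) ⊆ G.edgeSet := fun x hx => hW (by simp [Finset.mem_coe.1 hx])
    obtain ⟨r₁, hr₁⟩ := ih hW'
    obtain ⟨r₂, hr₂⟩ := Fe_exhaust hc hl o (hW (by simp) : e ∈ G.edgeSet)
    refine ⟨max r₁ r₂, fun r hr => ?_⟩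
    rw [Finset.insert_subset_iff]
    exact ⟨Fe_mono hl o ((le_max_right _ _).trans hr) hr₂, hr₁ r ((le_max_left _ _).trans hr)⟩

/-- `Sym2.map` of a permutation, as an embedding. -/
def symEmb (σ : Equiv.Perm ℕ) : Sym2 ℕ ↪ Sym2 ℕ := ⟨Sym2.map σ, Sym2.map.injective σ.injective⟩

@[simp] theorem symEmb_apply (σ : Equiv.Perm ℕ) (e : Sym2 ℕ) : symEmb σ e = Sym2.map σ e := rfl

theorem sym_map_symm (σ : Equiv.Perm ℕ) (e : Sym2 ℕ) : Sym2.map σ (Sym2.map σ.symm e) = e := by
  rw [Sym2.map_map]
  have : (⇑σ ∘ ⇑σ.symm) = id := by ext; simp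
  rw [this, Sym2.map_id]
  rfl

theorem sym_symm_map (σ : Equiv.Perm ℕ) (e : Sym2 ℕ) : Sym2.map σ.symm (Sym2.map σ e) = e := by
  rw [Sym2.map_map]
  have : (⇑σ.symm ∘ ⇑σ) = id := by ext; simp
  rw [this, Sym2.map_id]
  rfl

theorem mem_edgeSet_comap (G : SimpleGraph ℕ) (σ : Equiv.Perm ℕ) (e : Sym2 ℕ) :
    e ∈ (G.comap σ).edgeSet ↔ Sym2.map σ e ∈ G.edgeSet := by
  induction e using Sym2.ind with
  | _ a b => simp

theorem finOf_map (ι : Sym2 ℕ ↪ Sym2 ℕ) (hι : Function.Surjective ι) (s : Set (Sym2 ℕ)) :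
    (finOf (ι ⁻¹' s)).map ι = finOf s := by
  classical
  by_cases h : s.Finite
  · have h' : (ι ⁻¹' s).Finite := h.preimage ι.injective.injOn
    ext e
    rw [mem_finOf h, Finset.mem_map]
    constructor
    · rintro ⟨a, ha, rfl⟩
      exact (mem_finOf h' a).1 ha
    · intro he
      obtain ⟨a, rfl⟩ := hι e
      exact ⟨a, (mem_finOf h' a).2 he, rfl⟩
  · have h' : ¬ (ι ⁻¹' s).Finite := by
      intro hfin
      apply h
      have := hfin.image ι
      rwa [Set.image_preimage_eq s hι] at this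
    rw [finOf_infinite h, finOf_infinite h']
    simp

theorem symEmb_surjective (σ : Equiv.Perm ℕ) : Function.Surjective (symEmb σ) :=
  fun e => ⟨Sym2.map σ.symm e, sym_map_symm σ e⟩

theorem Fe_comap (G : SimpleGraph ℕ) (σ : Equiv.Perm ℕ) (o : Sym2 ℕ) (r : ℕ) :
    (Fe (G.comap σ) o r).map (symEmb σ) = Fe G (Sym2.map σ o) r := by
  have h := finOf_map (symEmb σ) (symEmb_surjective σ)
    {e | e ∈ G.edgeSet ∧ ∀ z ∈ e, z ∈ ballSet G (Sym2.map σ o) r}
  have hset : {e | e ∈ (G.comap σ).edgeSet ∧ ∀ z ∈ e, z ∈ ballSet (G.comap σ) o r} =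
      (symEmb σ) ⁻¹' {e | e ∈ G.edgeSet ∧ ∀ z ∈ e, z ∈ ballSet G (Sym2.map σ o) r} := by
    ext e
    simp only [Set.mem_ofPred_eq, Set.mem_preimage, mem_edgeSet_comap, ballSet_comap, symEmb_apply,
      Sym2.mem_map]
    constructor
    · rintro ⟨h1, h2⟩
      refine ⟨h1, ?_⟩
      rintro z ⟨y, hy, rfl⟩
      exact h2 y hy
    · rintro ⟨h1, h2⟩
      exact ⟨h1, fun z hz => h2 _ ⟨z, hz, rfl⟩⟩
  unfold Fe
  rw [hset]
  exact h

theorem measurableSet_Fe_eq (o : Sym2 ℕ) (r : ℕ) (W : Finset (Sym2 ℕ)) :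
    MeasurableSet {A : Table | Fe (graphOfTable A) o r = W} := by
  refine measurableSet_finOf_eq _ ?_ W
  intro e
  induction e using Sym2.ind with
  | _ a b =>
    have : {A : Table | s(a, b) ∈ {e | e ∈ (graphOfTable A).edgeSet ∧
          ∀ z ∈ e, z ∈ ballSet (graphOfTable A) o r}} =
        {A | (graphOfTable A).Adj a b} ∩
          ({A | a ∈ ballSet (graphOfTable A) o r} ∩ {A | b ∈ ballSet (graphOfTable A) o r}) := by
      ext A
      simp
    rw [this]
    exact (measurableSet_adj a b).inter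
      ((measurableSet_mem_ballSet o r a).inter (measurableSet_mem_ballSet o r b))

/-! ### Good graphs -/

/-- Connected and locally finite. -/
def good (G : SimpleGraph ℕ) : Prop := G.Connected ∧ ∀ v, (G.neighborSet v).Finite

theorem connected_iff_ball (G : SimpleGraph ℕ) :
    G.Connected ↔ ∀ z, ∃ r, z ∈ ballSet G s(0, 0) r := by
  constructor
  · intro hc z
    exact ballSet_exhaust hc _ z
  · intro h
    have hr : ∀ z, G.Reachable 0 z := fun z => by
      obtain ⟨r, hr⟩ := h z
      exact reachable_of_mem_ballSet hr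
    exact { preconnected := fun a b => (hr a).symm.trans (hr b), nonempty := ⟨0⟩ }

theorem measurableSet_good : MeasurableSet {A : Table | good (graphOfTable A)} := by
  have : {A : Table | good (graphOfTable A)} =
      (⋂ z, ⋃ r, {A | z ∈ ballSet (graphOfTable A) s(0, 0) r}) ∩
        ⋂ v, {A | ((graphOfTable A).neighborSet v).Finite} := by
    ext A
    simp [good, connected_iff_ball]
  rw [this]
  refine (MeasurableSet.iInter fun z => MeasurableSet.iUnion fun r =>
    measurableSet_mem_ballSet _ r z).inter (MeasurableSet.iInter fun v => ?_)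
  exact measurableSet_finite _ (fun w => measurableSet_adj v w)

theorem good_comap_iff (G : SimpleGraph ℕ) (σ : Equiv.Perm ℕ) :
    good (G.comap σ) ↔ good G := by
  have hn : ∀ v, (G.comap σ).neighborSet v = σ ⁻¹' (G.neighborSet (σ v)) := by
    intro v; ext w; simp
  constructor
  · rintro ⟨hc, hl⟩
    refine ⟨?_, ?_⟩
    · exact (SimpleGraph.Iso.comap σ G).connected_iff.1 hc
    · intro v
      have h := hl (σ.symm v)
      rw [hn] at h
      simp only [Equiv.apply_symm_apply] at h
      have := h.image σ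
      rwa [Set.image_preimage_eq _ σ.surjective] at this
  · rintro ⟨hc, hl⟩
    refine ⟨(SimpleGraph.Iso.comap σ G).connected_iff.2 hc, ?_⟩
    intro v
    rw [hn]
    exact (hl (σ v)).preimage σ.injective.injOn

/-! ### Vertex balls as exhaustion -/

/-- The balls around the vertex `0`, as an exhaustion. -/
noncomputable def vb (G : SimpleGraph ℕ) (n : ℕ) : Finset ℕ := finOf (ballSet G s(0, 0) n)

theorem mem_vb {G : SimpleGraph ℕ} (hl : ∀ v, (G.neighborSet v).Finite) {n z : ℕ} :
    z ∈ vb G n ↔ z ∈ ballSet G s(0, 0) n := mem_finOf (ballSet_finite hl _ n) z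

theorem vb_mono {G : SimpleGraph ℕ} (hl : ∀ v, (G.neighborSet v).Finite) : Monotone (vb G) := by
  intro n m hnm z hz
  rw [mem_vb hl] at hz ⊢
  exact ballSet_mono G _ hnm hz

theorem vb_exhaust {G : SimpleGraph ℕ} (hc : G.Connected) (hl : ∀ v, (G.neighborSet v).Finite)
    (z : ℕ) : ∃ n, z ∈ vb G n := by
  obtain ⟨r, hr⟩ := ballSet_exhaust hc s(0, 0) z
  exact ⟨r, (mem_vb hl).2 hr⟩

theorem ball_zero_mem (G : SimpleGraph ℕ) (n : ℕ) : (0 : ℕ) ∈ ballSet G s(0, 0) n :=
  ballSet_mono G _ (Nat.zero_le n) (by simp [ballSet])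

theorem induce_ball_reachable (G : SimpleGraph ℕ) (n z : ℕ) (hz : z ∈ ballSet G s(0, 0) n) :
    (G.induce (ballSet G s(0, 0) n)).Reachable ⟨0, ball_zero_mem G n⟩ ⟨z, hz⟩ := by
  induction n generalizing z with
  | zero =>
    have : z = 0 := by simpa [ballSet] using hz
    subst this
    exact SimpleGraph.Reachable.refl _
  | succ n ih =>
    have hle : ballSet G s(0, 0) n ⊆ ballSet G s(0, 0) (n + 1) := ballSet_succ_sub G _ n
    let f : G.induce (ballSet G s(0, 0) n) →g G.induce (ballSet G s(0, 0) (n + 1)) :=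
      SimpleGraph.induceHomOfLE G hle |>.toHom
    rcases hz with hz' | ⟨y, hy, hadj⟩
    · exact (ih z hz').map f
    · have h1 := (ih y hy).map f
      refine h1.trans ?_
      refine SimpleGraph.Adj.reachable ?_
      exact hadj

theorem vb_connected {G : SimpleGraph ℕ} (hl : ∀ v, (G.neighborSet v).Finite) (n : ℕ) :
    (G.induce (vb G n : Set ℕ)).Connected := by
  have hcoe : (vb G n : Set ℕ) = ballSet G s(0, 0) n := coe_finOf (ballSet_finite hl _ n)
  rw [hcoe]
  have : Nonempty (ballSet G s(0, 0) n) := ⟨⟨0, ball_zero_mem G n⟩⟩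
  refine { preconnected := ?_, nonempty := ‹_› }
  rintro ⟨a, ha⟩ ⟨b, hb⟩
  exact (induce_ball_reachable G n a ha).symm.trans (induce_ball_reachable G n b hb)

theorem measurableSet_vb_eq (n : ℕ) (W : Finset ℕ) :
    MeasurableSet {A : Table | vb (graphOfTable A) n = W} :=
  measurableSet_finOf_eq _ (fun z => measurableSet_mem_ballSet _ n z) W

end Crest.Agent.SRC.Gr
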