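import Crest.Agent.Lib.SRC.GraphMass
import Crest.Agent.Lib.USTMeas

/-!
`FUSFSpec` from the uniform spanning tree library.
-/

open Crest.ProbabilityR.SpanningTrees

namespace Crest.Agent.SRC.Gr

theorem fusfSpec : FUSFSpec := by
  intro G hc hl
  have hG : USTCore.Good G := ⟨hc, hl⟩
  refine ⟨USTCore.fusfMass G, USTCore.fusfMass_NC G, USTCore.fusfMass_ROW G, ?_, ?_⟩
  · intro P hP
    obtain ⟨S, hmono, hex, hconn⟩ := USTCore.exists_exhaustion hG
    have h1 := USTCore.fusfMass_tendsto hG hmono hex hconn P
    have hne : ∃ e ∈ P, e ∉ G.edgeSet := by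
      by_contra hcon
      push Not at hcon
      exact hP fun e he => hcon e he
    obtain ⟨e, he, hne⟩ := hne
    have h0 : (fun n => ustContains G (S n) P) = fun _ => 0 := by
      funext n
      exact USTCore.ust_eq_zero_of_not_edge he hne _
    rw [h0] at h1
    exact (tendsto_nhds_unique h1 tendsto_const_nhds)
  · intro S hmono hex hconn F _
    exact USTCore.fusfMass_tendsto hG hmono hex hconn F

end Crest.Agent.SRC.Gr
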