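import Crest.Agent.Lib.SRC.GraphBasic
import Crest.Agent.Lib.SRC.Split
import Crest.Agent.Lib.SRC.Defs

/-!
Edge labels from vertex labels (helper7): each vertex carries a priority and a sequence of digits;
an edge uses the digits of its endpoint of lower priority, at the rank of the other endpoint among
the neighbours of that endpoint.  Equivariant on all inputs, jointly measurable, and i.i.d. on the
edges of a locally finite graph.
-/

open MeasureTheory Measure
open Crest.ProbabilityR.GraphTables Crest.ProbabilityR.Labels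
open Crest.Agent.SRC.Split

namespace Crest.Agent.SRC.Gr

set_option linter.unusedSectionVars false
set_option linter.unusedSimpArgs false

local notation "I" => unitInterval

/-- Rank of `b` among the neighbours of `a`, for the priorities `ξ`. -/
noncomputable def rk (G : SimpleGraph ℕ) (ξ : ℕ → I) (a b : ℕ) : ℕ :=
  {w | G.Adj a w ∧ (ξ w : ℝ) < ξ b}.ncard

/-- Digit address of an ordered pair. -/
noncomputable def halfL {β : Type*} (d : β) (G : SimpleGraph ℕ) (ξ : ℕ → I) (D : ℕ × ℕ → β) (i : ℕ)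
    (u w : ℕ) : β :=
  open Classical in
  if (ξ u : ℝ) < ξ w then D (u, 2 * rk G ξ u w + i)
  else if (ξ w : ℝ) < ξ u then D (w, 2 * rk G ξ w u + i) else d

theorem halfL_symm {β : Type*} (d : β) (G : SimpleGraph ℕ) (ξ : ℕ → I) (D : ℕ × ℕ → β) (i : ℕ)
    (u w : ℕ) : halfL d G ξ D i u w = halfL d G ξ D i w u := by
  classical
  unfold halfL
  by_cases h1 : (ξ u : ℝ) < ξ w
  · have h2 : ¬ (ξ w : ℝ) < ξ u := not_lt.2 h1.le
    simp [h1, h2]
  · by_cases h2 : (ξ w : ℝ) < ξ u
    · simp [h1, h2]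
    · simp [h1, h2]

/-- The value on an unordered pair. -/
noncomputable def edgeL {β : Type*} (d : β) (G : SimpleGraph ℕ) (ξ : ℕ → I) (D : ℕ × ℕ → β) (i : ℕ) :
    Sym2 ℕ → β :=
  Sym2.lift ⟨halfL d G ξ D i, halfL_symm d G ξ D i⟩

@[simp] theorem edgeL_mk {β : Type*} (d : β) (G : SimpleGraph ℕ) (ξ : ℕ → I) (D : ℕ × ℕ → β) (i : ℕ)
    (u w : ℕ) : edgeL d G ξ D i s(u, w) = halfL d G ξ D i u w := rfl

theorem rk_comap (G : SimpleGraph ℕ) (σ : Equiv.Perm ℕ) (ξ : ℕ → I) (a b : ℕ) :
    rk (G.comap σ) (ξ ∘ σ) a b = rk G ξ (σ a) (σ b) := by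
  unfold rk
  have : {w | (G.comap σ).Adj a w ∧ (((ξ ∘ σ) w : I) : ℝ) < (ξ ∘ σ) b} =
      σ ⁻¹' {w | G.Adj (σ a) w ∧ (ξ w : ℝ) < ξ (σ b)} := by
    ext w; simp
  rw [this]
  exact Set.ncard_preimage_of_injective_subset_range σ.injective (by simp [σ.surjective.range_eq])

/-- Relabelling of digit addresses. -/
def sig1 (σ : Equiv.Perm ℕ) (p : ℕ × ℕ) : ℕ × ℕ := (σ p.1, p.2)

theorem edgeL_comap {β : Type*} (d : β) (G : SimpleGraph ℕ) (σ : Equiv.Perm ℕ) (ξ : ℕ → I)
    (D : ℕ × ℕ → β) (i : ℕ) (e : Sym2 ℕ) :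
    edgeL d (G.comap σ) (ξ ∘ σ) (D ∘ sig1 σ) i e = edgeL d G ξ D i (Sym2.map σ e) := by
  induction e using Sym2.ind with
  | _ u w =>
    simp only [edgeL_mk, Sym2.map_mk, halfL, Function.comp, sig1, rk_comap]

/-- Priority of a vertex. -/
noncomputable def xi (x : ℕ → I) (u : ℕ) : I := Psi (x u) 0
/-- Digits of vertices. -/
noncomputable def dig (x : ℕ → I) (p : ℕ × ℕ) : I := Psi (x p.1) (p.2 + 1)

theorem xi_comp (x : ℕ → I) (σ : Equiv.Perm ℕ) : xi (x ∘ σ) = xi x ∘ σ := rfl
theorem dig_comp (x : ℕ → I) (σ : Equiv.Perm ℕ) : dig (x ∘ σ) = dig x ∘ sig1 σ := rfl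

/-- Order label of an edge. -/
noncomputable def tL (G : SimpleGraph ℕ) (x : ℕ → I) : Sym2 ℕ → I := edgeL 0 G (xi x) (dig x) 0
/-- Value label of an edge. -/
noncomputable def vL (G : SimpleGraph ℕ) (x : ℕ → I) : Sym2 ℕ → I := edgeL 0 G (xi x) (dig x) 1

theorem tL_comap (G : SimpleGraph ℕ) (σ : Equiv.Perm ℕ) (x : ℕ → I) :
    tL (G.comap σ) (x ∘ σ) = tL G x ∘ Sym2.map σ := by
  funext e
  simp only [tL, xi_comp, dig_comp, edgeL_comap, Function.comp]

theorem vL_comap (G : SimpleGraph ℕ) (σ : Equiv.Perm ℕ) (x : ℕ → I) :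
    vL (G.comap σ) (x ∘ σ) = vL G x ∘ Sym2.map σ := by
  funext e
  simp only [vL, xi_comp, dig_comp, edgeL_comap, Function.comp]

/-! ### Joint measurability -/

section Meas
variable {Ω : Type*} [MeasurableSpace Ω]

theorem measurable_rk (Ga : Ω → SimpleGraph ℕ) (hG : ∀ a b, MeasurableSet {ω | (Ga ω).Adj a b})
    (ξ : Ω → ℕ → I) (hξ : ∀ u, Measurable fun ω => ξ ω u) (a b : ℕ) :
    Measurable fun ω => rk (Ga ω) (ξ ω) a b := by
  refine measurable_ncard _ fun w => ?_
  exact (hG a w).inter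
    (measurableSet_lt (measurable_subtype_coe.comp (hξ w)) (measurable_subtype_coe.comp (hξ b)))

theorem measurable_edgeL (Ga : Ω → SimpleGraph ℕ) (hG : ∀ a b, MeasurableSet {ω | (Ga ω).Adj a b})
    (ξ : Ω → ℕ → I) (hξ : ∀ u, Measurable fun ω => ξ ω u)
    (D : Ω → ℕ × ℕ → I) (hD : ∀ p, Measurable fun ω => D ω p) (i : ℕ) (e : Sym2 ℕ) :
    Measurable fun ω => edgeL (0 : I) (Ga ω) (ξ ω) (D ω) i e := by
  classical
  induction e using Sym2.ind with
  | _ u w =>
    simp only [edgeL_mk, halfL]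
    have hlt : ∀ a b, MeasurableSet {ω | ((ξ ω a : I) : ℝ) < ξ ω b} := fun a b =>
      measurableSet_lt (measurable_subtype_coe.comp (hξ a)) (measurable_subtype_coe.comp (hξ b))
    have hbr : ∀ a b, Measurable fun ω => D ω (a, 2 * rk (Ga ω) (ξ ω) a b + i) := by
      intro a b
      refine measurable_cases (fun ω => rk (Ga ω) (ξ ω) a b) ?_ (fun n ω => D ω (a, 2 * n + i))
        (fun n => hD _)
      intro n
      exact measurable_rk Ga hG ξ hξ a b (measurableSet_singleton n)
    refine Measurable.ite (hlt u w) (hbr u w) (Measurable.ite (hlt w u) (hbr w u) measurable_const)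

end Meas

theorem measurable_xi (u : ℕ) : Measurable fun x : ℕ → I => xi x u :=
  (measurable_pi_apply 0).comp (Psi_measurable.comp (measurable_pi_apply u))

theorem measurable_dig (p : ℕ × ℕ) : Measurable fun x : ℕ → I => dig x p :=
  (measurable_pi_apply (p.2 + 1)).comp (Psi_measurable.comp (measurable_pi_apply p.1))

theorem measurableSet_adj_fst (a b : ℕ) :
    MeasurableSet {p : Table × (ℕ → I) | (graphOfTable p.1).Adj a b} :=
  measurable_fst (measurableSet_adj a b)

/-- Joint measurability of the order label. -/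
theorem measurable_tL (e : Sym2 ℕ) :
    Measurable fun p : Table × (ℕ → I) => tL (graphOfTable p.1) p.2 e :=
  measurable_edgeL (fun p : Table × (ℕ → I) => graphOfTable p.1) measurableSet_adj_fst
    (fun p => xi p.2) (fun u => (measurable_xi u).comp measurable_snd)
    (fun p => dig p.2) (fun q => (measurable_dig q).comp measurable_snd) 0 e

/-- Joint measurability of the value label. -/
theorem measurable_vL (e : Sym2 ℕ) :
    Measurable fun p : Table × (ℕ → I) => vL (graphOfTable p.1) p.2 e :=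
  measurable_edgeL (fun p : Table × (ℕ → I) => graphOfTable p.1) measurableSet_adj_fst
    (fun p => xi p.2) (fun u => (measurable_xi u).comp measurable_snd)
    (fun p => dig p.2) (fun q => (measurable_dig q).comp measurable_snd) 1 e

/-! ### The slots -/

/-- Address of the digit used by an edge. -/
noncomputable def slot (G : SimpleGraph ℕ) (ξ : ℕ → I) (i : ℕ) : Sym2 ℕ → ℕ × ℕ :=
  edgeL (0, 0) G ξ id i

theorem halfL_of_lt {β : Type*} (d : β) (G : SimpleGraph ℕ) (ξ : ℕ → I) (D : ℕ × ℕ → β) (i : ℕ)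
    {u w : ℕ} (h : (ξ u : ℝ) < ξ w) : halfL d G ξ D i u w = D (u, 2 * rk G ξ u w + i) := by
  simp [halfL, h]

theorem exists_rep {G : SimpleGraph ℕ} {ξ : ℕ → I} (hξ : Function.Injective ξ) {e : Sym2 ℕ}
    (he : e ∈ G.edgeSet) : ∃ u w, e = s(u, w) ∧ (ξ u : ℝ) < ξ w ∧ G.Adj u w := by
  induction e using Sym2.ind with
  | _ a b =>
    have hab : G.Adj a b := he
    have hne : (ξ a : ℝ) ≠ ξ b := fun h => hab.ne (hξ (Subtype.ext h))
    rcases lt_or_gt_of_ne hne with h | h
    · exact ⟨a, b, rfl, h, hab⟩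
    · exact ⟨b, a, Sym2.eq_swap, h, hab.symm⟩

theorem edgeL_eq_slot {G : SimpleGraph ℕ} {ξ : ℕ → I} (hξ : Function.Injective ξ) {e : Sym2 ℕ}
    (he : e ∈ G.edgeSet) {β : Type*} (d : β) (D : ℕ × ℕ → β) (i : ℕ) :
    edgeL d G ξ D i e = D (slot G ξ i e) := by
  obtain ⟨u, w, rfl, h, _⟩ := exists_rep hξ he
  simp only [slot, edgeL_mk, halfL_of_lt _ _ _ _ _ h, id]

theorem rk_lt {G : SimpleGraph ℕ} (hl : ∀ v, (G.neighborSet v).Finite) {ξ : ℕ → I} {a w w' : ℕ}
    (hadj : G.Adj a w) (h : (ξ w : ℝ) < ξ w') : rk G ξ a w < rk G ξ a w' := by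
  unfold rk
  apply Set.ncard_lt_ncard
  · constructor
    · rintro z ⟨hz, hzw⟩
      exact ⟨hz, hzw.trans h⟩
    · intro hsub
      have := (hsub ⟨hadj, h⟩).2
      exact lt_irrefl _ this
  · exact (hl a).subset fun z hz => hz.1

/-- The slots of distinct edges, or of the two labels of an edge, are distinct. -/
theorem slot_inj {G : SimpleGraph ℕ} (hl : ∀ v, (G.neighborSet v).Finite) {ξ : ℕ → I}
    (hξ : Function.Injective ξ) {i j : ℕ} (hi : i < 2) (hj : j < 2) {e e' : Sym2 ℕ}
    (he : e ∈ G.edgeSet) (he' : e' ∈ G.edgeSet) (h : slot G ξ i e = slot G ξ j e') :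
    i = j ∧ e = e' := by
  obtain ⟨u, w, rfl, hlt, hadj⟩ := exists_rep hξ he
  obtain ⟨u', w', rfl, hlt', hadj'⟩ := exists_rep hξ he'
  simp only [slot, edgeL_mk, halfL_of_lt _ _ _ _ _ hlt, halfL_of_lt _ _ _ _ _ hlt', id,
    Prod.mk.injEq] at h
  obtain ⟨rfl, h2⟩ := h
  have hr : rk G ξ u w = rk G ξ u w' := by omega
  have hij : i = j := by omega
  refine ⟨hij, ?_⟩
  have hw : w = w' := by
    by_contra hne
    have hne' : (ξ w : ℝ) ≠ ξ w' := fun h => hne (hξ (Subtype.ext h))
    rcases lt_or_gt_of_ne hne' with h | h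
    · exact absurd hr (rk_lt hl hadj h).ne
    · exact absurd hr.symm (rk_lt hl hadj' h).ne
  rw [hw]

/-! ### The law of the edge labels -/

/-- Edge labels restricted to the edges. -/
noncomputable def lamE (G : SimpleGraph ℕ) (x : ℕ → I) :
    (G.edgeSet → I) × (G.edgeSet → I) :=
  (fun e => tL G x e.1, fun e => vL G x e.1)

/-- Edge labels as a function of priorities and digits. -/
noncomputable def Theta (G : SimpleGraph ℕ) (p : (ℕ → I) × (ℕ × ℕ → I)) :
    (G.edgeSet → I) × (G.edgeSet → I) :=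
  (fun e => edgeL 0 G p.1 p.2 0 e.1, fun e => edgeL 0 G p.1 p.2 1 e.1)

theorem measurable_Theta (G : SimpleGraph ℕ) : Measurable (Theta G) := by
  have hG : ∀ a b, MeasurableSet {_ω : (ℕ → I) × (ℕ × ℕ → I) | G.Adj a b} :=
    fun a b => MeasurableSet.const _
  have h : ∀ i (e : G.edgeSet), Measurable fun p : (ℕ → I) × (ℕ × ℕ → I) =>
      edgeL (0 : I) G p.1 p.2 i e.1 := fun i e =>
    measurable_edgeL (fun _ => G) hG (fun p => p.1)
      (fun u => (measurable_pi_apply u).comp measurable_fst) (fun p => p.2)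
      (fun q => (measurable_pi_apply q).comp measurable_snd) i e.1
  exact Measurable.prodMk (measurable_pi_iff.2 (h 0)) (measurable_pi_iff.2 (h 1))

/-- Priorities and digits, together. -/
noncomputable def xiDig (x : ℕ → I) : (ℕ → I) × (ℕ × ℕ → I) := (xi x, dig x)

theorem xiDig_eq : xiDig = (fun y : ℕ × ℕ → I => (y ∘ fun u : ℕ => (u, 0),
    y ∘ fun q : ℕ × ℕ => (q.1, q.2 + 1))) ∘ splitAll := rfl

theorem measurable_xiDig : Measurable xiDig :=
  Measurable.prodMk (measurable_pi_iff.2 measurable_xi) (measurable_pi_iff.2 measurable_dig)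

theorem xiDig_law :
    (labelMeasure ℕ).map xiDig = (labelMeasure ℕ).prod (labelMeasure (ℕ × ℕ)) := by
  have hm : Measurable (fun y : ℕ × ℕ → I => (y ∘ fun u : ℕ => (u, 0),
      y ∘ fun q : ℕ × ℕ => (q.1, q.2 + 1))) := by
    refine Measurable.prodMk ?_ ?_ <;>
    · refine measurable_pi_iff.mpr fun a => ?_
      exact measurable_pi_apply _
  rw [xiDig_eq, ← Measure.map_map hm splitAll_measurable, curry_law]
  refine split_law _ _ ?_ ?_ ?_
  · intro a b h
    simpa using h
  · rintro ⟨a, k⟩ ⟨b, l⟩ h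
    simpa using h
  · rintro a ⟨b, l⟩ h
    simp at h

/-- For a locally finite graph, the edge labels are exact i.i.d. labels on the edges. -/
theorem Theta_law {G : SimpleGraph ℕ} (hl : ∀ v, (G.neighborSet v).Finite) :
    ((labelMeasure ℕ).prod (labelMeasure (ℕ × ℕ))).map (Theta G) = Crest.Agent.SRC.muL G.edgeSet := by
  refine Measure.ext fun S hS => ?_
  rw [Measure.map_apply (measurable_Theta G) hS,
    Measure.prod_apply (measurable_Theta G hS)]
  have hae : ∀ᵐ ξ ∂(labelMeasure ℕ),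
      labelMeasure (ℕ × ℕ) (Prod.mk ξ ⁻¹' (Theta G ⁻¹' S)) = Crest.Agent.SRC.muL G.edgeSet S := by
    filter_upwards [ae_injective (V := ℕ)] with ξ hξ
    let f₀ : G.edgeSet → ℕ × ℕ := fun e => slot G ξ 0 e.1
    let f₁ : G.edgeSet → ℕ × ℕ := fun e => slot G ξ 1 e.1
    have h₀ : Function.Injective f₀ := fun e e' h =>
      Subtype.ext (slot_inj hl hξ (by norm_num) (by norm_num) e.2 e'.2 h).2
    have h₁ : Function.Injective f₁ := fun e e' h =>
      Subtype.ext (slot_inj hl hξ (by norm_num) (by norm_num) e.2 e'.2 h).2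
    have hd : ∀ a b, f₀ a ≠ f₁ b := fun a b h => by
      have := (slot_inj hl hξ (by norm_num) (by norm_num) a.2 b.2 h).1
      omega
    have hlaw := split_law (ι := ℕ × ℕ) f₀ f₁ h₀ h₁ hd
    have hm : Measurable (fun y : ℕ × ℕ → I => (y ∘ f₀, y ∘ f₁)) := by
      refine Measurable.prodMk ?_ ?_ <;>
      · refine measurable_pi_iff.mpr fun a => ?_
        exact measurable_pi_apply _
    have hset : Prod.mk ξ ⁻¹' (Theta G ⁻¹' S) = (fun y : ℕ × ℕ → I => (y ∘ f₀, y ∘ f₁)) ⁻¹' S := by
      ext D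
      simp only [Set.mem_preimage, Theta]
      have e0 : (fun e : G.edgeSet => edgeL (0 : I) G ξ D 0 e.1) = D ∘ f₀ := by
        funext e
        exact edgeL_eq_slot hξ e.2 _ _ _
      have e1 : (fun e : G.edgeSet => edgeL (0 : I) G ξ D 1 e.1) = D ∘ f₁ := by
        funext e
        exact edgeL_eq_slot hξ e.2 _ _ _
      rw [e0, e1]
    rw [hset, ← Measure.map_apply hm hS, hlaw]
    rfl
  rw [lintegral_congr_ae hae]
  simp

theorem lamE_eq (G : SimpleGraph ℕ) : lamE G = Theta G ∘ xiDig := rfl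

theorem measurable_lamE (G : SimpleGraph ℕ) : Measurable (lamE G) :=
  (measurable_Theta G).comp measurable_xiDig

/-- The edge labels of a locally finite graph are exact i.i.d. labels on the edges. -/
theorem lamE_law {G : SimpleGraph ℕ} (hl : ∀ v, (G.neighborSet v).Finite) :
    (labelMeasure ℕ).map (lamE G) = Crest.Agent.SRC.muL G.edgeSet := by
  rw [lamE_eq, ← Measure.map_map (measurable_Theta G) measurable_xiDig, xiDig_law, Theta_law hl]

/-! ### Distinct digits -/

/-- All the digits of all the vertices are distinct. -/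
def digInj (x : ℕ → I) : Prop := Function.Injective (splitAll x)

theorem measurableSet_digInj : MeasurableSet {x : ℕ → I | digInj x} := by
  have : {x : ℕ → I | digInj x} =
      ⋂ p : ℕ × ℕ, ⋂ q : ℕ × ℕ, {x | p ≠ q → splitAll x p ≠ splitAll x q} := by
    ext x
    simp only [digInj, Set.mem_ofPred_eq, Set.mem_iInter, Function.Injective]
    constructor
    · intro h p q hpq hval
      exact hpq (h hval)
    · intro h p q hval
      by_contra hne
      exact h p q hne hval
  rw [this]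
  refine MeasurableSet.iInter fun p => MeasurableSet.iInter fun q => ?_
  by_cases hpq : p = q
  · simp [hpq]
  · simp only [ne_eq, hpq, not_false_eq_true, forall_const]
    exact (measurableSet_eq_fun ((measurable_pi_apply p).comp splitAll_measurable)
      ((measurable_pi_apply q).comp splitAll_measurable)).compl

theorem ae_digInj : ∀ᵐ x ∂(labelMeasure ℕ), digInj x := by
  have h : ∀ᵐ y ∂((labelMeasure ℕ).map splitAll), Function.Injective y := by
    rw [curry_law]; exact ae_injective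
  exact ae_of_ae_map splitAll_measurable.aemeasurable h

theorem digInj_comp (x : ℕ → I) (σ : Equiv.Perm ℕ) : digInj (x ∘ σ) ↔ digInj x := by
  have h : splitAll (x ∘ σ) = splitAll x ∘ (fun p : ℕ × ℕ => (σ p.1, p.2)) := rfl
  unfold digInj
  rw [h]
  have hb : Function.Bijective (fun p : ℕ × ℕ => (σ p.1, p.2)) :=
    (Equiv.prodCongr σ (Equiv.refl ℕ)).bijective
  exact Function.Injective.of_comp_iff' _ hb

theorem xi_inj_of_digInj {x : ℕ → I} (h : digInj x) : Function.Injective (xi x) := by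
  intro a b hab
  have : (a, 0) = (b, 0) := h hab
  simpa using this

theorem dig_inj_of_digInj {x : ℕ → I} (h : digInj x) : Function.Injective (dig x) := by
  rintro ⟨a, k⟩ ⟨b, l⟩ hab
  have : (a, k + 1) = (b, l + 1) := h hab
  simpa using this

/-- With distinct digits, order labels are injective on the edges. -/
theorem tL_injOn {G : SimpleGraph ℕ} (hl : ∀ v, (G.neighborSet v).Finite) {x : ℕ → I}
    (h : digInj x) : Set.InjOn (tL G x) G.edgeSet := by
  intro e he e' he' heq
  have hξ := xi_inj_of_digInj h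
  simp only [tL, edgeL_eq_slot hξ he, edgeL_eq_slot hξ he'] at heq
  exact (slot_inj hl hξ (by norm_num) (by norm_num) he he' (dig_inj_of_digInj h heq)).2

/-- Label measure is invariant under permutations. -/
theorem labelMeasure_comp (σ : Equiv.Perm ℕ) :
    (labelMeasure ℕ).map (fun x : ℕ → I => x ∘ σ) = labelMeasure ℕ := by
  have hm : Measurable (fun x : ℕ → I => x ∘ σ) :=
    measurable_pi_iff.mpr fun a => measurable_pi_apply _
  refine eq_infinitePi _ fun s t ht => ?_
  rw [Measure.map_apply hm (MeasurableSet.pi s.countable_toSet fun i _ => ht i)]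
  have hset : (fun x : ℕ → I => x ∘ σ) ⁻¹' Set.pi (↑s) t =
      Set.pi (↑(s.map σ.toEmbedding)) (t ∘ σ.symm) := by
    ext x
    simp only [Set.mem_preimage, Set.mem_pi, Finset.mem_coe, Finset.mem_map,
      Equiv.coe_toEmbedding, Function.comp]
    constructor
    · rintro h i ⟨a, ha, rfl⟩
      simpa using h a ha
    · intro h a ha
      simpa using h (σ a) ⟨a, ha, rfl⟩
  rw [hset]
  change labelMeasure ℕ _ = _
  rw [labelMeasure_pi (s.map σ.toEmbedding) (t ∘ σ.symm) (fun i _ => ht _), Finset.prod_map]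
  simp

end Crest.Agent.SRC.Gr
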