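import Crest.Agent.Lib.SRC.Pair3
import Crest.Agent.Lib.SRC.ChainBasic
import Crest.Agent.Lib.SRC.Split
import Crest.Agent.Lib.SRC.OutLaw

/-!
From the label measure to the deterministic functional `W` (helper6):
* `measure_Ev`: the probability that two chains from `α`, `β` along the same list separate at `o` is `V`.
* `measure_defer`: deferring one site gives `Esum (W ...)`.
* `telescope_bound`: the output on `F` versus the output on `Y ⊇ F`, for fixed labels `t`.
-/

open MeasureTheory
open scoped ENNReal
open Crest.Agent.SRC.Split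
open Crest.ProbabilityR.Labels

namespace Crest.Agent.SRC

set_option linter.unusedSectionVars false

local notation "I" => unitInterval

section Indep

variable {E : Type*} [DecidableEq E]

/-- Independence of one coordinate from an event that does not look at that coordinate. -/
theorem measure_coord_inter (g : E) {R : Set I} (hR : MeasurableSet R) {S : Set (E → I)}
    (hS : MeasurableSet S) (hSg : ∀ (v : E → I) (u : I), Function.update v g u ∈ S ↔ v ∈ S) :
    labelMeasure E {v | v g ∈ R ∧ v ∈ S} = volume R * labelMeasure E S := by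
  classical
  let f₀ : Unit → E := fun _ => g
  let f₁ : {e : E // e ≠ g} → E := Subtype.val
  have h₀ : Function.Injective f₀ := fun a b _ => rfl
  have h₁ : Function.Injective f₁ := Subtype.val_injective
  have hd : ∀ a b, f₀ a ≠ f₁ b := fun _ b => b.2.symm
  have hlaw := split_law f₀ f₁ h₀ h₁ hd
  let φ : (E → I) → (Unit → I) × ({e : E // e ≠ g} → I) := fun y => (y ∘ f₀, y ∘ f₁)
  have hφ : Measurable φ := by
    refine Measurable.prodMk ?_ ?_ <;>
    · refine measurable_pi_iff.mpr fun a => ?_
      exact measurable_pi_apply _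
  let ext : ({e : E // e ≠ g} → I) → (E → I) := fun w e =>
    if h : e ≠ g then w ⟨e, h⟩ else (0 : I)
  have hext : Measurable ext := by
    refine measurable_pi_iff.mpr fun e => ?_
    by_cases h : e ≠ g
    · simp only [ext, h, ne_eq, not_false_eq_true, dite_true]
      exact measurable_pi_apply _
    · simp only [ext, h, dite_false]
      exact measurable_const
  have hextφ : ∀ y : E → I, ext (y ∘ f₁) = Function.update y g 0 := by
    intro y
    funext e
    by_cases h : e = g
    · subst h
      simp [ext]
    · simp [ext, h, f₁]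
  let A : Set (Unit → I) := {y | y () ∈ R}
  let B : Set ({e : E // e ≠ g} → I) := ext ⁻¹' S
  have hA : MeasurableSet A := (measurable_pi_apply ()) hR
  have hB : MeasurableSet B := hext hS
  have hpre : ∀ C : Set I, MeasurableSet C → labelMeasure E {v | v g ∈ C ∧ v ∈ S}
      = labelMeasure Unit {y | y () ∈ C} * labelMeasure {e : E // e ≠ g} B := by
    intro C hC
    have h1 : {v : E → I | v g ∈ C ∧ v ∈ S} = φ ⁻¹' ({y | y () ∈ C} ×ˢ B) := by
      ext v
      simp only [Set.mem_ofPred_eq, Set.mem_preimage, Set.mem_prod, φ, Function.comp, B, f₀]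
      have := hSg v 0
      rw [hextφ v, this]
    have hC' : MeasurableSet {y : Unit → I | y () ∈ C} := (measurable_pi_apply ()) hC
    rw [h1, ← Measure.map_apply hφ (hC'.prod hB), show Measure.map φ (labelMeasure E) = _ from hlaw,
      Measure.prod_prod]
  have hU : labelMeasure Unit {y : Unit → I | y () ∈ R} = volume R := by
    have := labelMeasure_pi (V := Unit) {()} (fun _ => R) (fun _ _ => hR)
    simp only [Finset.prod_singleton] at this
    rw [← this]
    congr 1
    ext y
    simp
  have hmain := hpre R hR
  have huniv := hpre Set.univ MeasurableSet.univ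
  have hU1 : labelMeasure Unit {y : Unit → I | y () ∈ (Set.univ : Set I)} = 1 := by
    simp
  rw [hU1, one_mul] at huniv
  have hS2 : {v : E → I | v g ∈ (Set.univ : Set I) ∧ v ∈ S} = S := by
    ext v
    simp
  rw [hS2] at huniv
  rw [hmain, hU, huniv]

end Indep

namespace MassSys

variable {E : Type*} [DecidableEq E] (M : MassSys E)

/-- The decision at `o` of the chain from `c` along `l`. -/
noncomputable def dec (v : E → I) (c : St E) (l : List E) (o : E) : Bool :=
  open Classical in decide (((v o : I) : ℝ) < M.a (M.run v c l) o)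

lemma out_eq_dec (t v : E → I) (F : Finset E) (o : E) :
    M.out t v F o = M.dec v (∅, ∅) (below t F o) o := rfl

lemma step_eq_add (v : E → I) (c : St E) (g : E) :
    M.step v c g = add c g (open Classical in decide (((v g : I) : ℝ) < M.a c g)) := by
  unfold step add
  by_cases h : ((v g : I) : ℝ) < M.a c g <;> simp [h]

lemma run_cons (v : E → I) (c : St E) (g : E) (l : List E) :
    M.run v c (g :: l) = M.run v (M.step v c g) l := rfl

lemma run_append (v : E → I) (c : St E) (l l' : List E) :
    M.run v c (l ++ l') = M.run v (M.run v c l) l' := by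
  simp [run, List.foldl_append]

lemma run_congr {v v' : E → I} (c : St E) (l : List E) (h : ∀ e ∈ l, v e = v' e) :
    M.run v c l = M.run v' c l := by
  induction l generalizing c with
  | nil => rfl
  | cons g l ih =>
    rw [run_cons, run_cons]
    have : M.step v c g = M.step v' c g := by
      unfold step
      rw [h g (List.mem_cons_self)]
    rw [this]
    exact ih _ fun e he => h e (List.mem_cons_of_mem _ he)

lemma dec_congr {v v' : E → I} (c : St E) (l : List E) (o : E) (h : ∀ e ∈ l, v e = v' e)
    (ho : v o = v' o) : M.dec v c l o = M.dec v' c l o := by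
  unfold dec
  rw [M.run_congr c l h, ho]

section Meas

variable [Countable E]

lemma measurable_dec (c : St E) (l : List E) (o : E) :
    Measurable (fun v : E → I => M.dec v c l o) := by
  classical
  refine measurable_to_bool ?_
  have : (fun v : E → I => M.dec v c l o) ⁻¹' {true} =
      ⋃ c₀ : St E, {v | M.run v c l = c₀} ∩ {v | ((v o : I) : ℝ) < M.a c₀ o} := by
    ext v
    simp [dec]
  rw [this]
  refine MeasurableSet.iUnion fun c₀ => ?_
  refine MeasurableSet.inter ?_ ?_
  · exact MassSys.measurableSet_run_eq (fun _ => M) (fun _ _ => measurable_const)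
      (fun e => measurable_pi_apply e) l c c₀
  · exact measurableSet_lt (measurable_subtype_coe.comp (measurable_pi_apply o)) measurable_const


/-- the pair event -/
def Ev (o : E) (l : List E) (α β : St E) : Set (E → I) := {v | M.dec v α l o ≠ M.dec v β l o}

lemma measurableSet_Ev (o : E) (l : List E) (α β : St E) : MeasurableSet (M.Ev o l α β) := by
  have h1 := M.measurable_dec α l o
  have h2 := M.measurable_dec β l o
  exact (measurableSet_eq_fun h1 h2).compl

lemma Ev_update {o g : E} {l : List E} (hg : g ∉ l) (hgo : g ≠ o) (α β : St E) (v : E → I) (u : I) :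
    Function.update v g u ∈ M.Ev o l α β ↔ v ∈ M.Ev o l α β := by
  have hc : ∀ c : St E, M.dec (Function.update v g u) c l o = M.dec v c l o := by
    intro c
    apply M.dec_congr
    · intro e he
      have : e ≠ g := fun h => hg (h ▸ he)
      simp [Function.update_of_ne this]
    · simp [Function.update_of_ne hgo.symm]
  simp only [Ev, Set.mem_ofPred_eq, hc]

/-- the cell of the unit interval -/
def cellS (A B : ℝ) (x y : Bool) : Set I :=
  {u | (open Classical in decide ((u : ℝ) < A)) = x ∧ (open Classical in decide ((u : ℝ) < B)) = y}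

lemma measurableSet_cellS (A B : ℝ) (x y : Bool) : MeasurableSet (cellS A B x y) := by
  have h1 : MeasurableSet {u : I | (u : ℝ) < A} := measurableSet_lt measurable_subtype_coe measurable_const
  have h2 : MeasurableSet {u : I | (u : ℝ) < B} := measurableSet_lt measurable_subtype_coe measurable_const
  cases x <;> cases y
  · have : cellS A B false false = {u : I | (u : ℝ) < A}ᶜ ∩ {u : I | (u : ℝ) < B}ᶜ := by
      ext u; simp [cellS]
    rw [this]; exact h1.compl.inter h2.compl
  · have : cellS A B false true = {u : I | (u : ℝ) < A}ᶜ ∩ {u : I | (u : ℝ) < B} := by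
      ext u; simp [cellS]
    rw [this]; exact h1.compl.inter h2
  · have : cellS A B true false = {u : I | (u : ℝ) < A} ∩ {u : I | (u : ℝ) < B}ᶜ := by
      ext u; simp [cellS]
    rw [this]; exact h1.inter h2.compl
  · have : cellS A B true true = {u : I | (u : ℝ) < A} ∩ {u : I | (u : ℝ) < B} := by
      ext u; simp [cellS]
    rw [this]; exact h1.inter h2

lemma volume_cell_tf {A B : ℝ} (hA0 : 0 ≤ A) (hA1 : A ≤ 1) (hB0 : 0 ≤ B) (hB1 : B ≤ 1) :
    (volume : Measure I) (cellS A B true false) = ENNReal.ofReal (max (A - B) 0) := by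
  by_cases h : A ≤ B
  · have : cellS A B true false = ∅ := by
      ext u
      simp only [cellS, decide_eq_true_eq, decide_eq_false_iff_not, not_lt, Set.mem_ofPred_eq,
        Set.mem_empty_iff_false, iff_false, not_and, not_le]
      intro hu
      linarith
    rw [this, max_eq_right (by linarith)]
    simp
  · push Not at h
    have : cellS A B true false = Set.Ico (⟨B, hB0, hB1⟩ : I) (⟨A, hA0, hA1⟩ : I) := by
      ext u
      simp only [cellS, decide_eq_true_eq, decide_eq_false_iff_not, not_lt, Set.mem_ofPred_eq,
        Set.mem_Ico]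
      exact ⟨fun h => ⟨h.2, h.1⟩, fun h => ⟨h.2, h.1⟩⟩
    rw [this, unitInterval.volume_Ico, max_eq_left (by linarith)]

lemma volume_cell_ft {A B : ℝ} (hA0 : 0 ≤ A) (hA1 : A ≤ 1) (hB0 : 0 ≤ B) (hB1 : B ≤ 1) :
    (volume : Measure I) (cellS A B false true) = ENNReal.ofReal (max (B - A) 0) := by
  have : cellS A B false true = cellS B A true false := by
    ext u
    simp only [cellS, Set.mem_ofPred_eq]
    exact And.comm
  rw [this]
  exact volume_cell_tf hB0 hB1 hA0 hA1

lemma volume_cell_tt {A B : ℝ} (hA0 : 0 ≤ A) (hA1 : A ≤ 1) (hB0 : 0 ≤ B) (hB1 : B ≤ 1) :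
    (volume : Measure I) (cellS A B true true) = ENNReal.ofReal (min A B) := by
  have : cellS A B true true = {u : I | (u : ℝ) < min A B} := by
    ext u
    simp [cellS]
  rw [this]
  exact volume_lt _ (le_min hA0 hB0) ((min_le_left _ _).trans hA1)

lemma volume_cell_ff {A B : ℝ} (hA0 : 0 ≤ A) (hA1 : A ≤ 1) (hB0 : 0 ≤ B) (hB1 : B ≤ 1) :
    (volume : Measure I) (cellS A B false false) = ENNReal.ofReal (1 - max A B) := by
  have : cellS A B false false = {u : I | ¬ (u : ℝ) < max A B} := by
    ext u
    simp [cellS]
  rw [this]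
  exact volume_not_lt _ (hA0.trans (le_max_left _ _)) (max_le hA1 hB1)

lemma mem_cell_iff {A B : ℝ} (u : I) (x y : Bool) : u ∈ cellS A B x y ↔
    ((open Classical in decide ((u : ℝ) < A)) = x ∧ (open Classical in decide ((u : ℝ) < B)) = y) :=
  Iff.rfl

lemma dec_cons (v : E → I) (c : St E) (g : E) (l : List E) (o : E) :
    M.dec v c (g :: l) o = M.dec v (add c g (open Classical in decide (((v g : I) : ℝ) < M.a c g))) l o := by
  unfold dec
  rw [run_cons, step_eq_add]

/-- **The probability that two chains separate at `o` is `V`.** -/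
theorem measure_Ev (o : E) (l : List E) (hl : l.Nodup) (ho : o ∉ l) (α β : St E) :
    labelMeasure E (M.Ev o l α β) = ENNReal.ofReal (M.V o l α β) := by
  classical
  induction l generalizing α β with
  | nil =>
    set A := M.a α o
    set B := M.a β o
    have hA0 := M.a_nonneg α o
    have hA1 := M.a_le_one α o
    have hB0 := M.a_nonneg β o
    have hB1 := M.a_le_one β o
    have hset : M.Ev o [] α β = {v | v o ∈ cellS A B true false ∪ cellS A B false true ∧ v ∈ Set.univ} := by
      ext v
      simp only [Ev, dec, run, List.foldl_nil, Set.mem_ofPred_eq, Set.mem_union, cellS, Set.mem_univ,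
        and_true, ne_eq]
      by_cases h1 : ((v o : I) : ℝ) < M.a α o <;> by_cases h2 : ((v o : I) : ℝ) < M.a β o <;> simp [h1, h2, A, B]
    rw [hset, measure_coord_inter o ((measurableSet_cellS _ _ _ _).union (measurableSet_cellS _ _ _ _))
      MeasurableSet.univ (by simp)]
    rw [measure_univ, mul_one, measure_union _ (measurableSet_cellS _ _ _ _),
      volume_cell_tf hA0 hA1 hB0 hB1, volume_cell_ft hA0 hA1 hB0 hB1,
      ← ENNReal.ofReal_add (le_max_right _ _) (le_max_right _ _), V_nil]
    · congr 1
      rcases le_total A B with h | h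
      · rw [max_eq_right (by linarith), max_eq_left (by linarith), abs_of_nonpos (by linarith)]
        ring
      · rw [max_eq_left (by linarith), max_eq_right (by linarith), abs_of_nonneg (by linarith)]
        ring
    · rw [Set.disjoint_left]
      intro u h1 h2
      simp [cellS] at h1 h2
      exact absurd h1.1 (not_lt.mpr h2.1)
  | cons g l ih =>
    have hg : g ∉ l := (List.nodup_cons.mp hl).1
    have hl' : l.Nodup := (List.nodup_cons.mp hl).2
    have hgo : g ≠ o := fun h => ho (h ▸ List.mem_cons_self)
    have ho' : o ∉ l := fun h => ho (List.mem_cons_of_mem _ h)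
    set A := M.a α g with hAdef
    set B := M.a β g with hBdef
    have hA0 := M.a_nonneg α g
    have hA1 := M.a_le_one α g
    have hB0 := M.a_nonneg β g
    have hB1 := M.a_le_one β g
    let U : Bool × Bool → Set (E → I) := fun p =>
      {v | v g ∈ cellS A B p.1 p.2 ∧ v ∈ M.Ev o l (add α g p.1) (add β g p.2)}
    have hU : M.Ev o (g :: l) α β = ⋃ p, U p := by
      ext v
      simp only [Ev, Set.mem_ofPred_eq, Set.mem_iUnion, U, mem_cell_iff, dec_cons, Prod.exists, ne_eq]
      constructor
      · intro h
        exact ⟨_, _, ⟨rfl, rfl⟩, h⟩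
      · rintro ⟨x, y, ⟨rfl, rfl⟩, h⟩
        exact h
    have hmeasU : ∀ p, labelMeasure E (U p) = volume (cellS A B p.1 p.2)
        * labelMeasure E (M.Ev o l (add α g p.1) (add β g p.2)) := by
      intro p
      apply measure_coord_inter g (measurableSet_cellS _ _ _ _) (M.measurableSet_Ev _ _ _ _)
      intro v u
      exact M.Ev_update hg hgo _ _ v u
    have hUm : ∀ p, MeasurableSet (U p) := by
      intro p
      have h1 : MeasurableSet {v : E → I | v g ∈ cellS A B p.1 p.2} :=
        (measurable_pi_apply g) (measurableSet_cellS _ _ _ _)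
      exact h1.inter (M.measurableSet_Ev _ _ _ _)
    have hdisj : Pairwise (Function.onFun Disjoint U) := by
      rintro ⟨x, y⟩ ⟨x', y'⟩ hne
      rw [Function.onFun, Set.disjoint_left]
      rintro v ⟨h1, _⟩ ⟨h2, _⟩
      rw [mem_cell_iff] at h1 h2
      apply hne
      rw [Prod.mk.injEq]
      exact ⟨h1.1.symm.trans h2.1, h1.2.symm.trans h2.2⟩
    rw [hU, measure_iUnion hdisj hUm, tsum_fintype, Fintype.sum_prod_type, Fintype.sum_bool,
      Fintype.sum_bool, Fintype.sum_bool]
    simp only [hmeasU, ih hl' ho']
    rw [volume_cell_tt hA0 hA1 hB0 hB1, volume_cell_tf hA0 hA1 hB0 hB1,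
      volume_cell_ft hA0 hA1 hB0 hB1, volume_cell_ff hA0 hA1 hB0 hB1, V_cons, I2]
    have hV := fun x y => M.V_nonneg o l (add α g x) (add β g y)
    have n1 : 0 ≤ min A B := le_min hA0 hB0
    have n2 : 0 ≤ 1 - max A B := sub_nonneg.2 (max_le hA1 hB1)
    have n3 : 0 ≤ max (A - B) 0 := le_max_right _ _
    have n4 : 0 ≤ max (B - A) 0 := le_max_right _ _
    rw [← ENNReal.ofReal_mul n1, ← ENNReal.ofReal_mul n3, ← ENNReal.ofReal_mul n4,
      ← ENNReal.ofReal_mul n2, ← ENNReal.ofReal_add (mul_nonneg n1 (hV _ _)) (mul_nonneg n3 (hV _ _)),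
      ← ENNReal.ofReal_add (mul_nonneg n4 (hV _ _)) (mul_nonneg n2 (hV _ _)),
      ← ENNReal.ofReal_add (add_nonneg (mul_nonneg n1 (hV _ _)) (mul_nonneg n3 (hV _ _)))
        (add_nonneg (mul_nonneg n4 (hV _ _)) (mul_nonneg n2 (hV _ _)))]
    congr 1
    ring


/-- the event of deferring the site `f` from the state `c` -/
def Sdef (o f : E) (B : List E) (c : St E) : Set (E → I) :=
  {v | M.dec v (M.step v c f) B o ≠ M.dec v c B o}

lemma Sdef_eq (o f : E) (B : List E) (c : St E) :
    M.Sdef o f B c = {v | v f ∈ {u : I | (u : ℝ) < M.a c f} ∧ v ∈ M.Ev o B (add c f true) c} ∪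
      {v | v f ∈ {u : I | ¬ (u : ℝ) < M.a c f} ∧ v ∈ M.Ev o B (add c f false) c} := by
  ext v
  simp only [Sdef, Ev, Set.mem_ofPred_eq, Set.mem_union, step_eq_add]
  by_cases h : ((v f : I) : ℝ) < M.a c f <;> simp [h]

lemma measurableSet_lt_I (A : ℝ) : MeasurableSet {u : I | (u : ℝ) < A} :=
  measurableSet_lt measurable_subtype_coe measurable_const

lemma measurableSet_not_lt_I (A : ℝ) : MeasurableSet {u : I | ¬ (u : ℝ) < A} :=
  (measurableSet_lt_I A).compl

lemma measurableSet_coord_and (g : E) {R : Set I} (hR : MeasurableSet R) {S : Set (E → I)}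
    (hS : MeasurableSet S) : MeasurableSet {v : E → I | v g ∈ R ∧ v ∈ S} :=
  ((measurable_pi_apply g) hR).inter hS

lemma measurableSet_Sdef (o f : E) (B : List E) (c : St E) : MeasurableSet (M.Sdef o f B c) := by
  rw [Sdef_eq]
  refine MeasurableSet.union ?_ ?_
  · exact measurableSet_coord_and f (measurableSet_lt_I _) (M.measurableSet_Ev _ _ _ _)
  · exact measurableSet_coord_and f (measurableSet_not_lt_I _) (M.measurableSet_Ev _ _ _ _)

/-- The deferral event from a fixed state has probability `W`. -/
theorem measure_Sdef (o f : E) (B : List E) (hB : B.Nodup) (hoB : o ∉ B) (hfB : f ∉ B) (hfo : f ≠ o)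
    (c : St E) : labelMeasure E (M.Sdef o f B c) = ENNReal.ofReal (M.W o f c B) := by
  have hd : Disjoint {v : E → I | v f ∈ {u : I | (u : ℝ) < M.a c f} ∧ v ∈ M.Ev o B (add c f true) c}
      {v : E → I | v f ∈ {u : I | ¬ (u : ℝ) < M.a c f} ∧ v ∈ M.Ev o B (add c f false) c} := by
    rw [Set.disjoint_left]
    rintro v ⟨h1, _⟩ ⟨h2, _⟩
    exact h2 h1
  rw [Sdef_eq, measure_union hd (measurableSet_coord_and f (measurableSet_not_lt_I _) (M.measurableSet_Ev _ _ _ _)),
    measure_coord_inter f (measurableSet_lt_I _) (M.measurableSet_Ev _ _ _ _) (M.Ev_update hfB hfo _ _),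
    measure_coord_inter f (measurableSet_not_lt_I _) (M.measurableSet_Ev _ _ _ _) (M.Ev_update hfB hfo _ _),
    M.measure_Ev o B hB hoB, M.measure_Ev o B hB hoB,
    volume_lt _ (M.a_nonneg c f) (M.a_le_one c f), volume_not_lt _ (M.a_nonneg c f) (M.a_le_one c f),
    W, ← ENNReal.ofReal_mul (M.a_nonneg c f),
    ← ENNReal.ofReal_mul (sub_nonneg.2 (M.a_le_one c f)),
    ← ENNReal.ofReal_add (mul_nonneg (M.a_nonneg c f) (M.V_nonneg _ _ _ _))
      (mul_nonneg (sub_nonneg.2 (M.a_le_one c f)) (M.V_nonneg _ _ _ _))]

/-- The state after a list has exact law: expectation formula. -/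
theorem measure_pre (pre : List E) (hpre : pre.Nodup) (S : St E → Set (E → I))
    (hSm : ∀ c, MeasurableSet (S c))
    (hSu : ∀ c, ∀ e ∈ pre, ∀ (v : E → I) (u : I), Function.update v e u ∈ S c ↔ v ∈ S c) :
    labelMeasure E {v | v ∈ S (M.run v (∅, ∅) pre)}
      = ENNReal.ofReal (M.Esum pre.toFinset (fun c => (labelMeasure E (S c)).toReal)) := by
  classical
  induction pre using List.reverseRecOn generalizing S with
  | nil =>
    simp [run, Esum_empty]
  | append_singleton pre g ih =>
    have hnd := List.nodup_append.mp hpre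
    have hpre' : pre.Nodup := hnd.1
    have hg : g ∉ pre := fun h => hnd.2.2 g h g (by simp) rfl
    let S' : St E → Set (E → I) := fun c =>
      {v | v g ∈ {u : I | (u : ℝ) < M.a c g} ∧ v ∈ S (add c g true)} ∪
        {v | v g ∈ {u : I | ¬ (u : ℝ) < M.a c g} ∧ v ∈ S (add c g false)}
    have hS'eq : ∀ (v : E → I) (c : St E), v ∈ S' c ↔ v ∈ S (M.step v c g) := by
      intro v c
      simp only [S', Set.mem_union, Set.mem_ofPred_eq, step_eq_add]
      by_cases h : ((v g : I) : ℝ) < M.a c g <;> simp [h]
    have hS'm : ∀ c, MeasurableSet (S' c) := by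
      intro c
      refine MeasurableSet.union ?_ ?_
      · exact measurableSet_coord_and g (measurableSet_lt_I _) (hSm _)
      · exact measurableSet_coord_and g (measurableSet_not_lt_I _) (hSm _)
    have hS'u : ∀ c, ∀ e ∈ pre, ∀ (v : E → I) (u : I), Function.update v e u ∈ S' c ↔ v ∈ S' c := by
      intro c e he v u
      have hne : g ≠ e := fun h => hg (h ▸ he)
      have hval : Function.update v e u g = v g := Function.update_of_ne hne _ _
      simp only [S', Set.mem_union, Set.mem_ofPred_eq, hval]
      have h1 := hSu (add c g true) e (by simp [he]) v u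
      have h0 := hSu (add c g false) e (by simp [he]) v u
      rw [h1, h0]
    have hrun : ∀ v : E → I, M.run v (∅, ∅) (pre ++ [g]) = M.step v (M.run v (∅, ∅) pre) g := by
      intro v
      simp [run, List.foldl_append]
    have hset : {v : E → I | v ∈ S (M.run v (∅, ∅) (pre ++ [g]))}
        = {v | v ∈ S' (M.run v (∅, ∅) pre)} := by
      ext v
      simp only [Set.mem_ofPred_eq, hrun, hS'eq]
    rw [hset, ih hpre' S' hS'm hS'u]
    congr 1
    have hfin : (pre ++ [g]).toFinset = insert g pre.toFinset := by
      ext x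
      simp
    rw [hfin, M.Esum_insert _ _ (by simpa using hg)]
    apply congrArg
    funext c
    have hS'c : labelMeasure E (S' c) = ENNReal.ofReal (M.a c g) * labelMeasure E (S (add c g true))
        + ENNReal.ofReal (1 - M.a c g) * labelMeasure E (S (add c g false)) := by
      simp only [S']
      have hd : Disjoint {v : E → I | v g ∈ {u : I | (u : ℝ) < M.a c g} ∧ v ∈ S (add c g true)}
          {v : E → I | v g ∈ {u : I | ¬ (u : ℝ) < M.a c g} ∧ v ∈ S (add c g false)} := by
        rw [Set.disjoint_left]
        rintro v ⟨h1, _⟩ ⟨h2, _⟩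
        exact h2 h1
      have h1 := hSu (add c g true) g (by simp)
      have h0 := hSu (add c g false) g (by simp)
      rw [measure_union hd (measurableSet_coord_and g (measurableSet_not_lt_I _) (hSm _)),
        measure_coord_inter g (measurableSet_lt_I _) (hSm _) h1,
        measure_coord_inter g (measurableSet_not_lt_I _) (hSm _) h0,
        volume_lt _ (M.a_nonneg c g) (M.a_le_one c g),
        volume_not_lt _ (M.a_nonneg c g) (M.a_le_one c g)]
    rw [hS'c, ENNReal.toReal_add (ENNReal.mul_ne_top ENNReal.ofReal_ne_top (measure_ne_top _ _))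
      (ENNReal.mul_ne_top ENNReal.ofReal_ne_top (measure_ne_top _ _)), ENNReal.toReal_mul,
      ENNReal.toReal_mul, ENNReal.toReal_ofReal (M.a_nonneg c g),
      ENNReal.toReal_ofReal (sub_nonneg.2 (M.a_le_one c g))]

/-- **Deferring one site along the common prefix.** -/
theorem measure_defer (o f : E) (pre B : List E) (hpre : pre.Nodup) (hB : B.Nodup)
    (hpf : f ∉ pre) (hpo : o ∉ pre) (hfB : f ∉ B) (hoB : o ∉ B) (hfo : f ≠ o)
    (hpB : ∀ e ∈ pre, e ∉ B) :
    labelMeasure E {v | M.dec v (∅, ∅) (pre ++ f :: B) o ≠ M.dec v (∅, ∅) (pre ++ B) o}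
      = ENNReal.ofReal (M.Esum pre.toFinset (fun c => M.W o f c B)) := by
  have hset : {v : E → I | M.dec v (∅, ∅) (pre ++ f :: B) o ≠ M.dec v (∅, ∅) (pre ++ B) o}
      = {v | v ∈ M.Sdef o f B (M.run v (∅, ∅) pre)} := by
    ext v
    simp only [Set.mem_ofPred_eq, Sdef, dec, run_append, run_cons]
  have hU : ∀ c, ∀ e ∈ pre, ∀ (v : E → I) (u : I),
      Function.update v e u ∈ M.Sdef o f B c ↔ v ∈ M.Sdef o f B c := by
    intro c e he v u
    have hef : f ≠ e := fun h => hpf (h ▸ he)
    have heo : o ≠ e := fun h => hpo (h ▸ he)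
    have hvf : Function.update v e u f = v f := Function.update_of_ne hef _ _
    have hdec : ∀ c' : St E, M.dec (Function.update v e u) c' B o = M.dec v c' B o := by
      intro c'
      apply M.dec_congr
      · intro e' he'
        have : e' ≠ e := fun h => hpB e he (h ▸ he')
        exact Function.update_of_ne this _ _
      · exact Function.update_of_ne heo _ _
    have hstep : M.step (Function.update v e u) c f = M.step v c f := by
      unfold step
      rw [hvf]
    simp only [Sdef, Set.mem_ofPred_eq, hstep, hdec]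
  rw [hset, M.measure_pre pre hpre _ (M.measurableSet_Sdef o f B) hU]
  congr 1
  apply congrArg
  funext c
  rw [M.measure_Sdef o f B hB hoB hfB hfo c, ENNReal.toReal_ofReal (M.W_nonneg _ _ _ _)]


end Meas

section Lists

open Classical

/-- sites of `Z` below `f` -/
noncomputable def preS (t : E → I) (Z : Finset E) (f : E) : Finset E :=
  Z.filter (fun e => (t e : ℝ) < t f)

/-- sites of `Z` between `f` and `o` -/
noncomputable def midS (t : E → I) (Z : Finset E) (f o : E) : Finset E :=
  Z.filter (fun e => (t f : ℝ) < t e ∧ (t e : ℝ) < t o)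

lemma mem_preS (t : E → I) (Z : Finset E) (f a : E) : a ∈ preS t Z f ↔ a ∈ Z ∧ (t a : ℝ) < t f := by
  simp [preS]

lemma mem_midS (t : E → I) (Z : Finset E) (f o a : E) :
    a ∈ midS t Z f o ↔ a ∈ Z ∧ (t f : ℝ) < t a ∧ (t a : ℝ) < t o := by
  simp [midS]

/-- Splitting `below` at a site `f`. -/
lemma below_split {t : E → I} {Z : Finset E} {f o : E} (ht : Set.InjOn t (insert f Z : Finset E))
    (hfZ : f ∉ Z) (hoZ : o ∉ Z) (hfo : f ≠ o) (hlt : (t f : ℝ) < t o) :
    below t Z o = sortedL t (preS t Z f) ++ sortedL t (midS t Z f o) ∧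
    below t (insert f Z) o = sortedL t (preS t Z f) ++ f :: sortedL t (midS t Z f o) := by
  have hZ : Set.InjOn t (Z : Set E) := ht.mono (by simp)
  have hpw1 := sortedL_pairwise t (preS t Z f)
  have hpw2 := sortedL_pairwise t (midS t Z f o)
  have hnd1 := sortedL_nodup_cb t (preS t Z f)
  have hnd2 := sortedL_nodup_cb t (midS t Z f o)
  have hm1 : ∀ a, a ∈ sortedL t (preS t Z f) ↔ a ∈ Z ∧ (t a : ℝ) < t f := fun a => by
    rw [mem_sortedL_cb, mem_preS]
  have hm2 : ∀ a, a ∈ sortedL t (midS t Z f o) ↔ a ∈ Z ∧ (t f : ℝ) < t a ∧ (t a : ℝ) < t o := fun a => by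
    rw [mem_sortedL_cb, mem_midS]
  constructor
  · symm
    apply eq_below hZ
    · intro a
      rw [List.mem_append, hm1, hm2]
      constructor
      · rintro (⟨h1, h2⟩ | ⟨h1, _, h3⟩)
        · exact ⟨fun h => hoZ (h ▸ h1), h1, h2.trans hlt⟩
        · exact ⟨fun h => hoZ (h ▸ h1), h1, h3⟩
      · rintro ⟨_, h2, h3⟩
        rcases lt_trichotomy (t a : ℝ) (t f) with h | h | h
        · exact Or.inl ⟨h2, h⟩
        · exfalso
          have : a = f := ht (by simp [h2]) (by simp) (Subtype.ext h)
          exact hfZ (this ▸ h2)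
        · exact Or.inr ⟨h2, h, h3⟩
    · rw [List.nodup_append]
      refine ⟨hnd1, hnd2, ?_⟩
      intro a ha b hb hab
      rw [hm1] at ha
      rw [hm2] at hb
      subst hab
      exact absurd ha.2 (not_lt.mpr hb.2.1.le)
    · rw [List.pairwise_append]
      refine ⟨hpw1, hpw2, ?_⟩
      intro a ha b hb
      rw [hm1] at ha
      rw [hm2] at hb
      exact (ha.2.trans hb.2.1).le
  · symm
    apply eq_below ht
    · intro a
      rw [List.mem_append, List.mem_cons, hm1, hm2]
      constructor
      · rintro (⟨h1, h2⟩ | rfl | ⟨h1, _, h3⟩)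
        · exact ⟨fun h => hoZ (h ▸ h1), by simp [h1], h2.trans hlt⟩
        · exact ⟨hfo, by simp, hlt⟩
        · exact ⟨fun h => hoZ (h ▸ h1), by simp [h1], h3⟩
      · rintro ⟨_, h2, h3⟩
        rw [Finset.mem_insert] at h2
        rcases h2 with rfl | h2
        · exact Or.inr (Or.inl rfl)
        · rcases lt_trichotomy (t a : ℝ) (t f) with h | h | h
          · exact Or.inl ⟨h2, h⟩
          · exfalso
            have : a = f := ht (by simp [h2]) (by simp) (Subtype.ext h)
            exact hfZ (this ▸ h2)
          · exact Or.inr (Or.inr ⟨h2, h, h3⟩)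
    · rw [List.nodup_append]
      refine ⟨hnd1, List.nodup_cons.mpr ⟨?_, hnd2⟩, ?_⟩
      · intro h
        rw [hm2] at h
        exact absurd h.2.1 (lt_irrefl _)
      · intro a ha b hb hab
        rw [hm1] at ha
        subst hab
        rw [List.mem_cons] at hb
        rcases hb with rfl | hb
        · exact absurd ha.2 (lt_irrefl _)
        · rw [hm2] at hb
          exact absurd ha.2 (not_lt.mpr hb.2.1.le)
    · rw [List.pairwise_append]
      refine ⟨hpw1, List.pairwise_cons.mpr ⟨?_, hpw2⟩, ?_⟩
      · intro b hb
        rw [hm2] at hb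
        exact hb.2.1.le
      · intro a ha b hb
        rw [hm1] at ha
        rw [List.mem_cons] at hb
        rcases hb with rfl | hb
        · exact ha.2.le
        · rw [hm2] at hb
          exact (ha.2.trans hb.2.1).le

variable [Countable E]

/-- The effect of adding one site to the finite set, for fixed labels. -/
theorem measure_add_site {t : E → I} {Z : Finset E} {f o : E} (ht : Set.InjOn t (insert f Z : Finset E))
    (hfZ : f ∉ Z) (hoZ : o ∉ Z) (hfo : f ≠ o) (hlt : (t f : ℝ) < t o) :
    labelMeasure E {v | M.out t v Z o ≠ M.out t v (insert f Z) o}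
      = ENNReal.ofReal (M.Esum (preS t Z f) (fun c => M.W o f c (sortedL t (midS t Z f o)))) := by
  obtain ⟨h1, h2⟩ := below_split ht hfZ hoZ hfo hlt
  have hset : {v : E → I | M.out t v Z o ≠ M.out t v (insert f Z) o}
      = {v | M.dec v (∅, ∅) (sortedL t (preS t Z f) ++ f :: sortedL t (midS t Z f o)) o
          ≠ M.dec v (∅, ∅) (sortedL t (preS t Z f) ++ sortedL t (midS t Z f o)) o} := by
    ext v
    simp only [Set.mem_ofPred_eq, out_eq_dec, h1, h2]
    exact ne_comm
  have hfin : (sortedL t (preS t Z f)).toFinset = preS t Z f := by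
    ext x
    rw [List.mem_toFinset, mem_sortedL_cb]
  rw [hset, M.measure_defer o f _ _ (sortedL_nodup_cb _ _) (sortedL_nodup_cb _ _), hfin]
  · intro h
    rw [mem_sortedL_cb, mem_preS] at h
    exact absurd h.2 (lt_irrefl _)
  · intro h
    rw [mem_sortedL_cb, mem_preS] at h
    exact hoZ h.1
  · intro h
    rw [mem_sortedL_cb, mem_midS] at h
    exact absurd h.2.1 (lt_irrefl _)
  · intro h
    rw [mem_sortedL_cb, mem_midS] at h
    exact hoZ h.1
  · exact hfo
  · intro e he he2
    rw [mem_sortedL_cb, mem_preS] at he
    rw [mem_sortedL_cb, mem_midS] at he2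
    exact absurd he.2 (not_lt.mpr he2.2.1.le)

/-- **Telescoping bound** for fixed labels `t`, injective on `Y ∪ {o}`: replacing `F` by a larger
`Y` changes the output at `o` with probability at most the sum of the deferral functionals of the
extra sites below `o`. -/
theorem telescope_bound {F Y : Finset E} (hFY : F ⊆ Y) {o : E} (ho : o ∉ Y) {t : E → I}
    (ht : Set.InjOn t (insert o Y : Finset E)) :
    labelMeasure E {v | M.out t v F o ≠ M.out t v Y o} ≤
      ∑ f ∈ (Y \ F).filter (fun e => (t e : ℝ) < t o),
        ENNReal.ofReal (M.Esum ((Y.erase f).filter (fun e => (t e : ℝ) < t f))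
          (fun c => M.W o f c (sortedL t (midS t F f o)))) := by
  set X := (Y \ F).filter (fun e => (t e : ℝ) < t o) with hX
  have hXm : ∀ a, a ∈ X ↔ (a ∈ Y ∧ a ∉ F) ∧ (t a : ℝ) < t o := by
    intro a
    simp [hX]
  set L := sortedL t X with hL
  have hLm : ∀ a, a ∈ L ↔ a ∈ X := fun a => mem_sortedL_cb t X a
  have hLnd : L.Nodup := sortedL_nodup_cb t X
  have hLpw : L.Pairwise (leRel t) := sortedL_pairwise t X
  have hY : Set.InjOn t (Y : Set E) := ht.mono (by simp)
  set Term : E → ℝ≥0∞ := fun f => ENNReal.ofReal (M.Esum ((Y.erase f).filter (fun e => (t e : ℝ) < t f))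
          (fun c => M.W o f c (sortedL t (midS t F f o)))) with hTerm
  have key : ∀ l r : List E, L = l ++ r →
      labelMeasure E {v | M.out t v F o ≠ M.out t v (F ∪ l.toFinset) o} ≤ ∑ f ∈ l.toFinset, Term f := by
    intro l
    induction l using List.reverseRecOn with
    | nil =>
      intro r _
      simp
    | append_singleton l' f ih =>
      intro r hr
      have hr' : L = l' ++ f :: r := by simpa using hr
      have hfL : f ∈ L := by rw [hr']; simp
      have hfX := (hLm f).mp hfL
      obtain ⟨⟨hfY, hfF⟩, hfo⟩ := (hXm f).mp hfX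
      have hsub : ∀ a ∈ l', a ∈ X := fun a ha => (hLm a).mp (by rw [hr']; simp [ha])
      have hndL : (l' ++ f :: r).Nodup := hr' ▸ hLnd
      have hfl' : f ∉ l' := fun h => (List.nodup_append.mp hndL).2.2 f h f (by simp) rfl
      have hpwL : (l' ++ f :: r).Pairwise (leRel t) := hr' ▸ hLpw
      rw [List.pairwise_append] at hpwL
      have hbefore : ∀ a ∈ l', (t a : ℝ) < t f := by
        intro a ha
        have h1 : leRel t a f := hpwL.2.2 a ha f (by simp)
        refine lt_of_le_of_ne h1 ?_
        intro heq
        have haY := ((hXm a).mp (hsub a ha)).1.1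
        exact hfl' ((hY (by exact_mod_cast haY) (by exact_mod_cast hfY) (Subtype.ext heq)) ▸ ha)
      have hafter : ∀ a ∈ r, (t f : ℝ) ≤ t a := by
        intro a ha
        exact (List.pairwise_cons.mp hpwL.2.1).1 a ha
      set Z := F ∪ l'.toFinset with hZ
      have hfZ : f ∉ Z := by
        simp only [hZ, Finset.mem_union, List.mem_toFinset, not_or]
        exact ⟨hfF, hfl'⟩
      have hZY : Z ⊆ Y := by
        intro a ha
        rw [hZ, Finset.mem_union, List.mem_toFinset] at ha
        rcases ha with ha | ha
        · exact hFY ha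
        · exact ((hXm a).mp (hsub a ha)).1.1
      have hoZ : o ∉ Z := fun h => ho (hZY h)
      have hfne : f ≠ o := fun h => ho (h ▸ hfY)
      have hinjZ : Set.InjOn t (insert f Z : Finset E) := by
        apply ht.mono
        intro a ha
        simp only [Finset.coe_insert, Set.mem_insert_iff, Finset.mem_coe] at ha ⊢
        rcases ha with rfl | ha
        · exact Or.inr hfY
        · exact Or.inr (hZY ha)
      have hZins : F ∪ (l' ++ [f]).toFinset = insert f Z := by
        ext a
        simp only [hZ, Finset.mem_union, Finset.mem_insert, List.mem_toFinset, List.mem_append,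
          List.mem_singleton]
        tauto
      have hpre : preS t Z f = (Y.erase f).filter (fun e => (t e : ℝ) < t f) := by
        ext a
        simp only [mem_preS, Finset.mem_filter, Finset.mem_erase]
        constructor
        · rintro ⟨h1, h2⟩
          exact ⟨⟨fun h => absurd (h ▸ h2) (lt_irrefl _), hZY h1⟩, h2⟩
        · rintro ⟨⟨h1, h2⟩, h3⟩
          refine ⟨?_, h3⟩
          by_cases haF : a ∈ F
          · simp [hZ, haF]
          · have haX : a ∈ X := (hXm a).mpr ⟨⟨h2, haF⟩, h3.trans hfo⟩
            have := (hLm a).mpr haX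
            rw [hr', List.mem_append, List.mem_cons] at this
            rcases this with h | h | h
            · simp [hZ, h]
            · exact absurd h h1
            · exact absurd h3 (not_lt.mpr (hafter a h))
      have hmid : midS t Z f o = midS t F f o := by
        ext a
        simp only [mem_midS, hZ, Finset.mem_union, List.mem_toFinset]
        constructor
        · rintro ⟨h1 | h1, h2, h3⟩
          · exact ⟨h1, h2, h3⟩
          · exact absurd h2 (not_lt.mpr (hbefore a h1).le)
        · rintro ⟨h1, h2, h3⟩
          exact ⟨Or.inl h1, h2, h3⟩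
      have hstep := M.measure_add_site hinjZ hfZ hoZ hfne hfo
      rw [hpre, hmid] at hstep
      have hsum : ∑ e ∈ (l' ++ [f]).toFinset, Term e = Term f + ∑ e ∈ l'.toFinset, Term e := by
        have : (l' ++ [f]).toFinset = insert f l'.toFinset := by
          ext a
          simp only [Finset.mem_insert, List.mem_toFinset, List.mem_append, List.mem_singleton]
          tauto
        rw [this, Finset.sum_insert (by simpa using hfl')]
      rw [hZins, hsum]
      have hincl : {v : E → I | M.out t v F o ≠ M.out t v (insert f Z) o} ⊆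
          {v | M.out t v F o ≠ M.out t v Z o} ∪ {v | M.out t v Z o ≠ M.out t v (insert f Z) o} := by
        intro v hv
        simp only [Set.mem_ofPred_eq, Set.mem_union] at hv ⊢
        by_contra hcon
        push Not at hcon
        exact hv (hcon.1.trans hcon.2)
      calc labelMeasure E {v | M.out t v F o ≠ M.out t v (insert f Z) o}
          ≤ labelMeasure E ({v | M.out t v F o ≠ M.out t v Z o} ∪ {v | M.out t v Z o ≠ M.out t v (insert f Z) o}) :=
            measure_mono hincl
        _ ≤ labelMeasure E {v | M.out t v F o ≠ M.out t v Z o} + labelMeasure E {v | M.out t v Z o ≠ M.out t v (insert f Z) o} :=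
            measure_union_le _ _
        _ ≤ Term f + ∑ e ∈ l'.toFinset, Term e := by
            rw [_root_.add_comm, hstep]
            gcongr
            exact ih (f :: r) hr'
  have hfinal := key L [] (by simp)
  have hLfin : L.toFinset = X := by
    ext a
    rw [List.mem_toFinset, hLm]
  rw [hLfin] at hfinal
  have hbelow : below t (F ∪ X) o = below t Y o := by
    symm
    apply eq_below
    · apply hY.mono
      intro a ha
      simp only [Finset.coe_union, Set.mem_union, Finset.mem_coe] at ha
      rcases ha with ha | ha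
      · exact hFY ha
      · exact ((hXm a).mp ha).1.1
    · intro a
      rw [mem_below]
      simp only [Finset.mem_union]
      constructor
      · rintro ⟨h1, h2, h3⟩
        refine ⟨h1, ?_, h3⟩
        by_cases haF : a ∈ F
        · exact Or.inl haF
        · exact Or.inr ((hXm a).mpr ⟨⟨h2, haF⟩, h3⟩)
      · rintro ⟨h1, h2 | h2, h3⟩
        · exact ⟨h1, hFY h2, h3⟩
        · exact ⟨h1, ((hXm a).mp h2).1.1, h3⟩
    · exact below_nodup _ _ _
    · exact below_pairwise _ _ _
  have hout : ∀ v, M.out t v (F ∪ X) o = M.out t v Y o := by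
    intro v
    rw [out_eq_dec, out_eq_dec, hbelow]
  simp only [hout] at hfinal
  exact hfinal


/-- Integrated form of the telescoping bound over the order labels `t`. -/
theorem muL_telescope_bound {F Y : Finset E} (hFY : F ⊆ Y) {o : E} (ho : o ∉ Y) :
    muL E {x | M.out x.1 x.2 F o ≠ M.out x.1 x.2 Y o} ≤
      ∫⁻ t, ∑ f ∈ (Y \ F).filter (fun e => (t e : ℝ) < t o),
        ENNReal.ofReal (M.Esum ((Y.erase f).filter (fun e => (t e : ℝ) < t f))
          (fun c => M.W o f c (sortedL t (midS t F f o)))) ∂(labelMeasure E) := by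
  have hout : ∀ Z : Finset E, Measurable (fun x : (E → I) × (E → I) => M.out x.1 x.2 Z o) := fun Z =>
    MassSys.measurable_out_param' (fun _ => M) (fun _ _ => measurable_const) _ _
      (fun e => (measurable_pi_apply e).comp measurable_fst)
      (fun e => (measurable_pi_apply e).comp measurable_snd) Z o
  have hSm : MeasurableSet {x : (E → I) × (E → I) | M.out x.1 x.2 F o ≠ M.out x.1 x.2 Y o} :=
    (measurableSet_eq_fun (hout F) (hout Y)).compl
  unfold muL
  rw [Measure.prod_apply hSm]
  apply lintegral_mono_ae
  filter_upwards [ae_injective (V := E)] with t ht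
  exact M.telescope_bound hFY ho ht.injOn

/-- The output only depends on `F` through `F.erase o`. -/
lemma out_erase (t v : E → I) (F : Finset E) (o : E) : M.out t v (F.erase o) o = M.out t v F o := by
  have : below t (F.erase o) o = below t F o := by
    have h : (F.erase o).erase o = F.erase o := Finset.erase_eq_of_notMem (Finset.notMem_erase o F)
    simp only [below, h]
  rw [out_eq_dec, out_eq_dec, this]

end Lists

end MassSys

end Crest.Agent.SRC
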