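import Crest.Agent.Lib.SRC.Gron2
import Crest.Agent.Lib.SRC.Telescope

/-!
The main theorem `net_cauchy`: outputs are Cauchy in probability along the net of finite sets.
-/

open MeasureTheory Set
open scoped Classical

namespace Crest.Agent.SRC
open Crest.ProbabilityR.Labels
namespace MassSys

variable {E : Type*} [DecidableEq E] [Countable E] (M : MassSys E) (o : E)

/-- Identification of a telescope term with `Phi`. -/
lemma telescope_term_eq {F Y : Finset E} (hF : F ⊆ Y) {t : E → unitInterval} (ht : Function.Injective t)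
    {f : E} (hf : f ∉ F) :
    M.Esum ((Y.erase f).filter (fun e => (t e : ℝ) < t f))
        (fun c => M.W o f c (sortedL t (midS t F f o))) =
      M.Phi o ((Y \ F).erase f) (F.erase f) (t f) (t f) (t o) t f := by
  unfold Phi
  have e1 : (Y.erase f).filter (fun e => (t e : ℝ) < t f) =
      dm ((Y \ F).erase f) (F.erase f) (t f) (t f) t := by
    ext e
    simp only [dm, Finset.mem_union, Finset.mem_filter, Finset.mem_erase, Finset.mem_sdiff]
    constructor
    · rintro ⟨⟨h1, h2⟩, h3⟩
      have h3' : t e < t f := h3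
      by_cases he : e ∈ F
      · exact Or.inr ⟨⟨h1, he⟩, h3'⟩
      · exact Or.inl ⟨⟨h1, h2, he⟩, h3'⟩
    · rintro (⟨⟨h1, h2, _⟩, h3⟩ | ⟨⟨h1, h2⟩, h3⟩)
      · exact ⟨⟨h1, h2⟩, h3⟩
      · exact ⟨⟨h1, hF h2⟩, h3⟩
  have e2 : sortedL t (midS t F f o) = ls (F.erase f) (t f) (t o) t := by
    unfold ls
    congr 1
    ext e
    rw [mem_midS]
    simp only [Finset.mem_filter, Finset.mem_erase]
    constructor
    · rintro ⟨h1, h2, h3⟩
      exact ⟨⟨fun h => hf (h ▸ h1), h1⟩, le_of_lt h2, h3⟩
    · rintro ⟨⟨h1, h2⟩, h3, h4⟩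
      have : t f ≠ t e := fun h => h1 (ht h).symm
      exact ⟨h2, lt_of_le_of_ne h3 (fun h => this (Subtype.ext h)), h4⟩
  rw [e1, e2]

/-- measurability of the integrand in `(s, t)`. -/
lemma measurable_Phi_ss (A B : Finset E) (T : unitInterval) (g : E) :
    Measurable (fun p : unitInterval × (E → unitInterval) =>
        ENNReal.ofReal (M.Phi o A B p.1 p.1 T p.2 g)) :=
  M.measurable_Phi o A B (Ω := unitInterval × (E → unitInterval))
    (s := fun p => p.1) (r := fun p => p.1) (T := fun _ => T)
    (t := fun p => p.2) measurable_fst measurable_fst measurable_const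
    (fun e => (measurable_pi_apply e).comp measurable_snd) g

lemma measurable_Th_ss (Y F : Finset E) (T : unitInterval) (g : E) :
    Measurable (fun s => M.Th o Y F s T g s) :=
  (M.measurable_Phi_ss o _ _ T g).lintegral_prod_right'

/-- At a fixed time `T` the telescope integrand is small. -/
lemma telescope_fixed_T {T0 : unitInterval} {G : Finset E} {δ : ℝ} (hδ : 0 ≤ δ)
    (hG : M.Good o T0 (Lc T0) G δ) (hT0 : T0 < 1) {F Y : Finset E} (hF : F ⊆ Y) (ho : o ∉ Y)
    (hFG : Y \ F ⊆ Y \ G) {T : unitInterval} (hT : T ≤ T0) :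
    ∫⁻ t, ∑ f ∈ Y \ F, (Iio T).indicator (fun _ => (1 : ENNReal)) (t f) *
        ENNReal.ofReal (M.Phi o ((Y \ F).erase f) (F.erase f) (t f) (t f) T t f) ∂(labelMeasure E) ≤
      ENNReal.ofReal (δ * Real.exp (2 * Lc T0)) := by
  have hIio : MeasurableSet (Iio T) := measurableSet_Iio
  have hm : ∀ f ∈ Y \ F, Measurable (fun t : E → unitInterval =>
      (Iio T).indicator (fun _ => (1 : ENNReal)) (t f) *
        ENNReal.ofReal (M.Phi o ((Y \ F).erase f) (F.erase f) (t f) (t f) T t f)) := by
    intro f _
    refine ((measurable_const.indicator hIio).comp (measurable_pi_apply f)).mul ?_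
    exact M.measurable_Phi o _ _ (Ω := E → unitInterval) (s := fun t => t f) (r := fun t => t f)
      (T := fun _ => T) (t := fun t => t) (measurable_pi_apply f) (measurable_pi_apply f)
      measurable_const (fun e => measurable_pi_apply e) f
  rw [lintegral_finsetSum _ hm]
  have e1 : ∀ f ∈ Y \ F, ∫⁻ t, (Iio T).indicator (fun _ => (1 : ENNReal)) (t f) *
        ENNReal.ofReal (M.Phi o ((Y \ F).erase f) (F.erase f) (t f) (t f) T t f) ∂(labelMeasure E) =
      ∫⁻ s, (Iio T).indicator (fun _ => (1 : ENNReal)) s * M.Th o Y F s T f s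
        ∂(volume : Measure unitInterval) := by
    intro f hf
    have := lintegral_coord_param (E := E) f
      (G := fun s t => (Iio T).indicator (fun _ => (1 : ENNReal)) s *
        ENNReal.ofReal (M.Phi o ((Y \ F).erase f) (F.erase f) s s T t f)) ?_ ?_
    · rw [this]
      congr 1
      funext s
      exact lintegral_const_mul _ (M.measurable_Phi_t o _ _ s s T f)
    · exact ((measurable_const.indicator hIio).comp measurable_fst).mul (M.measurable_Phi_ss o _ _ T f)
    · intro s t y
      congr 2
      apply M.Phi_congr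
      rintro e (he | he)
      · exact Function.update_of_ne (Finset.ne_of_mem_erase he) _ _
      · exact Function.update_of_ne (Finset.ne_of_mem_erase he) _ _
  rw [Finset.sum_congr rfl e1]
  have hm2 : ∀ f ∈ Y \ F, Measurable (fun s : unitInterval =>
      (Iio T).indicator (fun _ => (1 : ENNReal)) s * M.Th o Y F s T f s) := fun f _ =>
    (measurable_const.indicator hIio).mul (M.measurable_Th_ss o Y F T f)
  rw [← lintegral_finsetSum _ hm2]
  refine (lintegral_mono (g := fun _ => ENNReal.ofReal (δ * Real.exp (2 * Lc T0))) ?_).trans_eq (by simp)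
  intro s
  show ∑ f ∈ Y \ F, (Iio T).indicator (fun _ => (1 : ENNReal)) s * M.Th o Y F s T f s ≤ _
  rw [← Finset.mul_sum]
  by_cases hs : s ∈ Iio T
  · simp only [hs, Set.indicator_of_mem, one_mul]
    have hs' : s < T := hs
    have h1 := hG Y F s T hF ho (hs'.le.trans hT) hT s hs'.le
    refine (Finset.sum_le_sum_of_subset hFG).trans (h1.trans ?_)
    apply ENNReal.ofReal_le_ofReal
    apply mul_le_mul_of_nonneg_left _ hδ
    apply Real.exp_le_exp.2
    have hL := Lc_pos hT0
    have hTle : (T : ℝ) ≤ 1 := T.2.2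
    have hs0 : (0 : ℝ) ≤ s := s.2.1
    nlinarith
  · simp [hs]

/-- Core inequality. -/
lemma core_bound {T0 : unitInterval} (hT0 : T0 < 1) {G : Finset E} {δ : ℝ} (hδ : 0 ≤ δ)
    (hG : M.Good o T0 (Lc T0) G δ) {F Y : Finset E} (hF : F ⊆ Y) (ho : o ∉ Y)
    (hFG : Y \ F ⊆ Y \ G) :
    muL E {x | M.out x.1 x.2 F o ≠ M.out x.1 x.2 Y o} ≤
      volume (Ioi T0) + ENNReal.ofReal (δ * Real.exp (2 * Lc T0)) := by
  have hout : ∀ Z : Finset E, Measurable (fun x : (E → unitInterval) × (E → unitInterval) =>
      M.out x.1 x.2 Z o) := fun Z =>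
    MassSys.measurable_out_param' (fun _ => M) (fun _ _ => measurable_const) _ _
      (fun e => (measurable_pi_apply e).comp measurable_fst)
      (fun e => (measurable_pi_apply e).comp measurable_snd) Z o
  have hSm : MeasurableSet {x : (E → unitInterval) × (E → unitInterval) |
      M.out x.1 x.2 F o ≠ M.out x.1 x.2 Y o} :=
    (measurableSet_eq_fun (hout F) (hout Y)).compl
  have hIoi : MeasurableSet (Ioi T0) := measurableSet_Ioi
  have hIic : MeasurableSet (Iic T0) := measurableSet_Iic
  -- the integrand of the telescope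
  set Gt : unitInterval → (E → unitInterval) → ENNReal := fun T t =>
    (Iic T0).indicator (fun _ => (1 : ENNReal)) T * ∑ f ∈ Y \ F, (Iio T).indicator (fun _ => (1 : ENNReal)) (t f) *
        ENNReal.ofReal (M.Phi o ((Y \ F).erase f) (F.erase f) (t f) (t f) T t f) with hGt
  have hGm : Measurable (fun p : unitInterval × (E → unitInterval) => Gt p.1 p.2) := by
    refine ((measurable_const.indicator hIic).comp measurable_fst).mul ?_
    refine Finset.measurable_sum _ fun f _ => ?_
    refine Measurable.mul ?_ ?_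
    · have : MeasurableSet {p : unitInterval × (E → unitInterval) | p.2 f < p.1} :=
        measurableSet_lt ((measurable_pi_apply f).comp measurable_snd) measurable_fst
      exact (measurable_const.indicator this)
    · exact M.measurable_Phi o _ _ (Ω := unitInterval × (E → unitInterval)) (s := fun p => p.2 f)
        (r := fun p => p.2 f) (T := fun p => p.1) (t := fun p => p.2)
        ((measurable_pi_apply f).comp measurable_snd) ((measurable_pi_apply f).comp measurable_snd)
        measurable_fst (fun e => (measurable_pi_apply e).comp measurable_snd) f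
  have hpt : ∀ᵐ t ∂(labelMeasure E), labelMeasure E {v | M.out t v F o ≠ M.out t v Y o} ≤
      (Ioi T0).indicator (fun _ => (1 : ENNReal)) (t o) + Gt (t o) t := by
    filter_upwards [ae_injective (E := E)] with t ht
    by_cases hto : t o ∈ Ioi T0
    · simp only [hto, Set.indicator_of_mem]
      exact prob_le_one.trans le_self_add
    · have hto' : t o ∈ Iic T0 := Set.mem_Iic.2 (not_lt.1 (fun h => hto (Set.mem_Ioi.2 h)))
      simp only [hto, Set.indicator_of_notMem, not_false_eq_true, zero_add, hGt, hto',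
        Set.indicator_of_mem, one_mul]
      refine (M.telescope_bound hF ho ht.injOn).trans ?_
      rw [Finset.sum_filter]
      apply Finset.sum_le_sum
      intro f hf
      have hfF : f ∉ F := (Finset.mem_sdiff.1 hf).2
      by_cases hlt : (t f : ℝ) < t o
      · have hlt' : t f ∈ Iio (t o) := hlt
        simp only [hlt, if_true, hlt', Set.indicator_of_mem, one_mul]
        rw [M.telescope_term_eq o hF ht hfF]
      · simp [hlt]
  unfold muL
  rw [Measure.prod_apply hSm]
  refine (lintegral_mono_ae hpt).trans ?_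
  have hm1 : Measurable (fun t : E → unitInterval => (Ioi T0).indicator (fun _ => (1 : ENNReal)) (t o)) :=
    (measurable_const.indicator hIoi).comp (measurable_pi_apply o)
  rw [lintegral_add_left hm1]
  apply add_le_add
  · have := lintegral_label_trick (E := E) o (f := fun _ => 1) measurable_const (fun _ _ => rfl) (Ioi T0) hIoi
    simp only [mul_one, lintegral_const, measure_univ] at this
    exact le_of_eq this
  · have hparam := lintegral_coord_param (E := E) o (G := Gt) hGm ?_
    · rw [hparam]
      refine (lintegral_mono (g := fun _ => ENNReal.ofReal (δ * Real.exp (2 * Lc T0))) ?_).trans_eq (by simp)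
      intro T
      show ∫⁻ t, Gt T t ∂(labelMeasure E) ≤ _
      by_cases hT : T ∈ Iic T0
      · simp only [hGt, hT, Set.indicator_of_mem, one_mul]
        exact M.telescope_fixed_T o hδ hG hT0 hF ho hFG hT
      · simp [hGt, hT]
    · intro T t y
      simp only [hGt]
      congr 1
      apply Finset.sum_congr rfl
      intro f hf
      have hfY : f ∈ Y := (Finset.mem_sdiff.1 hf).1
      have hfo : f ≠ o := ne_of_mem_of_not_mem hfY ho
      rw [Function.update_of_ne hfo]
      congr 2
      apply M.Phi_congr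
      rintro e (he | he)
      · have : e ∈ Y := (Finset.mem_sdiff.1 (Finset.mem_of_mem_erase he)).1
        exact Function.update_of_ne (ne_of_mem_of_not_mem this ho) _ _
      · have : e ∈ Y := hF (Finset.mem_of_mem_erase he)
        exact Function.update_of_ne (ne_of_mem_of_not_mem this ho) _ _

/-- Main theorem: the outputs are Cauchy in probability along the net of finite sets. -/
theorem net_cauchy (hNC : M.NC) (hROW : M.ROW) (o : E) {δ : ℝ} (hδ : 0 < δ) :
    ∃ F0 : Finset E, ∀ F Y : Finset E, F0 ⊆ F → F0 ⊆ Y →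
      muL E {x | M.out x.1 x.2 F o ≠ M.out x.1 x.2 Y o} ≤ ENNReal.ofReal δ := by
  -- choose the threshold
  set δ0 : ℝ := min δ 1 / 8 with hδ0
  have hδ0pos : 0 < δ0 := by positivity
  have hδ0le : δ0 ≤ 1 / 8 := by
    have : min δ 1 ≤ 1 := min_le_right _ _
    rw [hδ0]; linarith
  have hδ0le' : 8 * δ0 ≤ δ := by
    have : min δ 1 ≤ δ := min_le_left _ _
    rw [hδ0]; linarith
  have hmem : (1 - δ0) ∈ Set.Icc (0 : ℝ) 1 := ⟨by linarith, by linarith⟩
  set T0 : unitInterval := ⟨1 - δ0, hmem⟩ with hT0def
  have hT0coe : (T0 : ℝ) = 1 - δ0 := rfl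
  have hT0 : T0 < 1 := by
    show (T0 : ℝ) < 1
    rw [hT0coe]; linarith
  have hvol : volume (Ioi T0) = ENNReal.ofReal δ0 := by
    rw [unitInterval.volume_Ioi, hT0coe]
    congr 1
    ring
  set δ1 : ℝ := δ0 * Real.exp (-(2 * Lc T0)) with hδ1
  have hδ1pos : 0 < δ1 := mul_pos hδ0pos (Real.exp_pos _)
  have hδ1e : δ1 * Real.exp (2 * Lc T0) = δ0 := by
    rw [hδ1, mul_assoc, ← Real.exp_add]
    simp
  obtain ⟨G, hG⟩ := M.good_all o hNC hROW hT0 hδ1pos
  -- comparison for `F ⊆ Y`, `o ∉ Y`
  have hsmall : ∀ F Y : Finset E, F ⊆ Y → o ∉ Y → Y \ F ⊆ Y \ G →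
      muL E {x | M.out x.1 x.2 F o ≠ M.out x.1 x.2 Y o} ≤ ENNReal.ofReal (2 * δ0) := by
    intro F Y hF ho hFG
    refine (M.core_bound o hT0 hδ1pos.le hG hF ho hFG).trans (le_of_eq ?_)
    rw [hvol, hδ1e, ← ENNReal.ofReal_add hδ0pos.le hδ0pos.le]
    congr 1
    ring
  -- comparison with the union
  have hsmall2 : ∀ F Y : Finset E, G ⊆ F → F ⊆ Y →
      muL E {x | M.out x.1 x.2 F o ≠ M.out x.1 x.2 Y o} ≤ ENNReal.ofReal (2 * δ0) := by
    intro F Y hGF hF
    have := hsmall (F.erase o) (Y.erase o) (Finset.erase_subset_erase _ hF) (Finset.notMem_erase _ _) ?_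
    · simpa only [out_erase] using this
    · intro e he
      obtain ⟨he1, he2⟩ := Finset.mem_sdiff.1 he
      refine Finset.mem_sdiff.2 ⟨he1, fun hc => he2 ?_⟩
      exact Finset.mem_erase.2 ⟨Finset.ne_of_mem_erase he1, hGF hc⟩
  refine ⟨G, fun F Y hF hY => ?_⟩
  have h1 := hsmall2 F (F ∪ Y) hF Finset.subset_union_left
  have h2 := hsmall2 Y (F ∪ Y) hY Finset.subset_union_right
  have hsub : {x : (E → unitInterval) × (E → unitInterval) | M.out x.1 x.2 F o ≠ M.out x.1 x.2 Y o} ⊆
      {x | M.out x.1 x.2 F o ≠ M.out x.1 x.2 (F ∪ Y) o} ∪ {x | M.out x.1 x.2 Y o ≠ M.out x.1 x.2 (F ∪ Y) o} := by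
    intro x hx
    by_contra hc
    simp only [Set.mem_union, Set.mem_ofPred_eq, not_or, not_not] at hc
    exact hx (hc.1.trans hc.2.symm)
  refine (measure_mono hsub).trans ((measure_union_le _ _).trans ?_)
  refine (add_le_add h1 h2).trans ?_
  rw [← ENNReal.ofReal_add (by positivity) (by positivity)]
  apply ENNReal.ofReal_le_ofReal
  linarith

end MassSys
end Crest.Agent.SRC
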