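import Crest.Agent.Lib.SRC.GraphRule
import Crest.Agent.Lib.SRC.Net

/-!
The law of the rule of S0254 (helper7), and the statement of S0254 from `FUSFSpec`.
-/

open MeasureTheory
open scoped ENNReal
open Crest.ProbabilityR.GraphTables Crest.ProbabilityR.SpanningTrees Crest.ProbabilityR.Labels
open Crest.Agent.SRC.Split

namespace Crest.Agent.SRC.Gr

set_option linter.unusedSectionVars false
set_option linter.unusedSimpArgs false

local notation "I" => unitInterval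
local notation "μL" => labelMeasure ℕ

variable (hF : FUSFSpec)

/-- The inclusion of the edges in the pairs. -/
def eEmb (G : SimpleGraph ℕ) : G.edgeSet ↪ Sym2 ℕ := Function.Embedding.subtype _

/-- The masses on the edges. -/
noncomputable def Me (G : SimpleGraph ℕ) : MassSys G.edgeSet := (Mass hF G).comap (eEmb G)

/-- The chain on the edges driven by the vertex labels. -/
noncomputable def outE (G : SimpleGraph ℕ) (F : Finset G.edgeSet) (o : G.edgeSet) (x : ℕ → I) : Bool :=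
  (Me hF G).out (lamE G x).1 (lamE G x).2 F o

theorem exists_lift {G : SimpleGraph ℕ} (W : Finset (Sym2 ℕ))
    (hW : (↑W : Set (Sym2 ℕ)) ⊆ G.edgeSet) : ∃ W' : Finset G.edgeSet, W'.map (eEmb G) = W := by
  classical
  exact ⟨W.subtype _, Finset.subtype_map_of_mem fun x hx => hW hx⟩

theorem map_eEmb_subset (G : SimpleGraph ℕ) (W : Finset G.edgeSet) :
    (↑(W.map (eEmb G)) : Set (Sym2 ℕ)) ⊆ G.edgeSet := by
  intro e he
  obtain ⟨e', _, rfl⟩ := Finset.mem_map.1 (Finset.mem_coe.1 he)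
  exact e'.2

theorem outE_eq {G : SimpleGraph ℕ} (hg : good G) (F : Finset G.edgeSet) (o : G.edgeSet)
    {x : ℕ → I} (hx : digInj x) : outE hF G F o x = X hF G (F.map (eEmb G)) o.1 x :=
  MassSys.out_embed (Mass hF G) (Me hF G) (eEmb G) (fun _ _ => rfl) (tL G x) (vL G x) F o
    ((tL_injOn hg.2 hx).mono (map_eEmb_subset G F))

/-- The real-valued Cauchy property in extended form. -/
theorem net_cauchy_e {G : SimpleGraph ℕ} (hg : good G) (o : G.edgeSet) {δ : ℝ≥0∞} (hδ : 0 < δ) :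
    ∃ F0 : Finset G.edgeSet, ∀ F Y : Finset G.edgeSet, F0 ⊆ F → F0 ⊆ Y →
      μL {x | outE hF G F o x ≠ outE hF G Y o x} ≤ δ := by
  obtain ⟨r, hr0, hrδ⟩ := ENNReal.lt_iff_exists_nnreal_btwn.1 hδ
  have hr0' : (0 : ℝ) < r := by exact_mod_cast (ENNReal.coe_pos.1 hr0)
  have hspec := Mass_spec hF hg
  obtain ⟨F0, hF0⟩ := MassSys.net_cauchy (Me hF G) (MassSys.NC.comap hspec.1 _)
    (MassSys.ROW.comap hspec.2.1 _) o hr0'
  refine ⟨F0, fun F Y hF' hY => ?_⟩
  have hS : MeasurableSet {y : (G.edgeSet → I) × (G.edgeSet → I) |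
      (Me hF G).out y.1 y.2 F o ≠ (Me hF G).out y.1 y.2 Y o} :=
    (measurableSet_eq_fun (measurable_out_pair _ F o) (measurable_out_pair _ Y o)).compl
  have h1 : μL {x | outE hF G F o x ≠ outE hF G Y o x} =
      muL G.edgeSet {y | (Me hF G).out y.1 y.2 F o ≠ (Me hF G).out y.1 y.2 Y o} := by
    rw [← lamE_law hg.2, Measure.map_apply (measurable_lamE G) hS]
    rfl
  rw [h1]
  refine (hF0 F Y hF' hY).trans ?_
  rw [ENNReal.ofReal_coe_nnreal]
  exact hrδ.le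

theorem cauchy_balls {G : SimpleGraph ℕ} (hg : good G) (o : G.edgeSet) {δ : ℝ≥0∞} (hδ : 0 < δ) :
    ∃ r₀, ∀ r r', r₀ ≤ r → r₀ ≤ r' → dd hF G o.1 r r' ≤ δ := by
  obtain ⟨F0, hF0⟩ := net_cauchy_e hF hg o hδ
  obtain ⟨r₀, hr₀⟩ := Fe_contains hg.1 hg.2 o.1 (F0.map (eEmb G)) (map_eEmb_subset G F0)
  refine ⟨r₀, fun r r' hr hr' => ?_⟩
  obtain ⟨W, hW⟩ := exists_lift (Fe G o.1 r) (Fe_subset_edgeSet hg.2 _ _)
  obtain ⟨W', hW'⟩ := exists_lift (Fe G o.1 r') (Fe_subset_edgeSet hg.2 _ _)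
  have h0 : F0 ⊆ W := by
    rw [← Finset.map_subset_map (f := eEmb G), hW]; exact hr₀ r hr
  have h0' : F0 ⊆ W' := by
    rw [← Finset.map_subset_map (f := eEmb G), hW']; exact hr₀ r' hr'
  refine le_trans (le_of_eq ?_) (hF0 W W' h0 h0')
  unfold dd
  apply measure_congr
  filter_upwards [ae_digInj] with x hx
  apply propext
  show XB hF G o.1 r x ≠ XB hF G o.1 r' x ↔ outE hF G W o x ≠ outE hF G W' o x
  rw [outE_eq hF hg W o hx, outE_eq hF hg W' o hx, hW, hW']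
  rfl

theorem half_pow_pos (k : ℕ) : (0 : ℝ≥0∞) < (1 / 2) ^ k := by
  apply ENNReal.pow_pos
  simp

theorem NN_spec {G : SimpleGraph ℕ} (hg : good G) (o : G.edgeSet) (k r r' : ℕ)
    (hr : NN hF G o.1 k ≤ r) (hr' : NN hF G o.1 k ≤ r') : dd hF G o.1 r r' ≤ (1 / 2) ^ k := by
  have hne : {N | ∀ r r', N ≤ r → N ≤ r' → dd hF G o.1 r r' ≤ (1 / 2 : ℝ≥0∞) ^ k}.Nonempty :=
    cauchy_balls hF hg o (half_pow_pos k)
  exact Nat.sInf_mem hne r r' hr hr'

theorem NN_mono {G : SimpleGraph ℕ} (hg : good G) (o : G.edgeSet) (k : ℕ) :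
    NN hF G o.1 k ≤ NN hF G o.1 (k + 1) := by
  refine Nat.sInf_le fun r r' hr hr' => ?_
  refine (NN_spec hF hg o (k + 1) r r' hr hr').trans ?_
  exact pow_le_pow_right_of_le_one' (by norm_num) (Nat.le_succ k)

theorem ZZ_fast {G : SimpleGraph ℕ} (hg : good G) (o : G.edgeSet) (k : ℕ) :
    μL {x | ZZ hF G o.1 k x ≠ ZZ hF G o.1 (k + 1) x} ≤ (1 / 2) ^ k :=
  NN_spec hF hg o k _ _ le_rfl (NN_mono hF hg o k)

theorem limZ_tail {G : SimpleGraph ℕ} (hg : good G) (o : G.edgeSet) (k : ℕ) :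
    μL {x | limB (ZZ hF G o.1) x ≠ ZZ hF G o.1 k x} ≤ 2 * (1 / 2) ^ k := by
  have := limB_tail μL (ε := fun k => (1 / 2 : ℝ≥0∞) ^ k) (ZZ_fast hF hg o) k
  rwa [tsum_half] at this

theorem Rule_eq {G : SimpleGraph ℕ} (hg : good G) (o : G.edgeSet) {x : ℕ → I} (hx : digInj x) :
    Rule hF G x o.1 = limB (ZZ hF G o.1) x := by
  classical
  unfold Rule
  cases h : limB (ZZ hF G o.1) x with
  | true => simp [hg, hx, o.2, h]
  | false => simp [h]

/-- The rule is close to the chain on all large finite sets of edges. -/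
theorem Rule_close {G : SimpleGraph ℕ} (hg : good G) (o : G.edgeSet) (δ : ℝ≥0∞) (hδ : 0 < δ) :
    ∃ F0 : Finset G.edgeSet, ∀ Y, F0 ⊆ Y →
      μL {x | Rule hF G x o.1 ≠ outE hF G Y o x} ≤ δ := by
  have hη : 0 < δ / 3 := ENNReal.div_pos hδ.ne' (by simp)
  obtain ⟨F0, hF0⟩ := net_cauchy_e hF hg o hη
  obtain ⟨k, hk⟩ := exists_half_lt hη
  obtain ⟨r₀, hr₀⟩ := Fe_contains hg.1 hg.2 o.1 (F0.map (eEmb G)) (map_eEmb_subset G F0)
  refine ⟨F0, fun Y hY => ?_⟩
  let r := max (NN hF G o.1 k) r₀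
  obtain ⟨W, hW⟩ := exists_lift (Fe G o.1 r) (Fe_subset_edgeSet hg.2 _ _)
  have h0 : F0 ⊆ W := by
    rw [← Finset.map_subset_map (f := eEmb G), hW]; exact hr₀ r (le_max_right _ _)
  have hsub : ({x | Rule hF G x o.1 ≠ outE hF G Y o x} : Set (ℕ → I)) ≤ᵐ[μL]
      ((({x | limB (ZZ hF G o.1) x ≠ ZZ hF G o.1 k x} ∪
        {x | ZZ hF G o.1 k x ≠ XB hF G o.1 r x}) ∪ {x | outE hF G W o x ≠ outE hF G Y o x} :
          Set (ℕ → I))) := by
    filter_upwards [ae_digInj] with x hx hmem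
    have hmem' : Rule hF G x o.1 ≠ outE hF G Y o x := hmem
    rw [Rule_eq hF hg o hx] at hmem'
    have hXB : XB hF G o.1 r x = outE hF G W o x := by
      rw [outE_eq hF hg W o hx, hW]; rfl
    show ((limB (ZZ hF G o.1) x ≠ ZZ hF G o.1 k x ∨ ZZ hF G o.1 k x ≠ XB hF G o.1 r x) ∨
      outE hF G W o x ≠ outE hF G Y o x)
    by_contra hcon
    push Not at hcon
    obtain ⟨⟨h1, h2⟩, h3⟩ := hcon
    apply hmem'
    rw [h1, h2, hXB, h3]
  have hb1 : μL {x | limB (ZZ hF G o.1) x ≠ ZZ hF G o.1 k x} ≤ δ / 3 :=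
    (limZ_tail hF hg o k).trans hk
  have hb2 : μL {x | ZZ hF G o.1 k x ≠ XB hF G o.1 r x} ≤ δ / 3 := by
    have h := NN_spec hF hg o k (NN hF G o.1 k) r le_rfl (le_max_left _ _)
    refine h.trans (le_trans ?_ hk)
    calc (1 / 2 : ℝ≥0∞) ^ k = 1 * (1 / 2) ^ k := (one_mul _).symm
      _ ≤ 2 * (1 / 2) ^ k := by gcongr; norm_num
  have hb3 := hF0 W Y h0 hY
  calc μL {x | Rule hF G x o.1 ≠ outE hF G Y o x}
      ≤ μL (({x | limB (ZZ hF G o.1) x ≠ ZZ hF G o.1 k x} ∪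
        {x | ZZ hF G o.1 k x ≠ XB hF G o.1 r x}) ∪ {x | outE hF G W o x ≠ outE hF G Y o x}) :=
        measure_mono_ae hsub
    _ ≤ μL {x | limB (ZZ hF G o.1) x ≠ ZZ hF G o.1 k x} +
        μL {x | ZZ hF G o.1 k x ≠ XB hF G o.1 r x} +
        μL {x | outE hF G W o x ≠ outE hF G Y o x} :=
        (measure_union_le _ _).trans (by gcongr; exact measure_union_le _ _)
    _ ≤ δ / 3 + δ / 3 + δ / 3 := by gcongr
    _ = δ := ENNReal.add_thirds δ

/-- The law of the rule on a connected locally finite graph. -/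
theorem Rule_law {G : SimpleGraph ℕ} (hg : good G) (F : Finset (Sym2 ℕ))
    (hFE : (↑F : Set (Sym2 ℕ)) ⊆ G.edgeSet) :
    μL {x | ∀ e ∈ F, Rule hF G x e = true} = ENNReal.ofReal ((Mass hF G).m F ∅) := by
  obtain ⟨P, rfl⟩ := exists_lift F hFE
  have h := limit_law (Me hF G) μL (lamE G) (measurable_lamE G) (lamE_law hg.2)
    (fun o x => Rule hF G x o.1) (fun o δ hδ => Rule_close hF hg o δ hδ) P
  have hset : {x : ℕ → I | ∀ e ∈ P.map (eEmb G), Rule hF G x e = true} =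
      {x | ∀ h ∈ P, Rule hF G x h.1 = true} := by
    ext x
    simp [eEmb]
  rw [hset, h]
  congr 1

/-- Statement S0254, given the masses of the free uniform spanning forest. -/
theorem main (hF : FUSFSpec) :
    ∃ Φ : SimpleGraph ℕ → (ℕ → unitInterval) → (Sym2 ℕ → Bool),
      Measurable (fun p : (ℕ → ℕ → Bool) × (ℕ → unitInterval) =>
          Φ (Crest.ProbabilityR.GraphTables.graphOfTable p.1) p.2) ∧
      (∀ (σ : Equiv.Perm ℕ) (G : SimpleGraph ℕ) (x : ℕ → unitInterval),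
          Φ (G.comap ⇑σ) (x ∘ ⇑σ) = Φ G x ∘ Sym2.map ⇑σ) ∧
      ∀ G : SimpleGraph ℕ, G.Connected → (∀ v : ℕ, (G.neighborSet v).Finite) →
        ∀ S : ℕ → Finset ℕ, Monotone S → (∀ v : ℕ, ∃ n, v ∈ S n) →
          (∀ n, (G.induce (S n : Set ℕ)).Connected) →
          ∀ F : Finset (Sym2 ℕ), (↑F : Set (Sym2 ℕ)) ⊆ G.edgeSet →
            Filter.Tendsto (fun n => Crest.ProbabilityR.SpanningTrees.ustContains G (S n) F) Filter.atTop
              (nhds (((Crest.ProbabilityR.Labels.labelMeasure ℕ).map (Φ G) {ω | ∀ e ∈ F, ω e = true}).toReal)) := by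
  refine ⟨Rule hF, measurable_Rule hF, fun σ G x => Rule_comap hF σ G x, ?_⟩
  intro G hc hl S hmono hex hconn F hFE
  have hg : good G := ⟨hc, hl⟩
  have hm : Measurable (Rule hF G) :=
    measurable_section (f := Rule hF) (measurable_Rule hF) G
  have hS : MeasurableSet {ω : Sym2 ℕ → Bool | ∀ e ∈ F, ω e = true} := by
    have : {ω : Sym2 ℕ → Bool | ∀ e ∈ F, ω e = true} = ⋂ e ∈ F, {ω | ω e = true} := by
      ext ω; simp
    rw [this]
    refine MeasurableSet.biInter (Finset.countable_toSet _) fun e _ => ?_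
    have h : Measurable fun ω : Sym2 ℕ → Bool => ω e := measurable_pi_apply e
    exact h (measurableSet_singleton true)
  have hval : ((labelMeasure ℕ).map (Rule hF G) {ω | ∀ e ∈ F, ω e = true}).toReal =
      (Mass hF G).m F ∅ := by
    rw [Measure.map_apply hm hS]
    have : Rule hF G ⁻¹' {ω | ∀ e ∈ F, ω e = true} = {x | ∀ e ∈ F, Rule hF G x e = true} := rfl
    rw [this, Rule_law hF hg F hFE, ENNReal.toReal_ofReal ((Mass hF G).nonneg _ _)]
  rw [hval]
  exact (Mass_spec hF hg).2.2.2 S hmono hex hconn F hFE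

end Crest.Agent.SRC.Gr
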