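import Crest.Agent.Lib.SRC.GraphTransport
import Crest.Agent.Lib.SRC.GraphLabels

/-!
The free uniform spanning forest masses as a mass system depending measurably and
equivariantly on the graph (helper7).  The existence of the masses with their negative dependence
is the hypothesis `FUSFSpec`, provided by the uniform spanning tree part.
-/

open MeasureTheory
open Crest.ProbabilityR.GraphTables Crest.ProbabilityR.SpanningTrees

namespace Crest.Agent.SRC

set_option linter.unusedSectionVars false
set_option linter.unusedSimpArgs false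

namespace MassSys

variable {E E₂ : Type*} [DecidableEq E] [DecidableEq E₂]

/-- Restriction of a mass system along an embedding of sites. -/
def comap (M : MassSys E) (ι : E₂ ↪ E) : MassSys E₂ where
  m := fun P Q => M.m (P.map ι) (Q.map ι)
  nonneg := fun _ _ => M.nonneg _ _
  empty := by simpa using M.empty
  contra := fun P Q h => by
    apply M.contra
    intro hd
    apply h
    exact (Finset.disjoint_map ι).1 hd
  split := fun P Q g => by
    rw [Finset.map_insert, Finset.map_insert]
    exact M.split _ _ _

theorem comap_m (M : MassSys E) (ι : E₂ ↪ E) (P Q : Finset E₂) :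
    (M.comap ι).m P Q = M.m (P.map ι) (Q.map ι) := rfl

theorem NC.comap {M : MassSys E} (h : M.NC) (ι : E₂ ↪ E) : (M.comap ι).NC := by
  intro P Q f g hfg hfP hfQ hgP hgQ
  simp only [comap_m, Finset.map_insert]
  exact h _ _ (ι f) (ι g) (fun h' => hfg (ι.injective h')) (by simpa using hfP) (by simpa using hfQ)
    (by simpa using hgP) (by simpa using hgQ)

theorem ROW.comap {M : MassSys E} (h : M.ROW) (ι : E₂ ↪ E) : (M.comap ι).ROW := by
  intro P Q g J hgJ hgP hgQ hJP hJQ
  simp only [comap_m, Finset.map_insert]
  have := h (P.map ι) (Q.map ι) (ι g) (J.map ι) (by simpa using hgJ) (by simpa using hgP)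
    (by simpa using hgQ) ((Finset.disjoint_map ι).2 hJP) ((Finset.disjoint_map ι).2 hJQ)
  rwa [Finset.sum_map] at this

/-- Deterministic empty configuration. -/
def trivial (E : Type*) [DecidableEq E] : MassSys E where
  m := fun P _ => if P = ∅ then 1 else 0
  nonneg := fun P _ => by split_ifs <;> norm_num
  empty := by simp
  contra := fun P Q h => by
    rw [if_neg]
    rintro rfl
    exact h (Finset.disjoint_empty_left _)
  split := fun P Q g => by
    by_cases hP : P = ∅
    · simp [hP]
    · simp [hP]

/-- Masses agreeing on inclusion events along an embedding agree everywhere. -/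
theorem m_transport (M : MassSys E) (M₂ : MassSys E₂) (ι : E₂ ↪ E)
    (h : ∀ P, M₂.m P ∅ = M.m (P.map ι) ∅) (P Q : Finset E₂) :
    M₂.m P Q = M.m (P.map ι) (Q.map ι) := by
  induction Q using Finset.induction_on generalizing P with
  | empty => simpa using h P
  | insert g Q _ ih =>
    rw [m_insert_right, ih, ih, Finset.map_insert, Finset.map_insert, m_insert_right]

end MassSys

namespace Gr

/-- What the uniform spanning tree part provides: for a connected locally finite graph, a mass
system with negative dependence, null on non-edges, whose inclusion masses are the limits of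
the inclusion probabilities of the uniform spanning trees along every exhaustion. -/
def FUSFSpec : Prop :=
  ∀ G : SimpleGraph ℕ, G.Connected → (∀ v, (G.neighborSet v).Finite) →
    ∃ M : MassSys (Sym2 ℕ), M.NC ∧ M.ROW ∧
      (∀ P : Finset (Sym2 ℕ), ¬ ((↑P : Set (Sym2 ℕ)) ⊆ G.edgeSet) → M.m P ∅ = 0) ∧
      ∀ S : ℕ → Finset ℕ, Monotone S → (∀ v, ∃ n, v ∈ S n) →
        (∀ n, (G.induce (S n : Set ℕ)).Connected) →
        ∀ F : Finset (Sym2 ℕ), (↑F : Set (Sym2 ℕ)) ⊆ G.edgeSet →
          Filter.Tendsto (fun n => ustContains G (S n) F) Filter.atTop (nhds (M.m F ∅))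

variable (hF : FUSFSpec)

/-- The mass system of a graph. -/
noncomputable def Mass (G : SimpleGraph ℕ) : MassSys (Sym2 ℕ) :=
  open Classical in
  if h : good G then Classical.choose (hF G h.1 h.2) else MassSys.trivial _

theorem Mass_bad {G : SimpleGraph ℕ} (h : ¬ good G) : Mass hF G = MassSys.trivial _ := by
  simp [Mass, h]

theorem Mass_spec {G : SimpleGraph ℕ} (h : good G) :
    (Mass hF G).NC ∧ (Mass hF G).ROW ∧
      (∀ P : Finset (Sym2 ℕ), ¬ ((↑P : Set (Sym2 ℕ)) ⊆ G.edgeSet) → (Mass hF G).m P ∅ = 0) ∧
      ∀ S : ℕ → Finset ℕ, Monotone S → (∀ v, ∃ n, v ∈ S n) →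
        (∀ n, (G.induce (S n : Set ℕ)).Connected) →
        ∀ F : Finset (Sym2 ℕ), (↑F : Set (Sym2 ℕ)) ⊆ G.edgeSet →
          Filter.Tendsto (fun n => ustContains G (S n) F) Filter.atTop
            (nhds ((Mass hF G).m F ∅)) := by
  have := Classical.choose_spec (hF G h.1 h.2)
  simpa [Mass, h] using this

theorem Mass_tendsto_vb {G : SimpleGraph ℕ} (h : good G) (F : Finset (Sym2 ℕ))
    (hFE : (↑F : Set (Sym2 ℕ)) ⊆ G.edgeSet) :
    Filter.Tendsto (fun n => ustContains G (vb G n) F) Filter.atTop
      (nhds ((Mass hF G).m F ∅)) :=
  (Mass_spec hF h).2.2.2 _ (vb_mono h.2) (vb_exhaust h.1 h.2) (vb_connected h.2) F hFE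

/-- The inclusion masses are measurable in the table. -/
theorem measurable_mass_incl (P : Finset (Sym2 ℕ)) :
    Measurable fun A : Table => (Mass hF (graphOfTable A)).m P ∅ := by
  classical
  let g : ℕ → Table → ℝ := fun n A =>
    if good (graphOfTable A) then
      if (↑P : Set (Sym2 ℕ)) ⊆ (graphOfTable A).edgeSet then
        ustContains (graphOfTable A) (vb (graphOfTable A) n) P
      else 0
    else (MassSys.trivial (Sym2 ℕ)).m P ∅
  have hsub : MeasurableSet {A : Table | (↑P : Set (Sym2 ℕ)) ⊆ (graphOfTable A).edgeSet} := by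
    have : {A : Table | (↑P : Set (Sym2 ℕ)) ⊆ (graphOfTable A).edgeSet} =
        ⋂ e ∈ P, {A | e ∈ (graphOfTable A).edgeSet} := by
      ext A
      simp [Set.subset_def]
    rw [this]
    exact MeasurableSet.biInter (Finset.countable_toSet _) fun e _ => measurableSet_mem_edgeSet e
  have hg : ∀ n, Measurable (g n) := fun n =>
    Measurable.ite measurableSet_good
      (Measurable.ite hsub (measurable_ustContains_vb n P) measurable_const) measurable_const
  refine measurable_of_tendsto_metrizable hg ?_
  rw [tendsto_pi_nhds]
  intro A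
  by_cases hgood : good (graphOfTable A)
  · by_cases hP : (↑P : Set (Sym2 ℕ)) ⊆ (graphOfTable A).edgeSet
    · simp only [g, hgood, hP, if_true]
      exact Mass_tendsto_vb hF hgood P hP
    · simp only [g, hgood, hP, if_true, if_false]
      rw [(Mass_spec hF hgood).2.2.1 P hP]
      exact tendsto_const_nhds
  · simp only [g, hgood, if_false, Mass_bad hF hgood]
    exact tendsto_const_nhds

/-- All the masses are measurable in the table. -/
theorem measurable_mass (P Q : Finset (Sym2 ℕ)) :
    Measurable fun A : Table => (Mass hF (graphOfTable A)).m P Q := by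
  induction Q using Finset.induction_on generalizing P with
  | empty => exact measurable_mass_incl hF P
  | insert g Q _ ih =>
    simp_rw [MassSys.m_insert_right]
    exact (ih P).sub (ih _)

/-- Exhaustions are transported by permutations. -/
theorem Mass_comap (G : SimpleGraph ℕ) (σ : Equiv.Perm ℕ) (P Q : Finset (Sym2 ℕ)) :
    (Mass hF (G.comap σ)).m P Q = (Mass hF G).m (P.map (symEmb σ)) (Q.map (symEmb σ)) := by
  by_cases hg : good G
  · have hg' : good (G.comap σ) := (good_comap_iff G σ).2 hg
    refine MassSys.m_transport _ _ _ (fun P => ?_) P Q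
    by_cases hP : (↑P : Set (Sym2 ℕ)) ⊆ (G.comap σ).edgeSet
    · have hP' : (↑(P.map (symEmb σ)) : Set (Sym2 ℕ)) ⊆ G.edgeSet := by
        intro e he
        obtain ⟨e', he', rfl⟩ := Finset.mem_map.1 (Finset.mem_coe.1 he)
        exact (mem_edgeSet_comap G σ e').1 (hP he')
      -- the exhaustion of the image graph
      let S' : ℕ → Finset ℕ := fun n => (vb G n).map σ.symm.toEmbedding
      have hmap : ∀ n, (S' n).map σ.toEmbedding = vb G n := by
        intro n
        ext z
        simp [S']
      have hmono : Monotone S' := fun a b hab =>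
        Finset.map_subset_map.2 (vb_mono hg.2 hab)
      have hex : ∀ v, ∃ n, v ∈ S' n := by
        intro v
        obtain ⟨n, hn⟩ := vb_exhaust hg.1 hg.2 (σ v)
        exact ⟨n, Finset.mem_map.2 ⟨σ v, hn, by simp⟩⟩
      have hconn : ∀ n, ((G.comap σ).induce (S' n : Set ℕ)).Connected := by
        intro n
        have h0 := vb_connected hg.2 n
        let φ : (G.comap σ).induce (S' n : Set ℕ) ≃g G.induce (vb G n : Set ℕ) :=
          { toFun := fun u => ⟨σ u.1, by
              have := u.2
              simp only [S', Finset.coe_map, Set.mem_image, Finset.mem_coe,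
                Equiv.coe_toEmbedding] at this
              obtain ⟨y, hy, hyu⟩ := this
              simp only [Finset.mem_coe]
              rw [← hyu]
              simpa using hy⟩
            invFun := fun u => ⟨σ.symm u.1, by
              simp only [S', Finset.coe_map, Set.mem_image, Finset.mem_coe, Equiv.coe_toEmbedding]
              exact ⟨u.1, u.2, rfl⟩⟩
            left_inv := fun u => by simp
            right_inv := fun u => by simp
            map_rel_iff' := by
              rintro ⟨a, ha⟩ ⟨b, hb⟩
              simp }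
        exact φ.connected_iff.2 h0
      have h1 := (Mass_spec hF hg').2.2.2 S' hmono hex hconn P hP
      have h2 := Mass_tendsto_vb hF hg (P.map (symEmb σ)) hP'
      have h3 : (fun n => ustContains (G.comap σ) (S' n) P) =
          fun n => ustContains G (vb G n) (P.map (symEmb σ)) := by
        funext n
        rw [ustContains_comap, hmap]
      rw [h3] at h1
      exact tendsto_nhds_unique h1 h2
    · have hP' : ¬ (↑(P.map (symEmb σ)) : Set (Sym2 ℕ)) ⊆ G.edgeSet := by
        intro hcon
        apply hP
        intro e he
        rw [mem_edgeSet_comap]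
        exact hcon (Finset.mem_coe.2 (Finset.mem_map.2 ⟨e, he, rfl⟩))
      rw [(Mass_spec hF hg').2.2.1 P hP, (Mass_spec hF hg).2.2.1 _ hP']
  · have hg' : ¬ good (G.comap σ) := fun h => hg ((good_comap_iff G σ).1 h)
    rw [Mass_bad hF hg, Mass_bad hF hg']
    simp [MassSys.trivial]

end Gr

end Crest.Agent.SRC
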