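import Crest.Agent.Lib.SRC.ChainBasic
import Crest.Agent.Lib.SRC.Split
import Crest.Agent.Lib.SRC.OutLaw

/-!
From the Cauchy property to the law of the limit (helper7).
-/

open MeasureTheory
open scoped ENNReal

namespace Crest.Agent.SRC

set_option linter.unusedSectionVars false
set_option linter.unusedSimpArgs false

local notation "I" => unitInterval

section Lim

variable {Ω : Type*} [MeasurableSpace Ω]

/-- Eventual value of a Boolean sequence, `false` when it is not eventually `true`. -/
noncomputable def limB (Z : ℕ → Ω → Bool) (ω : Ω) : Bool :=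
  open Classical in decide (∃ K, ∀ k ≥ K, Z k ω = true)

theorem measurable_limB {Z : ℕ → Ω → Bool} (hZ : ∀ k, Measurable (Z k)) : Measurable (limB Z) := by
  classical
  refine measurable_to_bool ?_
  have : limB Z ⁻¹' {true} = ⋃ K, ⋂ k ≥ K, {ω | Z k ω = true} := by
    ext ω
    simp [limB]
  rw [this]
  exact MeasurableSet.iUnion fun K => MeasurableSet.iInter fun k => MeasurableSet.iInter fun _ =>
    hZ k (measurableSet_singleton true)

theorem limB_eq_of_const {Z : ℕ → Ω → Bool} {ω : Ω} {k : ℕ}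
    (h : ∀ j, Z (k + j) ω = Z (k + j + 1) ω) : limB Z ω = Z k ω := by
  have hc : ∀ j, Z (k + j) ω = Z k ω := by
    intro j
    induction j with
    | zero => rfl
    | succ j ih => rw [← ih, ← add_assoc, ← h j]
  classical
  cases hk : Z k ω with
  | true =>
    simp only [limB, decide_eq_true_eq]
    refine ⟨k, fun n hn => ?_⟩
    obtain ⟨j, rfl⟩ := Nat.exists_eq_add_of_le hn
    rw [hc, hk]
  | false =>
    simp only [limB, decide_eq_false_iff_not, not_exists, not_forall]
    intro K
    refine ⟨max K k, le_max_left _ _, ?_⟩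
    obtain ⟨j, hj⟩ := Nat.exists_eq_add_of_le (le_max_right K k)
    rw [hj, hc, hk]
    simp

/-- The limit is close to the tail of a fast sequence. -/
theorem limB_tail (μ : Measure Ω) {Z : ℕ → Ω → Bool} {ε : ℕ → ℝ≥0∞}
    (h : ∀ k, μ {ω | Z k ω ≠ Z (k + 1) ω} ≤ ε k) (k : ℕ) :
    μ {ω | limB Z ω ≠ Z k ω} ≤ ∑' j, ε (k + j) := by
  have hsub : {ω | limB Z ω ≠ Z k ω} ⊆ ⋃ j, {ω | Z (k + j) ω ≠ Z (k + j + 1) ω} := by
    intro ω hω
    by_contra hno
    simp only [Set.mem_iUnion, Set.mem_ofPred_eq, not_exists, not_not] at hno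
    exact hω (limB_eq_of_const hno)
  calc μ {ω | limB Z ω ≠ Z k ω} ≤ μ (⋃ j, {ω | Z (k + j) ω ≠ Z (k + j + 1) ω}) := measure_mono hsub
    _ ≤ ∑' j, μ {ω | Z (k + j) ω ≠ Z (k + j + 1) ω} := measure_iUnion_le _
    _ ≤ ∑' j, ε (k + j) := ENNReal.tsum_le_tsum fun j => h (k + j)

theorem tsum_half (k : ℕ) : ∑' j, ((1 / 2 : ℝ≥0∞)) ^ (k + j) = 2 * (1 / 2) ^ k := by
  simp_rw [pow_add]
  rw [ENNReal.tsum_mul_left, ENNReal.tsum_geometric, mul_comm]
  congr 1
  simp

/-- Smallness of `2 * (1/2)^k`. -/
theorem exists_half_lt {δ : ℝ≥0∞} (hδ : 0 < δ) : ∃ k : ℕ, 2 * (1 / 2 : ℝ≥0∞) ^ k ≤ δ := by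
  have h : Filter.Tendsto (fun k : ℕ => 2 * (1 / 2 : ℝ≥0∞) ^ k) Filter.atTop (nhds (2 * 0)) := by
    refine ENNReal.Tendsto.const_mul
      (ENNReal.tendsto_pow_atTop_nhds_zero_of_lt_one (by simp)) (Or.inr (by simp))
  rw [mul_zero] at h
  exact (h.eventually (ge_mem_nhds hδ)).exists

end Lim

section Law

variable {E : Type*} [DecidableEq E] [Countable E] (M : MassSys E)

/-- The output of the chain as a function of the pair of label fields. -/
theorem measurable_out_pair (F : Finset E) (o : E) :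
    Measurable (fun x : (E → I) × (E → I) => M.out x.1 x.2 F o) :=
  MassSys.measurable_out_param' (fun _ => M) (fun _ _ => measurable_const) _ _
    (fun e => (measurable_pi_apply e).comp measurable_fst)
    (fun e => (measurable_pi_apply e).comp measurable_snd) F o

/-- Marginal of the chain on a finite subset: inclusion probabilities. -/
theorem out_marginal (Y P : Finset E) (hP : P ⊆ Y) :
    muL E {x | ∀ h ∈ P, M.out x.1 x.2 Y h = true} = ENNReal.ofReal (M.m P ∅) := by
  classical
  let W := Y \ P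
  let A : Finset E → Set ((E → I) × (E → I)) := fun R =>
    {x | (∀ e ∈ P ∪ R, M.out x.1 x.2 Y e = true) ∧ (∀ e ∈ Y \ (P ∪ R), M.out x.1 x.2 Y e = false)}
  have hAmeas : ∀ R, MeasurableSet (A R) := by
    intro R
    have h1 : MeasurableSet {x : (E → I) × (E → I) | ∀ e ∈ P ∪ R, M.out x.1 x.2 Y e = true} := by
      have : {x : (E → I) × (E → I) | ∀ e ∈ P ∪ R, M.out x.1 x.2 Y e = true} =
          ⋂ e ∈ P ∪ R, {x | M.out x.1 x.2 Y e = true} := by ext x; simp
      rw [this]
      exact MeasurableSet.biInter (Finset.countable_toSet _) fun e _ =>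
        measurable_out_pair M Y e (measurableSet_singleton true)
    have h2 : MeasurableSet
        {x : (E → I) × (E → I) | ∀ e ∈ Y \ (P ∪ R), M.out x.1 x.2 Y e = false} := by
      have : {x : (E → I) × (E → I) | ∀ e ∈ Y \ (P ∪ R), M.out x.1 x.2 Y e = false} =
          ⋂ e ∈ Y \ (P ∪ R), {x | M.out x.1 x.2 Y e = false} := by ext x; simp
      rw [this]
      exact MeasurableSet.biInter (Finset.countable_toSet _) fun e _ =>
        measurable_out_pair M Y e (measurableSet_singleton false)
    exact h1.inter h2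
  have hunion : {x : (E → I) × (E → I) | ∀ h ∈ P, M.out x.1 x.2 Y h = true} =
      ⋃ R ∈ W.powerset, A R := by
    ext x
    simp only [Set.mem_ofPred_eq, Set.mem_iUnion, exists_prop, Finset.mem_powerset, A]
    constructor
    · intro hx
      refine ⟨W.filter (fun e => M.out x.1 x.2 Y e = true), Finset.filter_subset _ _, ?_, ?_⟩
      · intro e he
        rcases Finset.mem_union.1 he with he | he
        · exact hx e he
        · exact (Finset.mem_filter.1 he).2
      · intro e he
        simp only [Finset.mem_sdiff, Finset.mem_union, not_or, Finset.mem_filter] at he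
        have : ¬ (e ∈ W ∧ M.out x.1 x.2 Y e = true) := he.2.2
        have hW : e ∈ W := Finset.mem_sdiff.2 ⟨he.1, he.2.1⟩
        simpa [hW] using this
    · rintro ⟨R, _, hR, _⟩ h hh
      exact hR h (Finset.mem_union_left _ hh)
  have hdisj : Set.PairwiseDisjoint (↑W.powerset : Set (Finset E)) A := by
    intro R hR R' hR' hne
    rw [Function.onFun, Set.disjoint_left]
    rintro x ⟨h1, h2⟩ ⟨h1', h2'⟩
    apply hne
    ext e
    have hRW := Finset.mem_powerset.1 hR
    have hRW' := Finset.mem_powerset.1 hR'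
    constructor
    · intro he
      by_contra he'
      have heW := hRW he
      have heY : e ∈ Y := (Finset.mem_sdiff.1 heW).1
      have heP : e ∉ P := (Finset.mem_sdiff.1 heW).2
      have := h2' e (by simp [heY, heP, he'])
      rw [h1 e (Finset.mem_union_right _ he)] at this
      cases this
    · intro he
      by_contra he'
      have heW := hRW' he
      have heY : e ∈ Y := (Finset.mem_sdiff.1 heW).1
      have heP : e ∉ P := (Finset.mem_sdiff.1 heW).2
      have := h2 e (by simp [heY, heP, he'])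
      rw [h1' e (Finset.mem_union_right _ he)] at this
      cases this
  rw [hunion, measure_biUnion_finset hdisj (fun R _ => hAmeas R)]
  have hval : ∀ R ∈ W.powerset, muL E (A R) = ENNReal.ofReal (M.m (P ∪ R) (∅ ∪ (W \ R))) := by
    intro R hR
    have hRW := Finset.mem_powerset.1 hR
    have hsub : P ∪ R ⊆ Y := Finset.union_subset hP (hRW.trans Finset.sdiff_subset)
    have := MassSys.out_law_proved M Y (P ∪ R) hsub
    have hset : (∅ ∪ (W \ R) : Finset E) = Y \ (P ∪ R) := by
      ext e
      simp only [W, Finset.empty_union, Finset.mem_sdiff, Finset.mem_union, not_or]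
      tauto
    rw [hset]
    exact this
  rw [Finset.sum_congr rfl hval, ← ENNReal.ofReal_sum_of_nonneg (fun R _ => M.nonneg _ _)]
  rw [M.sum_powerset W P ∅]

variable {Ω : Type*} [MeasurableSpace Ω]

/-- Law of the limit field: a field of Boolean functions which is close to the outputs of
the chain driven by exact labels has the masses of the system on inclusion events. -/
theorem limit_law (μ : Measure Ω) [IsProbabilityMeasure μ]
    (lam : Ω → (E → I) × (E → I)) (hlam : Measurable lam) (hlaw : μ.map lam = muL E)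
    (L : E → Ω → Bool)
    (hclose : ∀ (h : E) (δ : ℝ≥0∞), 0 < δ → ∃ F0 : Finset E, ∀ Y, F0 ⊆ Y →
      μ {ω | L h ω ≠ M.out (lam ω).1 (lam ω).2 Y h} ≤ δ)
    (P : Finset E) :
    μ {ω | ∀ h ∈ P, L h ω = true} = ENNReal.ofReal (M.m P ∅) := by
  classical
  have hYlaw : ∀ Y, P ⊆ Y → μ {ω | ∀ h ∈ P, M.out (lam ω).1 (lam ω).2 Y h = true} =
      ENNReal.ofReal (M.m P ∅) := by
    intro Y hY
    rw [← out_marginal M Y P hY, ← hlaw, Measure.map_apply hlam]
    · rfl
    · have : {x : (E → I) × (E → I) | ∀ h ∈ P, M.out x.1 x.2 Y h = true} =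
          ⋂ e ∈ P, {x | M.out x.1 x.2 Y e = true} := by ext x; simp
      rw [this]
      exact MeasurableSet.biInter (Finset.countable_toSet _) fun e _ =>
        measurable_out_pair M Y e (measurableSet_singleton true)
  have key : ∀ δ : ℝ≥0∞, 0 < δ → ∃ Y, P ⊆ Y ∧ ∀ h ∈ P,
      μ {ω | L h ω ≠ M.out (lam ω).1 (lam ω).2 Y h} ≤ δ := by
    intro δ hδ
    choose F0 hF0 using fun h => hclose h δ hδ
    refine ⟨P ∪ P.biUnion F0, Finset.subset_union_left, fun h hh => hF0 h _ ?_⟩
    exact (Finset.subset_biUnion_of_mem F0 hh).trans Finset.subset_union_right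
  refine le_antisymm ?_ ?_
  · refine ENNReal.le_of_forall_pos_le_add ?_
    intro ε hε _
    have hc : (0 : ℝ≥0∞) < (ε : ℝ≥0∞) / (P.card + 1) := by
      apply ENNReal.div_pos (by exact_mod_cast hε.ne') (by simp)
    obtain ⟨Y, hY, hclose'⟩ := key _ hc
    have hsub : {ω | ∀ h ∈ P, L h ω = true} ⊆
        {ω | ∀ h ∈ P, M.out (lam ω).1 (lam ω).2 Y h = true} ∪
          ⋃ h ∈ P, {ω | L h ω ≠ M.out (lam ω).1 (lam ω).2 Y h} := by
      intro ω hω
      by_cases hall : ∀ h ∈ P, L h ω = M.out (lam ω).1 (lam ω).2 Y h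
      · left
        intro h hh
        rw [← hall h hh]; exact hω h hh
      · right
        push Not at hall
        obtain ⟨h, hh, hne⟩ := hall
        simp only [Set.mem_iUnion, exists_prop]
        exact ⟨h, hh, hne⟩
    calc μ {ω | ∀ h ∈ P, L h ω = true}
        ≤ μ {ω | ∀ h ∈ P, M.out (lam ω).1 (lam ω).2 Y h = true} +
          μ (⋃ h ∈ P, {ω | L h ω ≠ M.out (lam ω).1 (lam ω).2 Y h}) :=
          (measure_mono hsub).trans (measure_union_le _ _)
      _ ≤ ENNReal.ofReal (M.m P ∅) + ∑ h ∈ P, (ε : ℝ≥0∞) / (P.card + 1) := by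
          gcongr
          · exact (hYlaw Y hY).le
          · exact (measure_biUnion_finset_le _ _).trans (Finset.sum_le_sum hclose')
      _ ≤ ENNReal.ofReal (M.m P ∅) + ε := by
          gcongr
          rw [Finset.sum_const, nsmul_eq_mul]
          calc (P.card : ℝ≥0∞) * ((ε : ℝ≥0∞) / (P.card + 1))
              ≤ ((P.card : ℝ≥0∞) + 1) * ((ε : ℝ≥0∞) / (P.card + 1)) := by gcongr; simp
            _ = ε := ENNReal.mul_div_cancel (by simp) (by simp)
  · refine ENNReal.le_of_forall_pos_le_add ?_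
    intro ε hε _
    have hc : (0 : ℝ≥0∞) < (ε : ℝ≥0∞) / (P.card + 1) := by
      apply ENNReal.div_pos (by exact_mod_cast hε.ne') (by simp)
    obtain ⟨Y, hY, hclose'⟩ := key _ hc
    have hsub : {ω | ∀ h ∈ P, M.out (lam ω).1 (lam ω).2 Y h = true} ⊆
        {ω | ∀ h ∈ P, L h ω = true} ∪
          ⋃ h ∈ P, {ω | L h ω ≠ M.out (lam ω).1 (lam ω).2 Y h} := by
      intro ω hω
      by_cases hall : ∀ h ∈ P, L h ω = M.out (lam ω).1 (lam ω).2 Y h
      · left
        intro h hh
        rw [hall h hh]; exact hω h hh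
      · right
        push Not at hall
        obtain ⟨h, hh, hne⟩ := hall
        simp only [Set.mem_iUnion, exists_prop]
        exact ⟨h, hh, hne⟩
    calc ENNReal.ofReal (M.m P ∅)
        = μ {ω | ∀ h ∈ P, M.out (lam ω).1 (lam ω).2 Y h = true} := (hYlaw Y hY).symm
      _ ≤ μ {ω | ∀ h ∈ P, L h ω = true} +
          μ (⋃ h ∈ P, {ω | L h ω ≠ M.out (lam ω).1 (lam ω).2 Y h}) :=
          (measure_mono hsub).trans (measure_union_le _ _)
      _ ≤ μ {ω | ∀ h ∈ P, L h ω = true} + ∑ h ∈ P, (ε : ℝ≥0∞) / (P.card + 1) := by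
          gcongr
          exact (measure_biUnion_finset_le _ _).trans (Finset.sum_le_sum hclose')
      _ ≤ μ {ω | ∀ h ∈ P, L h ω = true} + ε := by
          gcongr
          rw [Finset.sum_const, nsmul_eq_mul]
          calc (P.card : ℝ≥0∞) * ((ε : ℝ≥0∞) / (P.card + 1))
              ≤ ((P.card : ℝ≥0∞) + 1) * ((ε : ℝ≥0∞) / (P.card + 1)) := by gcongr; simp
            _ = ε := ENNReal.mul_div_cancel (by simp) (by simp)

end Law

end Crest.Agent.SRC
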