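import Crest.Agent.Lib.SRC.GraphMass
import Crest.Agent.Lib.SRC.LimitLaw

/-!
The rule of S0254 (helper7): chain on balls, intrinsic fast subsequence, eventual value.
-/

open MeasureTheory
open scoped ENNReal
open Crest.ProbabilityR.GraphTables Crest.ProbabilityR.SpanningTrees Crest.ProbabilityR.Labels
open Crest.Agent.SRC.Split

namespace Crest.Agent.SRC.Gr

set_option linter.unusedSectionVars false
set_option linter.unusedSimpArgs false

local notation "I" => unitInterval
local notation "μL" => labelMeasure ℕ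

variable (hF : FUSFSpec)

/-- Output of the chain of the graph on the edge set `F`, from the vertex labels. -/
noncomputable def X (G : SimpleGraph ℕ) (F : Finset (Sym2 ℕ)) (o : Sym2 ℕ) (x : ℕ → I) : Bool :=
  (Mass hF G).out (tL G x) (vL G x) F o

theorem measurable_X (F : Finset (Sym2 ℕ)) (o : Sym2 ℕ) :
    Measurable fun p : Table × (ℕ → I) => X hF (graphOfTable p.1) F o p.2 :=
  MassSys.measurable_out_param' (fun p : Table × (ℕ → I) => Mass hF (graphOfTable p.1))
    (fun P Q => (measurable_mass hF P Q).comp measurable_fst)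
    (fun p e => tL (graphOfTable p.1) p.2 e) (fun p e => vL (graphOfTable p.1) p.2 e)
    measurable_tL measurable_vL F o

/-- Output of the chain on the ball of radius `r`. -/
noncomputable def XB (G : SimpleGraph ℕ) (o : Sym2 ℕ) (r : ℕ) (x : ℕ → I) : Bool :=
  X hF G (Fe G o r) o x

theorem measurable_XB (o : Sym2 ℕ) (r : ℕ) :
    Measurable fun p : Table × (ℕ → I) => XB hF (graphOfTable p.1) o r p.2 := by
  refine measurable_cases (fun p : Table × (ℕ → I) => Fe (graphOfTable p.1) o r) ?_
    (fun W p => X hF (graphOfTable p.1) W o p.2) (fun W => measurable_X hF W o)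
  intro W
  exact measurable_fst (measurableSet_Fe_eq o r W)

/-- Sections at a fixed graph. -/
theorem measurable_section {γ : Type*} [MeasurableSpace γ]
    {f : SimpleGraph ℕ → (ℕ → I) → γ}
    (h : Measurable fun p : Table × (ℕ → I) => f (graphOfTable p.1) p.2) (G : SimpleGraph ℕ) :
    Measurable (f G) := by
  have := h.comp (measurable_const.prodMk measurable_id :
    Measurable fun x : ℕ → I => (tableOf G, x))
  simpa [Function.comp_def, graphOfTable_tableOf] using this

theorem measurable_XB_section (G : SimpleGraph ℕ) (o : Sym2 ℕ) (r : ℕ) :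
    Measurable (XB hF G o r) :=
  measurable_section (f := fun G x => XB hF G o r x) (measurable_XB hF o r) G

/-- Probability that two balls disagree. -/
noncomputable def dd (G : SimpleGraph ℕ) (o : Sym2 ℕ) (r r' : ℕ) : ℝ≥0∞ :=
  μL {x | XB hF G o r x ≠ XB hF G o r' x}

theorem measurable_dd (o : Sym2 ℕ) (r r' : ℕ) :
    Measurable fun A : Table => dd hF (graphOfTable A) o r r' := by
  have hS : MeasurableSet {p : Table × (ℕ → I) |
      XB hF (graphOfTable p.1) o r p.2 ≠ XB hF (graphOfTable p.1) o r' p.2} :=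
    (measurableSet_eq_fun (measurable_XB hF o r) (measurable_XB hF o r')).compl
  exact measurable_measure_prodMk_left hS

/-- The intrinsic fast scale. -/
noncomputable def NN (G : SimpleGraph ℕ) (o : Sym2 ℕ) (k : ℕ) : ℕ :=
  sInf {N | ∀ r r', N ≤ r → N ≤ r' → dd hF G o r r' ≤ (1 / 2 : ℝ≥0∞) ^ k}

theorem measurableSet_NN_eq (o : Sym2 ℕ) (k n : ℕ) :
    MeasurableSet {A : Table | NN hF (graphOfTable A) o k = n} := by
  refine measurableSet_sInf_eq _ (fun N => ?_) n
  have : {A : Table | N ∈ {N | ∀ r r', N ≤ r → N ≤ r' →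
      dd hF (graphOfTable A) o r r' ≤ (1 / 2 : ℝ≥0∞) ^ k}} =
      ⋂ r, ⋂ r', {A | N ≤ r → N ≤ r' → dd hF (graphOfTable A) o r r' ≤ (1 / 2 : ℝ≥0∞) ^ k} := by
    ext A
    simp
  rw [this]
  refine MeasurableSet.iInter fun r => MeasurableSet.iInter fun r' => ?_
  by_cases h : N ≤ r ∧ N ≤ r'
  · simp only [h.1, h.2, forall_true_left]
    exact measurableSet_le (measurable_dd hF o r r') measurable_const
  · have : {A : Table | N ≤ r → N ≤ r' → dd hF (graphOfTable A) o r r' ≤ (1 / 2 : ℝ≥0∞) ^ k} =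
        Set.univ := by
      ext A
      simp only [Set.mem_ofPred_eq, Set.mem_univ, iff_true]
      intro h1 h2
      exact absurd ⟨h1, h2⟩ h
    rw [this]
    exact MeasurableSet.univ

/-- The output along the fast scale. -/
noncomputable def ZZ (G : SimpleGraph ℕ) (o : Sym2 ℕ) (k : ℕ) (x : ℕ → I) : Bool :=
  XB hF G o (NN hF G o k) x

theorem measurable_ZZ (o : Sym2 ℕ) (k : ℕ) :
    Measurable fun p : Table × (ℕ → I) => ZZ hF (graphOfTable p.1) o k p.2 := by
  refine measurable_cases (fun p : Table × (ℕ → I) => NN hF (graphOfTable p.1) o k) ?_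
    (fun n p => XB hF (graphOfTable p.1) o n p.2) (fun n => measurable_XB hF o n)
  intro n
  exact measurable_fst (measurableSet_NN_eq hF o k n)

/-- The rule. -/
noncomputable def Rule (G : SimpleGraph ℕ) (x : ℕ → I) (o : Sym2 ℕ) : Bool :=
  open Classical in
  decide (good G ∧ digInj x ∧ o ∈ G.edgeSet ∧ limB (ZZ hF G o) x = true)

/-- Joint measurability of the rule. -/
theorem measurable_Rule :
    Measurable fun p : Table × (ℕ → I) => Rule hF (graphOfTable p.1) p.2 := by
  classical
  refine measurable_pi_iff.2 fun o => measurable_to_bool ?_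
  have : (fun p : Table × (ℕ → I) => Rule hF (graphOfTable p.1) p.2 o) ⁻¹' {true} =
      ((Prod.fst ⁻¹' {A : Table | good (graphOfTable A)}) ∩
        ((Prod.snd ⁻¹' {x : ℕ → I | digInj x}) ∩
          ((Prod.fst ⁻¹' {A : Table | o ∈ (graphOfTable A).edgeSet}) ∩
            (limB (fun k (p : Table × (ℕ → I)) => ZZ hF (graphOfTable p.1) o k p.2)) ⁻¹' {true}))) := by
    ext p
    simp only [Rule, Set.mem_preimage, Set.mem_singleton_iff, decide_eq_true_eq, Set.mem_inter_iff,
      Set.mem_ofPred_eq]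
    simp only [limB, decide_eq_true_eq]
  rw [this]
  exact (measurable_fst measurableSet_good).inter
    ((measurable_snd measurableSet_digInj).inter
      ((measurable_fst (measurableSet_mem_edgeSet o)).inter
        (measurable_limB (measurable_ZZ hF o) (measurableSet_singleton true))))

/-! ### Equivariance -/

theorem X_comap {G : SimpleGraph ℕ} (hg : good G) (σ : Equiv.Perm ℕ) (F : Finset (Sym2 ℕ))
    (o : Sym2 ℕ) {x : ℕ → I} (hx : digInj x)
    (hFE : (↑(F.map (symEmb σ)) : Set (Sym2 ℕ)) ⊆ G.edgeSet) :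
    X hF (G.comap σ) F o (x ∘ σ) = X hF G (F.map (symEmb σ)) (Sym2.map σ o) x := by
  unfold X
  rw [tL_comap, vL_comap]
  exact MassSys.out_embed (Mass hF G) (Mass hF (G.comap σ)) (symEmb σ)
    (Mass_comap hF G σ) (tL G x) (vL G x) F o ((tL_injOn hg.2 hx).mono hFE)

theorem XB_comap {G : SimpleGraph ℕ} (hg : good G) (σ : Equiv.Perm ℕ) (o : Sym2 ℕ) (r : ℕ)
    {x : ℕ → I} (hx : digInj x) :
    XB hF (G.comap σ) o r (x ∘ σ) = XB hF G (Sym2.map σ o) r x := by
  unfold XB
  rw [X_comap hF hg σ _ o hx, Fe_comap]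
  rw [Fe_comap]
  exact Fe_subset_edgeSet hg.2 _ _

theorem dd_comap {G : SimpleGraph ℕ} (hg : good G) (σ : Equiv.Perm ℕ) (o : Sym2 ℕ) (r r' : ℕ) :
    dd hF (G.comap σ) o r r' = dd hF G (Sym2.map σ o) r r' := by
  have hm : Measurable (fun x : ℕ → I => x ∘ σ) :=
    measurable_pi_iff.mpr fun a => measurable_pi_apply _
  have hS : MeasurableSet {x : ℕ → I | XB hF (G.comap σ) o r x ≠ XB hF (G.comap σ) o r' x} :=
    (measurableSet_eq_fun (measurable_XB_section hF _ o r) (measurable_XB_section hF _ o r')).compl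
  unfold dd
  conv_lhs => rw [← labelMeasure_comp σ]
  rw [Measure.map_apply hm hS]
  apply measure_congr
  filter_upwards [ae_digInj] with x hx
  apply propext
  show XB hF (G.comap σ) o r (x ∘ σ) ≠ XB hF (G.comap σ) o r' (x ∘ σ) ↔
    XB hF G (Sym2.map σ o) r x ≠ XB hF G (Sym2.map σ o) r' x
  rw [XB_comap hF hg σ o r hx, XB_comap hF hg σ o r' hx]

theorem NN_comap {G : SimpleGraph ℕ} (hg : good G) (σ : Equiv.Perm ℕ) (o : Sym2 ℕ) (k : ℕ) :
    NN hF (G.comap σ) o k = NN hF G (Sym2.map σ o) k := by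
  unfold NN
  simp_rw [dd_comap hF hg σ o]

theorem ZZ_comap {G : SimpleGraph ℕ} (hg : good G) (σ : Equiv.Perm ℕ) (o : Sym2 ℕ) (k : ℕ)
    {x : ℕ → I} (hx : digInj x) :
    ZZ hF (G.comap σ) o k (x ∘ σ) = ZZ hF G (Sym2.map σ o) k x := by
  unfold ZZ
  rw [NN_comap hF hg, XB_comap hF hg σ o _ hx]

/-- The rule commutes with every permutation, on all inputs. -/
theorem Rule_comap (σ : Equiv.Perm ℕ) (G : SimpleGraph ℕ) (x : ℕ → I) :
    Rule hF (G.comap σ) (x ∘ σ) = Rule hF G x ∘ Sym2.map σ := by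
  classical
  funext o
  simp only [Rule, Function.comp]
  apply decide_eq_decide.2
  rw [good_comap_iff, digInj_comp, mem_edgeSet_comap]
  constructor
  · rintro ⟨hg, hx, ho, hL⟩
    refine ⟨hg, hx, ho, ?_⟩
    have : limB (ZZ hF G (Sym2.map σ o)) x = limB (ZZ hF (G.comap σ) o) (x ∘ σ) := by
      simp only [limB, ZZ_comap hF hg σ o _ hx]
    rw [this]; exact hL
  · rintro ⟨hg, hx, ho, hL⟩
    refine ⟨hg, hx, ho, ?_⟩
    have : limB (ZZ hF G (Sym2.map σ o)) x = limB (ZZ hF (G.comap σ) o) (x ∘ σ) := by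
      simp only [limB, ZZ_comap hF hg σ o _ hx]
    rw [← this]; exact hL

end Crest.Agent.SRC.Gr
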