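import Crest.Agent.Lib.SRC.GraphBasic

/-!
Transport of the uniform spanning tree probabilities under a permutation of the vertices, and
measurability in the table (helper7); restriction of mass systems along embeddings.
-/

open MeasureTheory
open Crest.ProbabilityR.GraphTables Crest.ProbabilityR.SpanningTrees

namespace Crest.Agent.SRC.Gr

set_option linter.unusedSectionVars false
set_option linter.unusedSimpArgs false

theorem mem_edgesIn {V : Type*} (G : SimpleGraph V) (S : Finset V) (e : Sym2 V) :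
    e ∈ edgesIn G S ↔ (∀ z ∈ e, z ∈ S) ∧ e ∈ G.edgeSet := by
  classical
  simp [edgesIn, Finset.mem_sym2_iff]

theorem edgesIn_comap (G : SimpleGraph ℕ) (σ : Equiv.Perm ℕ) (S : Finset ℕ) :
    (edgesIn (G.comap σ) S).map (symEmb σ) = edgesIn G (S.map σ.toEmbedding) := by
  ext e
  simp only [Finset.mem_map, mem_edgesIn]
  constructor
  · rintro ⟨e', ⟨h1, h2⟩, rfl⟩
    refine ⟨?_, (mem_edgeSet_comap G σ e').1 h2⟩
    intro z hz
    obtain ⟨y, hy, rfl⟩ := Sym2.mem_map.1 hz
    exact ⟨y, h1 y hy, rfl⟩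
  · rintro ⟨h1, h2⟩
    refine ⟨Sym2.map σ.symm e, ⟨?_, ?_⟩, sym_map_symm σ e⟩
    · intro z hz
      obtain ⟨y, hy, rfl⟩ := Sym2.mem_map.1 hz
      obtain ⟨w, hw, hwy⟩ := h1 y hy
      have : w = σ.symm y := by
        rw [← hwy]; simp
      rwa [← this]
    · rw [mem_edgeSet_comap, sym_map_symm]
      exact h2

/-- The induced graphs of a set of edges and of its image are isomorphic. -/
noncomputable def treeIso (σ : Equiv.Perm ℕ) (S : Finset ℕ) (A : Finset (Sym2 ℕ)) :
    (SimpleGraph.fromEdgeSet (A : Set (Sym2 ℕ))).induce (S : Set ℕ) ≃g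
      (SimpleGraph.fromEdgeSet ((A.map (symEmb σ) : Finset (Sym2 ℕ)) : Set (Sym2 ℕ))).induce
        ((S.map σ.toEmbedding : Finset ℕ) : Set ℕ) where
  toFun := fun u => ⟨σ u.1, by simp⟩
  invFun := fun u => ⟨σ.symm u.1, by
    have := u.2
    simp only [Finset.coe_map, Set.mem_image, Finset.mem_coe, Equiv.coe_toEmbedding] at this
    obtain ⟨y, hy, hyu⟩ := this
    simp only [Finset.mem_coe]
    rw [← hyu]
    simpa using hy⟩
  left_inv := fun u => by simp
  right_inv := fun u => by simp
  map_rel_iff' := by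
    rintro ⟨a, ha⟩ ⟨b, hb⟩
    simp only [Equiv.coe_fn_mk, SimpleGraph.comap_adj, Function.Embedding.subtype_apply,
      SimpleGraph.fromEdgeSet_adj, Finset.coe_map, Set.mem_image, Finset.mem_coe, ne_eq,
      EmbeddingLike.apply_eq_iff_eq]
    constructor
    · rintro ⟨⟨e, he, hee⟩, hne⟩
      refine ⟨?_, hne⟩
      have : e = s(a, b) := by
        apply Sym2.map.injective σ.injective
        rw [Sym2.map_mk]
        exact hee
      rwa [← this]
    · rintro ⟨he, hne⟩
      exact ⟨⟨s(a, b), he, rfl⟩, hne⟩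

theorem isSpanningTreeOn_comap (G : SimpleGraph ℕ) (σ : Equiv.Perm ℕ) (S : Finset ℕ)
    (A : Finset (Sym2 ℕ)) :
    IsSpanningTreeOn (G.comap σ) S A ↔
      IsSpanningTreeOn G (S.map σ.toEmbedding) (A.map (symEmb σ)) := by
  unfold IsSpanningTreeOn
  rw [(treeIso σ S A).isTree_iff, ← edgesIn_comap, Finset.map_subset_map]

theorem map_symm_map (σ : Equiv.Perm ℕ) (A : Finset (Sym2 ℕ)) :
    (A.map (symEmb σ.symm)).map (symEmb σ) = A := by
  ext e
  simp only [Finset.mem_map, symEmb_apply]
  constructor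
  · rintro ⟨a, ⟨b, hb, rfl⟩, rfl⟩
    rwa [sym_map_symm]
  · intro he
    exact ⟨_, ⟨e, he, rfl⟩, sym_map_symm σ e⟩

/-- `ustContains` in terms of `Set.ncard` (no decidability instances). -/
theorem ust_eq {V : Type*} (G : SimpleGraph V) (S : Finset V) (F : Finset (Sym2 V)) :
    ustContains G S F =
      (({A | A ∈ (edgesIn G S).powerset ∧ (IsSpanningTreeOn G S A ∧ F ⊆ A)} :
          Set (Finset (Sym2 V))).ncard : ℝ) /
        (({A | A ∈ (edgesIn G S).powerset ∧ IsSpanningTreeOn G S A} :
          Set (Finset (Sym2 V))).ncard : ℝ) := by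
  classical
  unfold ustContains
  rw [← Set.ncard_coe_finset, ← Set.ncard_coe_finset]
  simp only [Finset.coe_filter]

/-- Transport of the uniform spanning tree probabilities. -/
theorem ustContains_comap (G : SimpleGraph ℕ) (σ : Equiv.Perm ℕ) (S : Finset ℕ)
    (F : Finset (Sym2 ℕ)) :
    ustContains (G.comap σ) S F = ustContains G (S.map σ.toEmbedding) (F.map (symEmb σ)) := by
  have hcard : ∀ (p q : Finset (Sym2 ℕ) → Prop), (∀ A, p A ↔ q (A.map (symEmb σ))) →
      ({A | A ∈ (edgesIn (G.comap σ) S).powerset ∧ p A} : Set (Finset (Sym2 ℕ))).ncard =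
        ({A | A ∈ (edgesIn G (S.map σ.toEmbedding)).powerset ∧ q A} :
          Set (Finset (Sym2 ℕ))).ncard := by
    intro p q hpq
    have himg : (fun A : Finset (Sym2 ℕ) => A.map (symEmb σ)) ''
        {A | A ∈ (edgesIn (G.comap σ) S).powerset ∧ p A} =
        {A | A ∈ (edgesIn G (S.map σ.toEmbedding)).powerset ∧ q A} := by
      ext B
      simp only [Set.mem_image, Set.mem_ofPred_eq, Finset.mem_powerset]
      constructor
      · rintro ⟨A, ⟨hA, hp⟩, rfl⟩
        refine ⟨?_, (hpq A).1 hp⟩
        rw [← edgesIn_comap]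
        exact Finset.map_subset_map.2 hA
      · rintro ⟨hB, hq⟩
        refine ⟨B.map (symEmb σ.symm), ⟨?_, ?_⟩, map_symm_map σ B⟩
        · rw [← Finset.map_subset_map (f := symEmb σ), map_symm_map, edgesIn_comap]
          exact hB
        · rw [hpq, map_symm_map]
          exact hq
    rw [← himg, Set.ncard_image_of_injective _ (Finset.map_injective _)]
  rw [ust_eq, ust_eq,
    hcard (fun A => IsSpanningTreeOn (G.comap σ) S A ∧ F ⊆ A)
      (fun A => IsSpanningTreeOn G (S.map σ.toEmbedding) A ∧ F.map (symEmb σ) ⊆ A)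
      (fun A => by rw [isSpanningTreeOn_comap, Finset.map_subset_map]),
    hcard _ _ (fun A => isSpanningTreeOn_comap G σ S A)]

theorem isSpanningTreeOn_congr {G G' : SimpleGraph ℕ} {S : Finset ℕ}
    (h : edgesIn G S = edgesIn G' S) (A : Finset (Sym2 ℕ)) :
    IsSpanningTreeOn G S A ↔ IsSpanningTreeOn G' S A := by
  unfold IsSpanningTreeOn
  rw [h]

theorem ustContains_congr {G G' : SimpleGraph ℕ} {S : Finset ℕ}
    (h : edgesIn G S = edgesIn G' S) (F : Finset (Sym2 ℕ)) :
    ustContains G S F = ustContains G' S F := by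
  classical
  unfold ustContains
  have hp : (IsSpanningTreeOn G S) = (IsSpanningTreeOn G' S) :=
    funext fun A => propext (isSpanningTreeOn_congr h A)
  rw [h, hp]

/-- A function factoring through a countable measurable map is measurable. -/
theorem measurable_of_factor {Ω β γ : Type*} [MeasurableSpace Ω] [MeasurableSpace γ] [Countable β]
    (h : Ω → β) (hh : ∀ b, MeasurableSet (h ⁻¹' {b})) (f : Ω → γ)
    (hf : ∀ ω ω', h ω = h ω' → f ω = f ω') : Measurable f := by
  intro T hT
  let B : Set β := {b | ∃ ω, h ω = b ∧ f ω ∈ T}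
  have : f ⁻¹' T = ⋃ b ∈ B, h ⁻¹' {b} := by
    ext ω
    simp only [Set.mem_preimage, Set.mem_iUnion, Set.mem_singleton_iff, exists_prop]
    constructor
    · intro hω
      exact ⟨h ω, ⟨ω, rfl, hω⟩, rfl⟩
    · rintro ⟨b, ⟨ω', hω', hω'T⟩, hb⟩
      rw [hf ω ω' (hb.trans hω'.symm)]
      exact hω'T
  rw [this]
  exact MeasurableSet.biUnion (Set.to_countable B) fun b _ => hh b

theorem measurableSet_mem_edgeSet (e : Sym2 ℕ) :
    MeasurableSet {A : Table | e ∈ (graphOfTable A).edgeSet} := by
  induction e using Sym2.ind with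
  | _ a b => simpa using measurableSet_adj a b

theorem measurableSet_edgesIn_eq (S : Finset ℕ) (W : Finset (Sym2 ℕ)) :
    MeasurableSet {A : Table | edgesIn (graphOfTable A) S = W} := by
  classical
  have : {A : Table | edgesIn (graphOfTable A) S = W} =
      ⋂ e : Sym2 ℕ, {A | A ∈ {A | (∀ z ∈ e, z ∈ S) ∧ e ∈ (graphOfTable A).edgeSet} ↔ e ∈ W} := by
    ext A
    simp only [Set.mem_ofPred_eq, Set.mem_iInter, Finset.ext_iff, mem_edgesIn]
  rw [this]
  refine MeasurableSet.iInter fun e => measurableSet_iff_const ?_ _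
  by_cases hz : ∀ z ∈ e, z ∈ S
  · have : {A : Table | (∀ z ∈ e, z ∈ S) ∧ e ∈ (graphOfTable A).edgeSet} =
        {A | e ∈ (graphOfTable A).edgeSet} := by
      ext A
      simp only [Set.mem_ofPred_eq]
      exact ⟨fun h => h.2, fun h => ⟨hz, h⟩⟩
    rw [this]
    exact measurableSet_mem_edgeSet e
  · simp [hz]

/-- The probability along a random piece given by the balls is measurable in the table. -/
theorem measurable_ustContains_vb (n : ℕ) (F : Finset (Sym2 ℕ)) :
    Measurable fun A : Table => ustContains (graphOfTable A) (vb (graphOfTable A) n) F := by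
  refine measurable_of_factor
    (fun A : Table => (vb (graphOfTable A) n, edgesIn (graphOfTable A) (vb (graphOfTable A) n)))
    ?_ _ ?_
  · rintro ⟨S, W⟩
    have : (fun A : Table =>
        (vb (graphOfTable A) n, edgesIn (graphOfTable A) (vb (graphOfTable A) n))) ⁻¹' {(S, W)} =
        {A | vb (graphOfTable A) n = S} ∩ {A | edgesIn (graphOfTable A) S = W} := by
      ext A
      simp only [Set.mem_preimage, Set.mem_singleton_iff, Prod.mk.injEq, Set.mem_inter_iff,
        Set.mem_ofPred_eq]
      constructor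
      · rintro ⟨h1, h2⟩
        rw [h1] at h2
        exact ⟨h1, h2⟩
      · rintro ⟨h1, h2⟩
        rw [h1]
        exact ⟨rfl, h2⟩
    rw [this]
    exact (measurableSet_vb_eq n S).inter (measurableSet_edgesIn_eq S W)
  · intro A A' h
    simp only [Prod.mk.injEq] at h
    obtain ⟨h1, h2⟩ := h
    simp only [h1] at h2 ⊢
    exact ustContains_congr h2 F

end Crest.Agent.SRC.Gr
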