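import Crest.Agent.Lib.SRC.Time

/-!
Tails of the kernel, the recursion for `Ξ`, the Gronwall (Bielecki) iteration.
-/

open MeasureTheory Set
open scoped Classical

namespace Crest.Agent.SRC
open Crest.ProbabilityR.Labels
namespace MassSys

variable {E : Type*} [DecidableEq E] [Countable E] (M : MassSys E) (o : E)

/-- positivity of the volume above `T0` -/
lemma vol_Ioi_pos {T0 : unitInterval} (hT0 : T0 < 1) : 0 < volume (Ioi T0) := by
  rw [unitInterval.volume_Ioi]
  simp only [ENNReal.ofReal_pos, sub_pos]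
  exact_mod_cast (show (T0 : ℝ) < ((1 : unitInterval) : ℝ) from hT0)

lemma vol_Ioi_ne_top {T0 : unitInterval} : volume (Ioi T0) ≠ ⊤ := measure_ne_top _ _

lemma Z_tsum_le (hNC : M.NC) (hROW : M.ROW) (T0 : unitInterval) (h : E) :
    ∑' g, M.Z T0 g h ≤ (volume (Ioi T0))⁻¹ := by
  rw [ENNReal.tsum_eq_iSup_sum]
  apply iSup_le
  intro J
  rw [ENNReal.le_inv_iff_mul_le, mul_comm]
  exact M.Z_sum_le hNC hROW T0 h J

lemma tail_one (hNC : M.NC) (hROW : M.ROW) {T0 : unitInterval} (hT0 : T0 < 1) (h : E) {η : ENNReal}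
    (hη : 0 < η) : ∃ G : Finset E, ∀ J : Finset E, Disjoint J G → ∑ g ∈ J, M.Z T0 g h ≤ η := by
  have hne : ∑' g, M.Z T0 g h ≠ ⊤ := by
    refine ne_top_of_le_ne_top ?_ (M.Z_tsum_le hNC hROW T0 h)
    exact ENNReal.inv_ne_top.2 (vol_Ioi_pos hT0).ne'
  have htd := ENNReal.tendsto_tsum_compl_atTop_zero hne
  obtain ⟨G, hG⟩ := (htd.eventually (gt_mem_nhds hη)).exists
  refine ⟨G, fun J hJ => ?_⟩
  have hp : ∀ x ∈ J, x ∉ G := fun x hx => Finset.disjoint_left.1 hJ hx
  rw [← Finset.sum_subtype_of_mem _ hp]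
  exact (ENNReal.sum_le_tsum _).trans hG.le

lemma tail_finset (hNC : M.NC) (hROW : M.ROW) {T0 : unitInterval} (hT0 : T0 < 1) (H : Finset E)
    {η : ENNReal} (hη : 0 < η) (G0 : Finset E) :
    ∃ G : Finset E, G0 ⊆ G ∧ ∀ h ∈ H, ∀ J : Finset E, Disjoint J G → ∑ g ∈ J, M.Z T0 g h ≤ η := by
  induction H using Finset.induction_on with
  | empty => exact ⟨G0, subset_rfl, by simp⟩
  | insert a H _ ih =>
    obtain ⟨G1, h1, h2⟩ := ih
    obtain ⟨G2, h3⟩ := M.tail_one hNC hROW hT0 a hη
    refine ⟨G1 ∪ G2, h1.trans Finset.subset_union_left, ?_⟩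
    intro h hh J hJ
    rcases Finset.mem_insert.1 hh with rfl | hh
    · exact h3 J (Finset.disjoint_of_subset_right Finset.subset_union_right hJ)
    · exact h2 h hh J (Finset.disjoint_of_subset_right Finset.subset_union_left hJ)

/-! ### The recursion -/

/-- Annealed `Φ`. -/
noncomputable def Th (Y F : Finset E) (s T : unitInterval) (g : E) (r : unitInterval) : ENNReal :=
  ∫⁻ t, ENNReal.ofReal (M.Phi o ((Y \ F).erase g) (F.erase g) s r T t g) ∂(labelMeasure E)

/-- Annealed hop term. -/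
noncomputable def Qh (Y F : Finset E) (s T : unitInterval) (g h : E) (x : unitInterval) : ENNReal :=
  ∫⁻ t, ENNReal.ofReal (M.Psi o ((Y \ F).erase g) ((F.erase g).erase h) s x T t g h) ∂(labelMeasure E)

lemma measurable_Th (Y F : Finset E) (s T : unitInterval) (g : E) : Measurable (M.Th o Y F s T g) :=
  (M.measurable_Phi_x o _ _ s T g).lintegral_prod_right'

lemma measurable_Qh (Y F : Finset E) (s T : unitInterval) (g h : E) : Measurable (M.Qh o Y F s T g h) :=
  (M.measurable_Psi_x o _ _ s T g h).lintegral_prod_right'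

lemma Th_le_one (Y F : Finset E) (s T : unitInterval) (g : E) (r : unitInterval) :
    M.Th o Y F s T g r ≤ 1 := by
  refine (lintegral_mono (g := fun _ => (1 : ENNReal)) ?_).trans_eq (by simp)
  intro t
  show ENNReal.ofReal _ ≤ 1
  rw [← ENNReal.ofReal_one]
  exact ENNReal.ofReal_le_ofReal (M.Phi_le_one o _ _ _ _ _ _ _)

section
variable {Y F : Finset E} {s T T0 : unitInterval}

lemma Th_le (hNC : M.NC) (hF : F ⊆ Y) (ho : o ∉ Y) {g : E} (hg : g ∈ Y) (hs : s ≤ T0) (hT : T ≤ T0)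
    {r : unitInterval} (hr : r ≤ T) :
    M.Th o Y F s T g r ≤ 2 * M.Z T0 g o +
      2 * ∑ h ∈ F.erase g, ∫⁻ x, (Ico r T).indicator (fun _ => (1 : ENNReal)) x *
        M.Qh o Y F s T g h x ∂(volume : Measure unitInterval) := by
  have hAB : Disjoint ((Y \ F).erase g) (F.erase g) := by
    rw [Finset.disjoint_left]
    intro e he he'
    exact (Finset.mem_sdiff.1 (Finset.mem_of_mem_erase he)).2 (Finset.mem_of_mem_erase he')
  have hgo : g ≠ o := ne_of_mem_of_not_mem hg ho
  refine (M.lint_Phi_le o hAB s r T hr g).trans ?_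
  refine add_le_add ?_ le_rfl
  have hsub1 : (Y \ F).erase g ⊆ Y := (Finset.erase_subset _ _).trans Finset.sdiff_subset
  have hsub2 : F.erase g ⊆ Y := (Finset.erase_subset _ _).trans hF
  refine (M.base_bound o hNC hgo hsub1 hsub2 (Finset.notMem_erase _ _) (Finset.notMem_erase _ _) ?_ ?_
    hs hT).trans ?_
  · exact fun hc => ho (hsub1 hc)
  · exact fun hc => ho (hsub2 hc)
  · gcongr
    exact M.Zf_le_Z T0 Y hgo

lemma near_H (hNC : M.NC) (hF : F ⊆ Y) {g h : E} (hgh : g ≠ h) (hh : h ∈ F) (hs : s ≤ T0) (hT : T ≤ T0)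
    (r : unitInterval) :
    ∫⁻ x, (Ico r T).indicator (fun _ => (1 : ENNReal)) x * M.Qh o Y F s T g h x
      ∂(volume : Measure unitInterval) ≤ M.Z T0 g h := by
  have hsub1 : (Y \ F).erase g ⊆ Y := (Finset.erase_subset _ _).trans Finset.sdiff_subset
  have hsub2 : (F.erase g).erase h ⊆ Y :=
    ((Finset.erase_subset _ _).trans (Finset.erase_subset _ _)).trans hF
  have hpt : ∀ x, (Ico r T).indicator (fun _ => (1 : ENNReal)) x * M.Qh o Y F s T g h x ≤
      (Ico r T).indicator (fun _ => (1 : ENNReal)) x * M.Z T0 g h := by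
    intro x
    by_cases hx : x ∈ Ico r T
    · simp only [hx, Set.indicator_of_mem, one_mul]
      refine le_trans ?_ (M.Zf_le_Z T0 Y hgh)
      apply M.near_bound o hNC hgh hsub1 hsub2 _ _ _ _ hs (hx.2.le.trans hT)
      · exact Finset.notMem_erase _ _
      · intro hc; exact (Finset.notMem_erase g F) (Finset.mem_of_mem_erase hc)
      · intro hc; exact (Finset.mem_sdiff.1 (Finset.mem_of_mem_erase hc)).2 hh
      · exact Finset.notMem_erase _ _
    · simp [hx]
  refine (lintegral_mono hpt).trans ?_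
  rw [lintegral_mul_const _ (measurable_ind r T), lintegral_indicator measurableSet_Ico]
  simp only [lintegral_const, MeasurableSet.univ, Measure.restrict_apply, univ_inter, one_mul]
  calc volume (Ico r T) * M.Z T0 g h ≤ 1 * M.Z T0 g h := by
        gcongr
        exact prob_le_one
    _ = _ := one_mul _

lemma far_H (hNC : M.NC) (hROW : M.ROW) {h : E} (hh : h ∈ F) {J : Finset E} (hJ : h ∉ J)
    (hs : s ≤ T0) (hT : T ≤ T0) (r : unitInterval) :
    volume (Ioi T0) * ∑ g ∈ J, ∫⁻ x, (Ico r T).indicator (fun _ => (1 : ENNReal)) x *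
      M.Qh o Y F s T g h x ∂(volume : Measure unitInterval) ≤
      ∫⁻ x, (Ico r T).indicator (fun _ => (1 : ENNReal)) x * M.Th o Y F s T h x
        ∂(volume : Measure unitInterval) := by
  have hm : ∀ g ∈ J, Measurable (fun x => (Ico r T).indicator (fun _ => (1 : ENNReal)) x *
      M.Qh o Y F s T g h x) := fun g _ => (measurable_ind r T).mul (M.measurable_Qh o Y F s T g h)
  rw [← lintegral_finsetSum _ hm, ← lintegral_const_mul _ (Finset.measurable_sum _ hm)]
  apply lintegral_mono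
  intro x
  show volume (Ioi T0) * ∑ g ∈ J, (Ico r T).indicator (fun _ => (1 : ENNReal)) x * M.Qh o Y F s T g h x ≤
    (Ico r T).indicator (fun _ => (1 : ENNReal)) x * M.Th o Y F s T h x
  by_cases hx : x ∈ Ico r T
  · simp only [hx, Set.indicator_of_mem, one_mul]
    have hfar := M.far_bound o hNC hROW (A := (Y \ F).erase h) (B := F.erase h) (h := h)
      (Finset.notMem_erase _ _) (Finset.notMem_erase _ _) hJ hs (hx.2.le.trans hT) hT
    refine le_trans (le_of_eq ?_) hfar
    congr 1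
    apply Finset.sum_congr rfl
    intro g _
    unfold Qh
    have e1 : ((Y \ F).erase h).erase g = (Y \ F).erase g := by
      rw [Finset.erase_eq_of_notMem (a := h) (s := Y \ F) (fun hc => (Finset.mem_sdiff.1 hc).2 hh)]
    have e2 : (F.erase h).erase g = (F.erase g).erase h := Finset.erase_right_comm
    rw [e1, e2]
  · simp [hx]

/-- The recursion for `Ξ`. -/
lemma Xi_rec (hNC : M.NC) (hROW : M.ROW) {T0 : unitInterval} (hT0 : T0 < 1) (hF : F ⊆ Y) (ho : o ∉ Y)
    (hs : s ≤ T0) (hT : T ≤ T0) {r : unitInterval} (hr : r ≤ T) (G G1 : Finset E) :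
    ∑ g ∈ Y \ G, M.Th o Y F s T g r ≤
      2 * ∑ g ∈ Y \ G, M.Z T0 g o + 2 * ∑ h ∈ G1, ∑ g ∈ Y \ G, M.Z T0 g h +
      2 * ((volume (Ioi T0))⁻¹ * ∫⁻ x, (Ico r T).indicator (fun _ => (1 : ENNReal)) x *
        ∑ h ∈ Y \ G1, M.Th o Y F s T h x ∂(volume : Measure unitInterval)) := by
  set H : E → E → ENNReal := fun g h => ∫⁻ x, (Ico r T).indicator (fun _ => (1 : ENNReal)) x *
        M.Qh o Y F s T g h x ∂(volume : Measure unitInterval) with hH
  have h1 : ∑ g ∈ Y \ G, M.Th o Y F s T g r ≤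
      ∑ g ∈ Y \ G, (2 * M.Z T0 g o + 2 * ∑ h ∈ F.erase g, H g h) :=
    Finset.sum_le_sum fun g hg => M.Th_le o hNC hF ho (Finset.mem_sdiff.1 hg).1 hs hT hr
  refine h1.trans ?_
  rw [Finset.sum_add_distrib, ← Finset.mul_sum, ← Finset.mul_sum]
  rw [add_assoc]
  refine add_le_add (le_refl (2 * ∑ g ∈ Y \ G, M.Z T0 g o)) ?_
  rw [← mul_add (2 : ENNReal)]
  refine mul_le_mul' (le_refl (2 : ENNReal)) ?_
  -- swap the sums
  have e1 : ∑ g ∈ Y \ G, ∑ h ∈ F.erase g, H g h = ∑ h ∈ F, ∑ g ∈ (Y \ G).erase h, H g h := by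
    apply Finset.sum_comm'
    intro g h
    simp only [Finset.mem_erase]
    tauto
  rw [e1, ← Finset.sum_inter_add_sum_sdiff F G1]
  apply add_le_add
  · -- near
    have hsub : F ∩ G1 ⊆ G1 := Finset.inter_subset_right
    refine le_trans (Finset.sum_le_sum ?_) (Finset.sum_le_sum_of_subset hsub)
    intro h hh
    have hhF : h ∈ F := (Finset.mem_inter.1 hh).1
    refine le_trans (Finset.sum_le_sum ?_) (Finset.sum_le_sum_of_subset (Finset.erase_subset h (Y \ G)))
    intro g hg
    exact M.near_H o hNC hF (Finset.ne_of_mem_erase hg) hhF hs hT r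
  · -- far
    have hVne := (vol_Ioi_pos hT0).ne'
    have h2 : ∀ h ∈ F \ G1, ∑ g ∈ (Y \ G).erase h, H g h ≤ (volume (Ioi T0))⁻¹ *
        ∫⁻ x, (Ico r T).indicator (fun _ => (1 : ENNReal)) x * M.Th o Y F s T h x
          ∂(volume : Measure unitInterval) := by
      intro h hh
      have := M.far_H o hNC hROW (Y := Y) (Finset.mem_sdiff.1 hh).1 (Finset.notMem_erase h (Y \ G)) hs hT r
      rw [← ENNReal.div_eq_inv_mul, ENNReal.le_div_iff_mul_le (Or.inl hVne) (Or.inl vol_Ioi_ne_top), mul_comm]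
      exact this
    refine (Finset.sum_le_sum h2).trans ?_
    rw [← Finset.mul_sum]
    gcongr
    have hm : ∀ h ∈ F \ G1, Measurable (fun x => (Ico r T).indicator (fun _ => (1 : ENNReal)) x *
        M.Th o Y F s T h x) := fun h _ => (measurable_ind r T).mul (M.measurable_Th o Y F s T h)
    rw [← lintegral_finsetSum _ hm]
    apply lintegral_mono
    intro x
    show ∑ h ∈ F \ G1, (Ico r T).indicator (fun _ => (1 : ENNReal)) x * M.Th o Y F s T h x ≤ _
    rw [← Finset.mul_sum]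
    refine mul_le_mul' (le_refl _) ?_
    exact Finset.sum_le_sum_of_subset (Finset.sdiff_subset_sdiff hF subset_rfl)

end

end MassSys
end Crest.Agent.SRC
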