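import Crest.Agent.Lib.SRC.Gron

/-!
The Gronwall (Bielecki) iteration.
-/

open MeasureTheory Set
open scoped Classical

namespace Crest.Agent.SRC
open Crest.ProbabilityR.Labels

/-- exponential integral bound -/
lemma lintegral_exp_le {c : ℝ} (hc : 0 < c) (r T : unitInterval) (hrT : r ≤ T) :
    ∫⁻ x, (Ico r T).indicator (fun _ => (1 : ENNReal)) x *
        ENNReal.ofReal (Real.exp (c * ((T : ℝ) - x))) ∂(volume : Measure unitInterval) ≤
      ENNReal.ofReal (Real.exp (c * ((T : ℝ) - r)) / c) := by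
  set f : ℝ → ENNReal := (Ico (r : ℝ) T).indicator (fun y => ENNReal.ofReal (Real.exp (c * ((T : ℝ) - y))))
    with hf
  have hfm : Measurable f := by
    apply Measurable.indicator _ measurableSet_Ico
    fun_prop
  have e1 : ∀ x : unitInterval, (Ico r T).indicator (fun _ => (1 : ENNReal)) x *
      ENNReal.ofReal (Real.exp (c * ((T : ℝ) - x))) = f x := by
    intro x
    by_cases hx : x ∈ Ico r T
    · have hx' : (x : ℝ) ∈ Ico (r : ℝ) T := ⟨hx.1, hx.2⟩
      simp [hf, hx, hx']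
    · have hx' : (x : ℝ) ∉ Ico (r : ℝ) T := fun h => hx ⟨h.1, h.2⟩
      simp [hf, hx, hx']
  simp only [e1]
  rw [unitInterval.measurePreserving_coe.lintegral_comp hfm]
  refine (lintegral_mono' Measure.restrict_le_self le_rfl).trans ?_
  rw [hf, lintegral_indicator measurableSet_Ico]
  have hrT' : (r : ℝ) ≤ T := hrT
  have hint : ∫ y in (r : ℝ)..T, Real.exp (c * ((T : ℝ) - y)) = (Real.exp (c * ((T : ℝ) - r)) - 1) / c := by
    have hd : ∀ y ∈ uIcc (r : ℝ) T, HasDerivAt (fun y => - Real.exp (c * ((T : ℝ) - y)) / c)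
        (Real.exp (c * ((T : ℝ) - y))) y := by
      intro y _
      have h1 : HasDerivAt (fun y : ℝ => c * ((T : ℝ) - y)) (c * (0 - 1)) y :=
        ((hasDerivAt_const y (T : ℝ)).sub (hasDerivAt_id y)).const_mul c
      have h2 := (h1.exp.neg).div_const c
      refine HasDerivAt.congr_deriv (f' := -(Real.exp (c * ((T : ℝ) - y)) * (c * (0 - 1))) / c) h2 ?_
      field_simp
      ring
    rw [intervalIntegral.integral_eq_sub_of_hasDerivAt hd (Continuous.intervalIntegrable (by fun_prop) _ _)]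
    simp
    field_simp
    ring
  have hcont : Continuous fun y : ℝ => Real.exp (c * ((T : ℝ) - y)) := by fun_prop
  have hion : IntegrableOn (fun y : ℝ => Real.exp (c * ((T : ℝ) - y))) (Ico (r : ℝ) T) :=
    (hcont.integrableOn_Icc (a := (r : ℝ)) (b := T)).mono_set Ico_subset_Icc_self
  rw [← ofReal_integral_eq_lintegral_ofReal hion (Filter.Eventually.of_forall fun _ => (Real.exp_pos _).le)]
  apply ENNReal.ofReal_le_ofReal
  rw [integral_Ico_eq_integral_Ioc, ← intervalIntegral.integral_of_le hrT', hint]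
  apply div_le_div_of_nonneg_right _ hc.le
  linarith

namespace MassSys

variable {E : Type*} [DecidableEq E] [Countable E] (M : MassSys E) (o : E)

/-- Abstract Gronwall step. -/
lemma bielecki_step {L C : ℝ} (hL : 0 < L) (hC : 0 ≤ C) {T r : unitInterval} (hr : r ≤ T)
    {X' : unitInterval → ENNReal}
    (hX' : ∀ x, x ≤ T → X' x ≤ ENNReal.ofReal (C * Real.exp (2 * L * ((T : ℝ) - x)))) :
    ENNReal.ofReal L * ∫⁻ x, (Ico r T).indicator (fun _ => (1 : ENNReal)) x * X' x
      ∂(volume : Measure unitInterval) ≤ ENNReal.ofReal (C / 2 * Real.exp (2 * L * ((T : ℝ) - r))) := by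
  have h1 : ∫⁻ x, (Ico r T).indicator (fun _ => (1 : ENNReal)) x * X' x ∂(volume : Measure unitInterval) ≤
      ∫⁻ x, ENNReal.ofReal C * ((Ico r T).indicator (fun _ => (1 : ENNReal)) x *
        ENNReal.ofReal (Real.exp (2 * L * ((T : ℝ) - x)))) ∂(volume : Measure unitInterval) := by
    apply lintegral_mono
    intro x
    show _ ≤ ENNReal.ofReal C * _
    by_cases hx : x ∈ Ico r T
    · simp only [hx, Set.indicator_of_mem, one_mul]
      rw [← ENNReal.ofReal_mul hC]
      exact hX' x hx.2.le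
    · simp [hx]
  have hm : Measurable (fun x : unitInterval => (Ico r T).indicator (fun _ => (1 : ENNReal)) x *
        ENNReal.ofReal (Real.exp (2 * L * ((T : ℝ) - x)))) := by
    refine (measurable_ind r T).mul ?_
    fun_prop
  rw [lintegral_const_mul _ hm] at h1
  have h2 := lintegral_exp_le (c := 2 * L) (by positivity) r T hr
  calc _ ≤ ENNReal.ofReal L * (ENNReal.ofReal C * ENNReal.ofReal (Real.exp (2 * L * ((T : ℝ) - r)) / (2 * L))) := by
        gcongr
        exact h1.trans (by gcongr)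
    _ = _ := by
        rw [← ENNReal.ofReal_mul hC, ← ENNReal.ofReal_mul hL.le]
        congr 1
        field_simp

/-- Uniform bound predicate. -/
def Good (T0 : unitInterval) (L : ℝ) (G : Finset E) (C : ℝ) : Prop :=
  ∀ (Y F : Finset E) (s T : unitInterval), F ⊆ Y → o ∉ Y → s ≤ T0 → T ≤ T0 → ∀ r, r ≤ T →
    ∑ g ∈ Y \ G, M.Th o Y F s T g r ≤ ENNReal.ofReal (C * Real.exp (2 * L * ((T : ℝ) - r)))

/-- The constant `L`. -/
noncomputable def Lc (T0 : unitInterval) : ℝ := 2 / (1 - (T0 : ℝ))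

lemma one_sub_pos {T0 : unitInterval} (hT0 : T0 < 1) : 0 < 1 - (T0 : ℝ) := by
  have : (T0 : ℝ) < ((1 : unitInterval) : ℝ) := hT0
  simpa using this

lemma Lc_pos {T0 : unitInterval} (hT0 : T0 < 1) : 0 < Lc T0 :=
  div_pos (by norm_num) (one_sub_pos hT0)

lemma two_mul_inv_vol {T0 : unitInterval} (hT0 : T0 < 1) :
    2 * (volume (Ioi T0))⁻¹ = ENNReal.ofReal (Lc T0) := by
  rw [unitInterval.volume_Ioi, Lc, ENNReal.ofReal_div_of_pos (one_sub_pos hT0), div_eq_mul_inv]
  simp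

lemma exp_ge_one {L : ℝ} (hL : 0 < L) {T r : unitInterval} (hr : r ≤ T) :
    1 ≤ Real.exp (2 * L * ((T : ℝ) - r)) := by
  apply Real.one_le_exp
  have : (r : ℝ) ≤ T := hr
  have : 0 ≤ (T : ℝ) - r := by linarith
  positivity

/-- One step of the iteration at fixed data. -/
lemma step_fixed (hNC : M.NC) (hROW : M.ROW) {T0 : unitInterval} (hT0 : T0 < 1)
    {Y F : Finset E} {s T : unitInterval} (hF : F ⊆ Y) (ho : o ∉ Y) (hs : s ≤ T0) (hT : T ≤ T0)
    {G G1 : Finset E} {C η : ℝ} (hC : 0 ≤ C) (hη : 0 ≤ η)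
    (hX : ∀ x, x ≤ T → ∑ g ∈ Y \ G1, M.Th o Y F s T g x ≤
      ENNReal.ofReal (C * Real.exp (2 * Lc T0 * ((T : ℝ) - x))))
    (hsm : 2 * ∑ g ∈ Y \ G, M.Z T0 g o + 2 * ∑ h ∈ G1, ∑ g ∈ Y \ G, M.Z T0 g h ≤ ENNReal.ofReal η)
    {r : unitInterval} (hr : r ≤ T) :
    ∑ g ∈ Y \ G, M.Th o Y F s T g r ≤
      ENNReal.ofReal ((η + C / 2) * Real.exp (2 * Lc T0 * ((T : ℝ) - r))) := by
  have hL := Lc_pos hT0
  have h1 := M.Xi_rec o hNC hROW hT0 hF ho hs hT hr G G1
  refine h1.trans ?_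
  have h2 := bielecki_step hL hC hr hX
  have hexp := exp_ge_one hL hr
  rw [← mul_assoc, two_mul_inv_vol hT0]
  calc _ ≤ ENNReal.ofReal η + ENNReal.ofReal (C / 2 * Real.exp (2 * Lc T0 * ((T : ℝ) - r))) :=
        add_le_add hsm h2
    _ ≤ ENNReal.ofReal (η * Real.exp (2 * Lc T0 * ((T : ℝ) - r))) +
        ENNReal.ofReal (C / 2 * Real.exp (2 * Lc T0 * ((T : ℝ) - r))) := by
        gcongr
        nlinarith
    _ = _ := by
        rw [← ENNReal.ofReal_add (by positivity) (by positivity)]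
        congr 1
        ring

lemma good_mono {T0 : unitInterval} {L : ℝ} {G : Finset E} {C C' : ℝ} (h : M.Good o T0 L G C) (hC : C ≤ C') :
    M.Good o T0 L G C' := by
  intro Y F s T hF ho hs hT r hr
  refine (h Y F s T hF ho hs hT r hr).trans ?_
  apply ENNReal.ofReal_le_ofReal
  exact mul_le_mul_of_nonneg_right hC (Real.exp_pos _).le

/-- A universal bound without a tail. -/
lemma good_empty (hNC : M.NC) (hROW : M.ROW) {T0 : unitInterval} (hT0 : T0 < 1) :
    M.Good o T0 (Lc T0) ∅ (2 * Lc T0 + 1) := by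
  intro Y F s T hF ho hs hT r hr
  have hL := Lc_pos hT0
  simp only [Finset.sdiff_empty]
  -- bound of the source term
  have hsm : 2 * ∑ g ∈ Y \ ∅, M.Z T0 g o + 2 * ∑ h ∈ (∅ : Finset E), ∑ g ∈ Y \ ∅, M.Z T0 g h ≤
      ENNReal.ofReal (Lc T0) := by
    simp only [Finset.sum_empty, mul_zero, add_zero]
    rw [← two_mul_inv_vol hT0]
    gcongr
    rw [ENNReal.le_inv_iff_mul_le, mul_comm]
    exact M.Z_sum_le hNC hROW T0 o _
  have key : ∀ n : ℕ, ∀ x, x ≤ T → ∑ g ∈ Y \ ∅, M.Th o Y F s T g x ≤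
      ENNReal.ofReal ((2 * Lc T0 + (Y.card : ℝ) / 2 ^ n) * Real.exp (2 * Lc T0 * ((T : ℝ) - x))) := by
    intro n
    induction n with
    | zero =>
      intro x hx
      have h1 : ∑ g ∈ Y \ ∅, M.Th o Y F s T g x ≤ Y.card := by
        simp only [Finset.sdiff_empty]
        refine (Finset.sum_le_sum (fun g _ => M.Th_le_one o Y F s T g x)).trans ?_
        simp
      refine h1.trans ?_
      have hexp := exp_ge_one hL hx
      have : ((Y.card : ℝ)) ≤ (2 * Lc T0 + (Y.card : ℝ) / 2 ^ 0) * Real.exp (2 * Lc T0 * ((T : ℝ) - x)) := by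
        have hc : (0 : ℝ) ≤ Y.card := Nat.cast_nonneg _
        simp only [pow_zero, div_one]
        nlinarith [mul_pos hL (Real.exp_pos (2 * Lc T0 * ((T : ℝ) - x)))]
      calc (Y.card : ENNReal) = ENNReal.ofReal (Y.card : ℝ) := by simp
        _ ≤ _ := ENNReal.ofReal_le_ofReal this
    | succ n ih =>
      intro x hx
      have hC : 0 ≤ 2 * Lc T0 + (Y.card : ℝ) / 2 ^ n := by positivity
      have := M.step_fixed o hNC hROW hT0 hF ho hs hT hC hL.le ih hsm hx
      convert this using 3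
      rw [pow_succ]
      field_simp
      ring
  obtain ⟨n, hn⟩ : ∃ n : ℕ, (Y.card : ℝ) / 2 ^ n ≤ 1 := by
    obtain ⟨n, hn⟩ := pow_unbounded_of_one_lt (Y.card : ℝ) (by norm_num : (1 : ℝ) < 2)
    refine ⟨n, ?_⟩
    rw [div_le_one (by positivity)]
    exact hn.le
  have h := key n r hr
  simp only [Finset.sdiff_empty] at h
  refine h.trans ?_
  apply ENNReal.ofReal_le_ofReal
  exact mul_le_mul_of_nonneg_right (by linarith) (Real.exp_pos _).le

/-- The inductive step. -/
lemma good_step (hNC : M.NC) (hROW : M.ROW) {T0 : unitInterval} (hT0 : T0 < 1) {G1 : Finset E} {C η : ℝ}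
    (hC : 0 ≤ C) (hη : 0 < η) (h : M.Good o T0 (Lc T0) G1 C) :
    ∃ G, G1 ⊆ G ∧ M.Good o T0 (Lc T0) G (η + C / 2) := by
  set ε : ℝ := η / (2 + 2 * G1.card) with hε
  have hεpos : 0 < ε := by positivity
  obtain ⟨G, hG1, hG⟩ := M.tail_finset hNC hROW hT0 (insert o G1) (η := ENNReal.ofReal ε)
    (ENNReal.ofReal_pos.2 hεpos) G1
  refine ⟨G, hG1, ?_⟩
  intro Y F s T hF ho hs hT r hr
  refine M.step_fixed o hNC hROW hT0 hF ho hs hT hC hη.le (fun x hx => h Y F s T hF ho hs hT x hx) ?_ hr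
  have hdis : Disjoint (Y \ G) G := Finset.sdiff_disjoint
  have h1 : ∑ g ∈ Y \ G, M.Z T0 g o ≤ ENNReal.ofReal ε := hG o (Finset.mem_insert_self _ _) _ hdis
  have h2 : ∑ h ∈ G1, ∑ g ∈ Y \ G, M.Z T0 g h ≤ G1.card * ENNReal.ofReal ε := by
    rw [← nsmul_eq_mul]
    apply Finset.sum_le_card_nsmul
    intro h hh
    exact hG h (Finset.mem_insert_of_mem hh) _ hdis
  calc _ ≤ 2 * ENNReal.ofReal ε + 2 * (G1.card * ENNReal.ofReal ε) := by gcongr
    _ = ENNReal.ofReal ((2 + 2 * G1.card) * ε) := by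
        have e2 : (2 : ENNReal) = ENNReal.ofReal 2 := by simp
        have e3 : (G1.card : ENNReal) = ENNReal.ofReal (G1.card : ℝ) := by simp
        rw [e2, e3, ← ENNReal.ofReal_mul (by positivity), ← ENNReal.ofReal_mul (by positivity),
          ← ENNReal.ofReal_mul (by positivity), ← ENNReal.ofReal_add (by positivity) (by positivity)]
        congr 1
        ring
    _ = _ := by
        congr 1
        rw [hε]
        field_simp

/-- Uniform smallness. -/
lemma good_all (hNC : M.NC) (hROW : M.ROW) {T0 : unitInterval} (hT0 : T0 < 1) {δ : ℝ} (hδ : 0 < δ) :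
    ∃ G, M.Good o T0 (Lc T0) G δ := by
  have hL := Lc_pos hT0
  set K0 := 2 * Lc T0 + 1 with hK0
  have hK0pos : 0 < K0 := by positivity
  have key : ∀ n : ℕ, ∃ G, M.Good o T0 (Lc T0) G (δ / 2 + K0 / 2 ^ n) := by
    intro n
    induction n with
    | zero =>
      refine ⟨∅, M.good_mono o (M.good_empty o hNC hROW hT0) ?_⟩
      simp only [pow_zero, div_one]
      linarith
    | succ n ih =>
      obtain ⟨G1, hG1⟩ := ih
      have hC : 0 ≤ δ / 2 + K0 / 2 ^ n := by positivity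
      obtain ⟨G, _, hG⟩ := M.good_step o hNC hROW hT0 hC (by positivity : 0 < δ / 4) hG1
      refine ⟨G, M.good_mono o hG (le_of_eq ?_)⟩
      rw [pow_succ]
      field_simp
      ring
  obtain ⟨n, hn⟩ : ∃ n : ℕ, K0 / 2 ^ n ≤ δ / 2 := by
    obtain ⟨n, hn⟩ := pow_unbounded_of_one_lt (K0 / (δ / 2)) (by norm_num : (1 : ℝ) < 2)
    refine ⟨n, ?_⟩
    rw [div_lt_iff₀ (by positivity)] at hn
    rw [div_le_iff₀ (by positivity)]
    linarith
  obtain ⟨G, hG⟩ := key n
  exact ⟨G, M.good_mono o hG (by linarith)⟩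

end MassSys
end Crest.Agent.SRC
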