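import Crest.Agent.Lib.SRC.Defs

/-!
Basic facts on the label measure: resampling one coordinate, the label trick, ties have measure zero,
the integral of a function of two thresholds.
-/

open MeasureTheory Set

namespace Crest.Agent.SRC

open Crest.ProbabilityR.Labels

instance instIsProbLabel (E : Type*) : IsProbabilityMeasure (labelMeasure E) := by
  unfold labelMeasure; infer_instance

section
variable {E : Type*} [DecidableEq E]

/-- Replacing a coordinate with a fresh uniform label preserves the label measure. -/
theorem map_update_labelMeasure (h : E) :
    ((labelMeasure E).prod (volume : Measure unitInterval)).map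
      (fun p : (E → unitInterval) × unitInterval => Function.update p.1 h p.2) = labelMeasure E := by
  unfold labelMeasure
  apply Measure.eq_infinitePi
  intro s A hA
  have hm : Measurable (fun p : (E → unitInterval) × unitInterval => Function.update p.1 h p.2) :=
    measurable_update' (X := fun _ : E => unitInterval) (a := h)
  have hpi : MeasurableSet (Set.pi (s : Set E) A) :=
    MeasurableSet.pi s.countable_toSet (fun i _ => hA i)
  rw [Measure.map_apply hm hpi]
  by_cases hh : h ∈ s
  · have e : (fun p : (E → unitInterval) × unitInterval => Function.update p.1 h p.2) ⁻¹' Set.pi (s : Set E) A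
        = (Set.pi ((s.erase h : Finset E) : Set E) A) ×ˢ (A h) := by
      ext ⟨t, x⟩
      simp only [mem_preimage, Set.mem_pi, Finset.mem_coe, mem_prod, Finset.mem_erase]
      constructor
      · intro H
        refine ⟨fun i hi => ?_, ?_⟩
        · have := H i hi.2
          rwa [Function.update_of_ne hi.1] at this
        · have := H h hh
          rwa [Function.update_self] at this
      · rintro ⟨H1, H2⟩ i hi
        by_cases e : i = h
        · subst e; simpa using H2
        · rw [Function.update_of_ne e]; exact H1 i ⟨e, hi⟩
    rw [e, Measure.prod_prod, Measure.infinitePi_pi _ (fun i _ => hA i), Finset.prod_erase_mul _ _ hh]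
  · have e : (fun p : (E → unitInterval) × unitInterval => Function.update p.1 h p.2) ⁻¹' Set.pi (s : Set E) A
        = (Set.pi (s : Set E) A) ×ˢ Set.univ := by
      ext ⟨t, x⟩
      simp only [mem_preimage, Set.mem_pi, Finset.mem_coe, mem_prod, mem_univ, and_true]
      constructor
      · intro H i hi
        have := H i hi
        rwa [Function.update_of_ne (ne_of_mem_of_not_mem hi hh)] at this
      · intro H i hi
        rw [Function.update_of_ne (ne_of_mem_of_not_mem hi hh)]
        exact H i hi
    rw [e, Measure.prod_prod, Measure.infinitePi_pi _ (fun i _ => hA i), measure_univ, mul_one]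

/-- Resampling identity. -/
theorem lintegral_resample (h : E) {f : (E → unitInterval) → ENNReal} (hf : Measurable f) :
    ∫⁻ t, f t ∂(labelMeasure E) =
      ∫⁻ t, ∫⁻ x, f (Function.update t h x) ∂(volume : Measure unitInterval) ∂(labelMeasure E) := by
  conv_lhs => rw [← map_update_labelMeasure h]
  have hm : Measurable (fun p : (E → unitInterval) × unitInterval => Function.update p.1 h p.2) :=
    measurable_update' (X := fun _ : E => unitInterval) (a := h)
  rw [lintegral_map hf hm]
  exact lintegral_prod (fun a : (E → unitInterval) × unitInterval => f (Function.update a.1 h a.2))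
    (hf.comp hm).aemeasurable

/-- A function with a separate parameter for the `h`-coordinate: Fubini. -/
theorem lintegral_coord_param (h : E) {G : unitInterval → (E → unitInterval) → ENNReal}
    (hG : Measurable (fun p : unitInterval × (E → unitInterval) => G p.1 p.2))
    (hind : ∀ x t y, G x (Function.update t h y) = G x t) :
    ∫⁻ t, G (t h) t ∂(labelMeasure E) =
      ∫⁻ x, ∫⁻ t, G x t ∂(labelMeasure E) ∂(volume : Measure unitInterval) := by
  have hf : Measurable (fun t : E → unitInterval => G (t h) t) :=
    Measurable.comp (g := fun p : unitInterval × (E → unitInterval) => G p.1 p.2)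
      (f := fun t : E → unitInterval => (t h, t)) hG ((measurable_pi_apply h).prodMk measurable_id)
  rw [lintegral_resample h hf]
  have e : ∀ t x, G ((Function.update t h x) h) (Function.update t h x) = G x t := by
    intro t x
    rw [Function.update_self, hind]
  simp only [e]
  rw [lintegral_lintegral_swap]
  exact (hG.comp (measurable_snd.prodMk measurable_fst)).aemeasurable

/-- Label trick: if `f` does not depend on the label of `g`. -/
theorem lintegral_label_trick (g : E) {f : (E → unitInterval) → ENNReal} (hf : Measurable f)
    (hind : ∀ t y, f (Function.update t g y) = f t) (S : Set unitInterval) (hS : MeasurableSet S) :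
    ∫⁻ t, S.indicator (fun _ => (1 : ENNReal)) (t g) * f t ∂(labelMeasure E) =
      (volume S) * ∫⁻ t, f t ∂(labelMeasure E) := by
  have := lintegral_coord_param (E := E) g
    (G := fun x t => S.indicator (fun _ => (1 : ENNReal)) x * f t) ?_ ?_
  · rw [this]
    have e : ∀ x : unitInterval, ∫⁻ t, S.indicator (fun _ => (1 : ENNReal)) x * f t ∂(labelMeasure E)
        = S.indicator (fun _ => (1 : ENNReal)) x * ∫⁻ t, f t ∂(labelMeasure E) := by
      intro x
      rw [lintegral_const_mul _ hf]
    simp only [e]
    rw [lintegral_mul_const _ ((measurable_const.indicator hS))]
    congr 1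
    rw [lintegral_indicator hS]
    simp
  · exact ((measurable_const.indicator hS).comp measurable_fst).mul (hf.comp measurable_snd)
  · intro x t y
    simp only [hind]

/-- Ties have measure zero. -/
theorem ae_ne_labels {e f : E} (hef : e ≠ f) : ∀ᵐ t ∂(labelMeasure E), t e ≠ t f := by
  rw [ae_iff]
  simp only [not_not]
  have hS : MeasurableSet {t : E → unitInterval | t e = t f} :=
    measurableSet_eq_fun (measurable_pi_apply e) (measurable_pi_apply f)
  have h1 := lintegral_indicator_one (μ := labelMeasure E) hS
  rw [← h1]
  rw [lintegral_resample e (measurable_one.indicator hS)]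
  have key : ∀ t : E → unitInterval,
      ∫⁻ x, ({t | t e = t f} : Set (E → unitInterval)).indicator 1 (Function.update t e x)
        ∂(volume : Measure unitInterval) = 0 := by
    intro t
    have e1 : (fun x : unitInterval =>
        ({t | t e = t f} : Set (E → unitInterval)).indicator (1 : (E → unitInterval) → ENNReal) (Function.update t e x))
        = ({t f} : Set unitInterval).indicator 1 := by
      funext x
      by_cases hx : x = t f
      · subst hx
        simp [Set.indicator, Function.update_of_ne hef.symm]
      · simp [Set.indicator, Function.update_of_ne hef.symm, hx]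
    rw [e1, lintegral_indicator_one (measurableSet_singleton _)]
    simp
  simp only [key]
  simp

end
end Crest.Agent.SRC
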