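import Crest.Agent.Lib.SRC.SplitD
import Crest.Prelude.Def_StronglyRayleigh

/-!
Limit of the chain outputs along a fast subsequence, factor map on a group, and its law.
All inputs on the chain (Cauchy property, exact law, measurability, transport) are hypotheses here.
-/

open MeasureTheory Crest.ProbabilityR.Labels Crest.ProbabilityR.StronglyRayleigh

namespace Crest.Agent.SRC

lemma measurableSet_forall_eq {E Ω : Type*} [MeasurableSpace Ω] (P : Finset E) (f : E → Ω → Bool)
    (hf : ∀ e, Measurable (f e)) (b : Bool) : MeasurableSet {x | ∀ e ∈ P, f e x = b} := by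
  have : {x | ∀ e ∈ P, f e x = b} = ⋂ e ∈ P, f e ⁻¹' {b} := by
    ext x; simp
  rw [this]
  exact Finset.measurableSet_biInter _ fun e _ => hf e (measurableSet_singleton b)

lemma measurableSet_pattern {E Ω : Type*} [MeasurableSpace Ω] (P Q : Finset E) (f : E → Ω → Bool)
    (hf : ∀ e, Measurable (f e)) :
    MeasurableSet {x | (∀ e ∈ P, f e x = true) ∧ (∀ e ∈ Q, f e x = false)} :=
  (measurableSet_forall_eq P f hf true).inter (measurableSet_forall_eq Q f hf false)

namespace MassSys

variable {E : Type*} [DecidableEq E] (M : MassSys E)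

/-- Marginals of the exact law of the chain. -/
theorem out_marginalD
    (hlaw : ∀ F P : Finset E, P ⊆ F →
      muL E {x | (∀ e ∈ P, M.out x.1 x.2 F e = true) ∧ (∀ e ∈ F \ P, M.out x.1 x.2 F e = false)}
        = ENNReal.ofReal (M.m P (F \ P)))
    (hmeas : ∀ (F : Finset E) (o : E), Measurable fun x : (E → unitInterval) × (E → unitInterval) =>
      M.out x.1 x.2 F o)
    (Y : Finset E) : ∀ (n : ℕ) (P Q : Finset E), P ⊆ Y → Q ⊆ Y → Disjoint P Q →
      (Y \ (P ∪ Q)).card = n →
      muL E {x | (∀ e ∈ P, M.out x.1 x.2 Y e = true) ∧ (∀ e ∈ Q, M.out x.1 x.2 Y e = false)}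
        = ENNReal.ofReal (M.m P Q) := by
  intro n
  induction n with
  | zero =>
    intro P Q hP hQ hPQ hc
    have hY : Y \ P = Q := by
      have h0 : Y \ (P ∪ Q) = ∅ := Finset.card_eq_zero.mp hc
      ext e
      simp only [Finset.mem_sdiff]
      constructor
      · rintro ⟨he, heP⟩
        by_contra heQ
        have : e ∈ Y \ (P ∪ Q) := by
          simp [he, heP, heQ]
        rw [h0] at this
        simp at this
      · intro he
        exact ⟨hQ he, Finset.disjoint_right.mp hPQ he⟩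
    have := hlaw Y P hP
    rwa [hY] at this
  | succ n ih =>
    intro P Q hP hQ hPQ hc
    have hne : (Y \ (P ∪ Q)).Nonempty := by
      rw [← Finset.card_pos]; omega
    obtain ⟨g, hg⟩ := hne
    have hgY : g ∈ Y := (Finset.mem_sdiff.mp hg).1
    have hgP : g ∉ P := fun h => (Finset.mem_sdiff.mp hg).2 (Finset.mem_union_left _ h)
    have hgQ : g ∉ Q := fun h => (Finset.mem_sdiff.mp hg).2 (Finset.mem_union_right _ h)
    have hcard1 : (Y \ (insert g P ∪ Q)).card = n := by
      have : Y \ (insert g P ∪ Q) = (Y \ (P ∪ Q)).erase g := by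
        ext e; simp only [Finset.mem_sdiff, Finset.mem_union, Finset.mem_insert, Finset.mem_erase]
        tauto
      rw [this, Finset.card_erase_of_mem hg, hc]; rfl
    have hcard2 : (Y \ (P ∪ insert g Q)).card = n := by
      have : Y \ (P ∪ insert g Q) = (Y \ (P ∪ Q)).erase g := by
        ext e; simp only [Finset.mem_sdiff, Finset.mem_union, Finset.mem_insert, Finset.mem_erase]
        tauto
      rw [this, Finset.card_erase_of_mem hg, hc]; rfl
    have h1 := ih (insert g P) Q (Finset.insert_subset hgY hP) hQ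
      (Finset.disjoint_insert_left.mpr ⟨hgQ, hPQ⟩) hcard1
    have h2 := ih P (insert g Q) hP (Finset.insert_subset hgY hQ)
      (Finset.disjoint_insert_right.mpr ⟨hgP, hPQ⟩) hcard2
    have hU : {x : (E → unitInterval) × (E → unitInterval) |
        (∀ e ∈ P, M.out x.1 x.2 Y e = true) ∧ (∀ e ∈ Q, M.out x.1 x.2 Y e = false)} =
        {x | (∀ e ∈ insert g P, M.out x.1 x.2 Y e = true) ∧ (∀ e ∈ Q, M.out x.1 x.2 Y e = false)} ∪
        {x | (∀ e ∈ P, M.out x.1 x.2 Y e = true) ∧
          (∀ e ∈ insert g Q, M.out x.1 x.2 Y e = false)} := by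
      ext x
      simp only [Set.mem_ofPred_eq, Set.mem_union, Finset.mem_insert, forall_eq_or_imp]
      cases hx : M.out x.1 x.2 Y g <;> simp
    have hD : Disjoint
        {x : (E → unitInterval) × (E → unitInterval) |
          (∀ e ∈ insert g P, M.out x.1 x.2 Y e = true) ∧ (∀ e ∈ Q, M.out x.1 x.2 Y e = false)}
        {x | (∀ e ∈ P, M.out x.1 x.2 Y e = true) ∧
          (∀ e ∈ insert g Q, M.out x.1 x.2 Y e = false)} := by
      rw [Set.disjoint_left]
      rintro x ⟨h3, _⟩ ⟨_, h4⟩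
      have h5 := h3 g (Finset.mem_insert_self _ _)
      have h6 := h4 g (Finset.mem_insert_self _ _)
      rw [h5] at h6
      exact absurd h6 (by simp)
    rw [hU, measure_union hD (measurableSet_pattern _ _
      (fun e (x : (E → unitInterval) × (E → unitInterval)) => M.out x.1 x.2 Y e)
      (fun e => hmeas Y e)), h1, h2, ← ENNReal.ofReal_add (M.nonneg _ _) (M.nonneg _ _),
      ← M.split]

/-- The limit along a sequence of finite sets, in eventually-true form. -/
noncomputable def limOut (G : ℕ → Finset E) (o : E)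
    (x : (E → unitInterval) × (E → unitInterval)) : Bool :=
  open Classical in decide (∃ K, ∀ k, K ≤ k → M.out x.1 x.2 (G k) o = true)

theorem measurable_limOut
    (hmeas : ∀ (F : Finset E) (o : E), Measurable fun x : (E → unitInterval) × (E → unitInterval) =>
      M.out x.1 x.2 F o)
    (G : ℕ → Finset E) (o : E) : Measurable (M.limOut G o) := by
  refine measurable_to_bool ?_
  have : M.limOut G o ⁻¹' {true} =
      ⋃ K : ℕ, ⋂ k : ℕ, ⋂ _ : K ≤ k, (fun x : (E → unitInterval) × (E → unitInterval) =>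
        M.out x.1 x.2 (G k) o) ⁻¹' {true} := by
    ext x
    simp [limOut]
  rw [this]
  exact MeasurableSet.iUnion fun K => MeasurableSet.iInter fun k => MeasurableSet.iInter fun _ =>
    hmeas (G k) o (measurableSet_singleton true)

lemma limOut_eq_of_stable (G : ℕ → Finset E) (o : E)
    (x : (E → unitInterval) × (E → unitInterval)) (k : ℕ)
    (h : ∀ j, M.out x.1 x.2 (G (k + j)) o = M.out x.1 x.2 (G (k + j + 1)) o) :
    M.limOut G o x = M.out x.1 x.2 (G k) o := by
  have hall : ∀ j, M.out x.1 x.2 (G (k + j)) o = M.out x.1 x.2 (G k) o := by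
    intro j
    induction j with
    | zero => rfl
    | succ j ih => rw [← add_assoc, ← h j, ih]
  have hall' : ∀ k', k ≤ k' → M.out x.1 x.2 (G k') o = M.out x.1 x.2 (G k) o := by
    intro k' hk'
    obtain ⟨j, rfl⟩ := Nat.exists_eq_add_of_le hk'
    exact hall j
  cases hb : M.out x.1 x.2 (G k) o with
  | true =>
    simp only [limOut, decide_eq_true_eq]
    exact ⟨k, fun k' hk' => by rw [hall' k' hk', hb]⟩
  | false =>
    simp only [limOut, decide_eq_false_iff_not, not_exists, not_forall]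
    intro K
    refine ⟨max K k, le_max_left _ _, ?_⟩
    rw [hall' _ (le_max_right _ _), hb]
    simp

theorem muL_limOut_ne (G : ℕ → Finset E) (o : E)
    (hfast : ∀ k, muL E {x | M.out x.1 x.2 (G k) o ≠ M.out x.1 x.2 (G (k + 1)) o} ≤ (2⁻¹ : ENNReal) ^ k)
    (k : ℕ) : muL E {x | M.limOut G o x ≠ M.out x.1 x.2 (G k) o} ≤ 2 * (2⁻¹ : ENNReal) ^ k := by
  have hsub : {x : (E → unitInterval) × (E → unitInterval) |
      M.limOut G o x ≠ M.out x.1 x.2 (G k) o} ⊆
      ⋃ j : ℕ, {x | M.out x.1 x.2 (G (k + j)) o ≠ M.out x.1 x.2 (G (k + j + 1)) o} := by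
    intro x hx
    by_contra hcon
    simp only [Set.mem_iUnion, Set.mem_ofPred_eq, not_exists, not_not] at hcon
    exact hx (M.limOut_eq_of_stable G o x k hcon)
  calc muL E {x | M.limOut G o x ≠ M.out x.1 x.2 (G k) o}
      ≤ muL E (⋃ j : ℕ, {x | M.out x.1 x.2 (G (k + j)) o ≠ M.out x.1 x.2 (G (k + j + 1)) o}) :=
        measure_mono hsub
    _ ≤ ∑' j : ℕ, muL E {x | M.out x.1 x.2 (G (k + j)) o ≠ M.out x.1 x.2 (G (k + j + 1)) o} :=
        measure_iUnion_le _
    _ ≤ ∑' j : ℕ, (2⁻¹ : ENNReal) ^ (k + j) := ENNReal.tsum_le_tsum fun j => hfast (k + j)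
    _ = 2 * (2⁻¹ : ENNReal) ^ k := by
        simp_rw [pow_add]
        rw [ENNReal.tsum_mul_left, ENNReal.tsum_geometric, ENNReal.one_sub_inv_two, inv_inv, mul_comm]

/-- Fast subsequence from the Cauchy property. -/
theorem exists_fast (o : E)
    (hcauchy : ∀ δ : ℝ, 0 < δ → ∃ F0 : Finset E, ∀ F Y : Finset E, F0 ⊆ F → F0 ⊆ Y →
      muL E {x | M.out x.1 x.2 F o ≠ M.out x.1 x.2 Y o} ≤ ENNReal.ofReal δ) :
    ∃ G : ℕ → Finset E, (∀ k, G k ⊆ G (k + 1)) ∧ ∀ (k : ℕ) (Y : Finset E), G k ⊆ Y →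
      muL E {x | M.out x.1 x.2 (G k) o ≠ M.out x.1 x.2 Y o} ≤ (2⁻¹ : ENNReal) ^ k := by
  have hpos : ∀ k : ℕ, (0 : ℝ) < (1 / 2) ^ k := fun k => by positivity
  choose F0 hF0 using fun k : ℕ => hcauchy _ (hpos k)
  refine ⟨fun k => (Finset.range (k + 1)).biUnion F0, ?_, ?_⟩
  · intro k
    exact Finset.biUnion_subset_biUnion_of_subset_left _
      (Finset.range_subset_range.mpr (Nat.le_succ _))
  · intro k Y hY
    have h1 : F0 k ⊆ (Finset.range (k + 1)).biUnion F0 :=
      Finset.subset_biUnion_of_mem F0 (Finset.mem_range.mpr (Nat.lt_succ_self k))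
    refine (hF0 k _ Y h1 (h1.trans hY)).trans (le_of_eq ?_)
    rw [ENNReal.ofReal_pow (by norm_num)]
    congr 1
    rw [one_div, ENNReal.ofReal_inv_of_pos (by norm_num)]
    simp

end MassSys

section Group

variable {Γ : Type*} [Group Γ] [DecidableEq Γ] (M : MassSys Γ)

/-- The limit output at site `h`: run the limit chain for `1` on the labels seen from `h`. -/
noncomputable def psiOut (G : ℕ → Finset Γ) (h : Γ)
    (x : (Γ → unitInterval) × (Γ → unitInterval)) : Bool :=
  M.limOut G 1 (x.1 ∘ Equiv.mulLeft h, x.2 ∘ Equiv.mulLeft h)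

theorem measurable_psiOut
    (hmeas : ∀ (F : Finset Γ) (o : Γ), Measurable fun x : (Γ → unitInterval) × (Γ → unitInterval) =>
      M.out x.1 x.2 F o) (G : ℕ → Finset Γ) (h : Γ) : Measurable (psiOut M G h) := by
  refine (M.measurable_limOut hmeas G 1).comp ?_
  refine Measurable.prodMk ?_ ?_
  · exact measurable_pi_lambda _ fun e => (measurable_pi_apply _).comp measurable_fst
  · exact measurable_pi_lambda _ fun e => (measurable_pi_apply _).comp measurable_snd

/-- Transport of the chain under left multiplication. -/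
def MassSys.LeftTransport : Prop :=
  ∀ (h : Γ) (t v : Γ → unitInterval) (F : Finset Γ) (o : Γ),
    Set.InjOn t (F.map (Equiv.mulLeft h).toEmbedding : Finset Γ) →
    M.out (t ∘ Equiv.mulLeft h) (v ∘ Equiv.mulLeft h) F o =
      M.out t v (F.map (Equiv.mulLeft h).toEmbedding) (h * o)

omit [Group Γ] [DecidableEq Γ] in
theorem ae_injOn_fst (F : Finset Γ) : ∀ᵐ x ∂(muL Γ), Set.InjOn x.1 (F : Set Γ) :=
  Measure.quasiMeasurePreserving_fst.ae (ae_injOn_labels F)

lemma measurableSet_ne_bool {Ω : Type*} [MeasurableSpace Ω] {f g : Ω → Bool} (hf : Measurable f)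
    (hg : Measurable g) : MeasurableSet {x | f x ≠ g x} := by
  have : {x | f x ≠ g x} = (f ⁻¹' {true} ∩ g ⁻¹' {false}) ∪ (f ⁻¹' {false} ∩ g ⁻¹' {true}) := by
    ext x
    simp only [Set.mem_ofPred_eq, Set.mem_union, Set.mem_inter_iff, Set.mem_preimage,
      Set.mem_singleton_iff]
    cases f x <;> cases g x <;> simp
  rw [this]
  exact ((hf (measurableSet_singleton _)).inter (hg (measurableSet_singleton _))).union
    ((hf (measurableSet_singleton _)).inter (hg (measurableSet_singleton _)))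

theorem muL_psi_ne (htr : M.LeftTransport)
    (hmeas : ∀ (F : Finset Γ) (o : Γ), Measurable fun x : (Γ → unitInterval) × (Γ → unitInterval) =>
      M.out x.1 x.2 F o) (G : ℕ → Finset Γ) {c : ENNReal} {h : Γ} {Y : Finset Γ}
    (hc : muL Γ {y | M.limOut G 1 y ≠
      M.out y.1 y.2 (Y.map (Equiv.mulLeft h).symm.toEmbedding) 1} ≤ c) :
    muL Γ {x | psiOut M G h x ≠ M.out x.1 x.2 Y h} ≤ c := by
  set ι : Γ ≃ Γ := Equiv.mulLeft h with hι
  set Y' := Y.map ι.symm.toEmbedding with hY'
  have hY : Y'.map ι.toEmbedding = Y := by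
    ext e
    simp [hY', Finset.mem_map_equiv]
  let T : (Γ → unitInterval) × (Γ → unitInterval) → (Γ → unitInterval) × (Γ → unitInterval) :=
    fun x => (x.1 ∘ ι, x.2 ∘ ι)
  have hT : Measurable T := by
    refine Measurable.prodMk ?_ ?_
    · exact measurable_pi_lambda _ fun e => (measurable_pi_apply _).comp measurable_fst
    · exact measurable_pi_lambda _ fun e => (measurable_pi_apply _).comp measurable_snd
  have hS : MeasurableSet {y : (Γ → unitInterval) × (Γ → unitInterval) |
      M.limOut G 1 y ≠ M.out y.1 y.2 Y' 1} :=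
    measurableSet_ne_bool (M.measurable_limOut hmeas G 1) (hmeas Y' 1)
  have hpres : muL Γ (T ⁻¹' {y | M.limOut G 1 y ≠ M.out y.1 y.2 Y' 1}) =
      muL Γ {y | M.limOut G 1 y ≠ M.out y.1 y.2 Y' 1} := by
    rw [← Measure.map_apply hT hS]
    have hmapT : (muL Γ).map T = muL Γ := map_comp_equiv_muL ι
    rw [hmapT]
  rw [← hpres] at hc
  refine le_trans (measure_mono_ae ?_) hc
  filter_upwards [ae_injOn_fst (Γ := Γ) Y] with x hx hne
  have h1 : M.out (x.1 ∘ ι) (x.2 ∘ ι) Y' 1 = M.out x.1 x.2 Y h := by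
    have := htr h x.1 x.2 Y' 1 (by rw [← hι, hY]; exact hx)
    rw [mul_one, ← hι, hY] at this
    exact this
  change M.limOut G 1 (x.1 ∘ ι, x.2 ∘ ι) ≠ M.out (x.1 ∘ ι) (x.2 ∘ ι) Y' 1
  rw [h1]
  exact hne

/-- The law of the limit outputs. -/
theorem law_psi (htr : M.LeftTransport)
    (hlaw : ∀ F P : Finset Γ, P ⊆ F →
      muL Γ {x | (∀ e ∈ P, M.out x.1 x.2 F e = true) ∧ (∀ e ∈ F \ P, M.out x.1 x.2 F e = false)}
        = ENNReal.ofReal (M.m P (F \ P)))
    (hmeas : ∀ (F : Finset Γ) (o : Γ), Measurable fun x : (Γ → unitInterval) × (Γ → unitInterval) =>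
      M.out x.1 x.2 F o) (G : ℕ → Finset Γ) (hmono : ∀ k, G k ⊆ G (k + 1))
    (hG : ∀ (k : ℕ) (Y : Finset Γ), G k ⊆ Y →
      muL Γ {x | M.out x.1 x.2 (G k) 1 ≠ M.out x.1 x.2 Y 1} ≤ (2⁻¹ : ENNReal) ^ k)
    (P Q : Finset Γ) (hPQ : Disjoint P Q) :
    muL Γ {x | (∀ i ∈ P, psiOut M G i x = true) ∧ (∀ i ∈ Q, psiOut M G i x = false)} =
      ENNReal.ofReal (M.m P Q) := by
  set A := {x : (Γ → unitInterval) × (Γ → unitInterval) |
    (∀ i ∈ P, psiOut M G i x = true) ∧ (∀ i ∈ Q, psiOut M G i x = false)} with hA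
  set N : ENNReal := ((P ∪ Q).card : ENNReal) with hN
  have hNtop : N ≠ ⊤ := ENNReal.natCast_ne_top _
  have hfast : ∀ k, muL Γ {x | M.out x.1 x.2 (G k) 1 ≠ M.out x.1 x.2 (G (k + 1)) 1} ≤
      (2⁻¹ : ENNReal) ^ k := fun k => hG k _ (hmono k)
  -- comparison with a large finite chain
  have hkey : ∀ k : ℕ, muL Γ A ≤ ENNReal.ofReal (M.m P Q) + N * (3 * (2⁻¹ : ENNReal) ^ k) ∧
      ENNReal.ofReal (M.m P Q) ≤ muL Γ A + N * (3 * (2⁻¹ : ENNReal) ^ k) := by
    intro k
    set Y : Finset Γ := (P ∪ Q) ∪ (P ∪ Q).biUnion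
      (fun h => (G k).map (Equiv.mulLeft h).toEmbedding) with hY
    have hsite : ∀ h ∈ P ∪ Q, muL Γ {x | psiOut M G h x ≠ M.out x.1 x.2 Y h} ≤
        3 * (2⁻¹ : ENNReal) ^ k := by
      intro h hh
      refine muL_psi_ne M htr hmeas G ?_
      set Y' := Y.map (Equiv.mulLeft h).symm.toEmbedding with hY'
      have hsub : G k ⊆ Y' := by
        intro e he
        rw [hY', Finset.mem_map_equiv]
        simp only [Equiv.symm_symm, Equiv.coe_mulLeft]
        rw [hY]
        refine Finset.mem_union_right _ (Finset.mem_biUnion.mpr ⟨h, hh, ?_⟩)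
        exact Finset.mem_map_of_mem _ he
      have h1 := M.muL_limOut_ne G 1 hfast k
      have h2 := hG k Y' hsub
      have hsubset : {y : (Γ → unitInterval) × (Γ → unitInterval) |
          M.limOut G 1 y ≠ M.out y.1 y.2 Y' 1} ⊆
          {y | M.limOut G 1 y ≠ M.out y.1 y.2 (G k) 1} ∪
          {y | M.out y.1 y.2 (G k) 1 ≠ M.out y.1 y.2 Y' 1} := by
        intro y hy
        by_contra hcon
        simp only [Set.mem_union, Set.mem_ofPred_eq, not_or, not_not] at hcon
        exact hy (hcon.1.trans hcon.2)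
      calc muL Γ _ ≤ _ := measure_mono hsubset
        _ ≤ _ := measure_union_le _ _
        _ ≤ 2 * (2⁻¹ : ENNReal) ^ k + (2⁻¹ : ENNReal) ^ k := add_le_add h1 h2
        _ = 3 * (2⁻¹ : ENNReal) ^ k := by ring
    set D := ⋃ h ∈ P ∪ Q, {x : (Γ → unitInterval) × (Γ → unitInterval) |
      psiOut M G h x ≠ M.out x.1 x.2 Y h} with hD
    have hDle : muL Γ D ≤ N * (3 * (2⁻¹ : ENNReal) ^ k) := by
      calc muL Γ D ≤ ∑ h ∈ P ∪ Q, muL Γ {x | psiOut M G h x ≠ M.out x.1 x.2 Y h} :=
            measure_biUnion_finset_le _ _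
        _ ≤ ∑ _h ∈ P ∪ Q, 3 * (2⁻¹ : ENNReal) ^ k := Finset.sum_le_sum hsite
        _ = N * (3 * (2⁻¹ : ENNReal) ^ k) := by
            rw [Finset.sum_const, nsmul_eq_mul]
    have hPY : P ⊆ Y := fun e he => Finset.mem_union_left _ (Finset.mem_union_left _ he)
    have hQY : Q ⊆ Y := fun e he => Finset.mem_union_left _ (Finset.mem_union_right _ he)
    have hB := M.out_marginalD hlaw hmeas Y _ P Q hPY hQY hPQ rfl
    set B := {x : (Γ → unitInterval) × (Γ → unitInterval) |
      (∀ e ∈ P, M.out x.1 x.2 Y e = true) ∧ (∀ e ∈ Q, M.out x.1 x.2 Y e = false)} with hBdef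
    have hnotD : ∀ x, x ∉ D → ∀ h ∈ P ∪ Q, psiOut M G h x = M.out x.1 x.2 Y h := by
      intro x hx h hh
      by_contra hne
      exact hx (Set.mem_biUnion hh hne)
    have hAB : A ⊆ B ∪ D := by
      intro x hx
      by_cases hxD : x ∈ D
      · exact Or.inr hxD
      · refine Or.inl ⟨fun e he => ?_, fun e he => ?_⟩
        · rw [← hnotD x hxD e (Finset.mem_union_left _ he)]; exact hx.1 e he
        · rw [← hnotD x hxD e (Finset.mem_union_right _ he)]; exact hx.2 e he
    have hBA : B ⊆ A ∪ D := by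
      intro x hx
      by_cases hxD : x ∈ D
      · exact Or.inr hxD
      · refine Or.inl ⟨fun e he => ?_, fun e he => ?_⟩
        · rw [hnotD x hxD e (Finset.mem_union_left _ he)]; exact hx.1 e he
        · rw [hnotD x hxD e (Finset.mem_union_right _ he)]; exact hx.2 e he
    constructor
    · calc muL Γ A ≤ muL Γ (B ∪ D) := measure_mono hAB
        _ ≤ muL Γ B + muL Γ D := measure_union_le _ _
        _ ≤ _ := by rw [hB]; gcongr
    · calc ENNReal.ofReal (M.m P Q) = muL Γ B := hB.symm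
        _ ≤ muL Γ (A ∪ D) := measure_mono hBA
        _ ≤ muL Γ A + muL Γ D := measure_union_le _ _
        _ ≤ _ := by gcongr
  have htend : Filter.Tendsto (fun k : ℕ => N * (3 * (2⁻¹ : ENNReal) ^ k)) Filter.atTop (nhds 0) := by
    have h0 : Filter.Tendsto (fun k : ℕ => (2⁻¹ : ENNReal) ^ k) Filter.atTop (nhds 0) :=
      ENNReal.tendsto_pow_atTop_nhds_zero_of_lt_one (by simp)
    have h1 := ENNReal.Tendsto.const_mul (a := 3) h0 (Or.inr (by simp))
    have h2 := ENNReal.Tendsto.const_mul (a := N) h1 (Or.inr hNtop)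
    simpa using h2
  apply le_antisymm
  · have h := htend.const_add (ENNReal.ofReal (M.m P Q))
    rw [add_zero] at h
    exact ge_of_tendsto' h fun k => (hkey k).1
  · have h := htend.const_add (muL Γ A)
    rw [add_zero] at h
    exact ge_of_tendsto' h fun k => (hkey k).2

/-- The factor map. -/
noncomputable def factorMap (G : ℕ → Finset Γ) (u : Γ → unitInterval) (h : Γ) : Bool :=
  psiOut M G h (splitMap Γ u)

theorem factorMap_shift (G : ℕ → Finset Γ) (g : Γ) (u : Γ → unitInterval) :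
    factorMap M G (leftShift g u) = leftShift g (factorMap M G u) := by
  funext h
  simp only [factorMap, psiOut, leftShift, splitMap]
  congr 2
  · funext e
    simp [mul_assoc]
  · funext e
    simp [mul_assoc]

theorem measurable_factorMap
    (hmeas : ∀ (F : Finset Γ) (o : Γ), Measurable fun x : (Γ → unitInterval) × (Γ → unitInterval) =>
      M.out x.1 x.2 F o) (G : ℕ → Finset Γ) : Measurable (factorMap M G) :=
  measurable_pi_lambda _ fun h => (measurable_psiOut M hmeas G h).comp (measurable_splitMap Γ)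

theorem law_factorMap (htr : M.LeftTransport)
    (hlaw : ∀ F P : Finset Γ, P ⊆ F →
      muL Γ {x | (∀ e ∈ P, M.out x.1 x.2 F e = true) ∧ (∀ e ∈ F \ P, M.out x.1 x.2 F e = false)}
        = ENNReal.ofReal (M.m P (F \ P)))
    (hmeas : ∀ (F : Finset Γ) (o : Γ), Measurable fun x : (Γ → unitInterval) × (Γ → unitInterval) =>
      M.out x.1 x.2 F o) (G : ℕ → Finset Γ) (hmono : ∀ k, G k ⊆ G (k + 1))
    (hG : ∀ (k : ℕ) (Y : Finset Γ), G k ⊆ Y →
      muL Γ {x | M.out x.1 x.2 (G k) 1 ≠ M.out x.1 x.2 Y 1} ≤ (2⁻¹ : ENNReal) ^ k)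
    (P Q : Finset Γ) (hPQ : Disjoint P Q) :
    labelMeasure Γ {u | (∀ i ∈ P, factorMap M G u i = true) ∧ (∀ i ∈ Q, factorMap M G u i = false)} =
      ENNReal.ofReal (M.m P Q) := by
  have hS : MeasurableSet {x : (Γ → unitInterval) × (Γ → unitInterval) |
      (∀ i ∈ P, psiOut M G i x = true) ∧ (∀ i ∈ Q, psiOut M G i x = false)} :=
    measurableSet_pattern P Q (fun i x => psiOut M G i x) (fun i => measurable_psiOut M hmeas G i)
  have h1 := Measure.map_apply (μ := labelMeasure Γ) (measurable_splitMap Γ) hS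
  rw [map_split_eq_muL, law_psi M htr hlaw hmeas G hmono hG P Q hPQ] at h1
  exact h1.symm

/-- Two probability measures on configurations with the same masses agree. -/
theorem measure_ext_of_cyl {ι : Type*} {ν₁ ν₂ : Measure (ι → Bool)} [IsProbabilityMeasure ν₁]
    [IsProbabilityMeasure ν₂]
    (h : ∀ P Q : Finset ι, Disjoint P Q →
      ν₁ {ω | (∀ i ∈ P, ω i = true) ∧ ∀ i ∈ Q, ω i = false} =
        ν₂ {ω | (∀ i ∈ P, ω i = true) ∧ ∀ i ∈ Q, ω i = false}) : ν₁ = ν₂ := by
  classical
  set C : Set (Set (ι → Bool)) := {s | ∃ P Q : Finset ι, Disjoint P Q ∧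
    s = {ω | (∀ i ∈ P, ω i = true) ∧ ∀ i ∈ Q, ω i = false}} with hC
  have hpi : IsPiSystem C := by
    rintro _ ⟨P, Q, hPQ, rfl⟩ _ ⟨P', Q', hPQ', rfl⟩ hne
    refine ⟨P ∪ P', Q ∪ Q', ?_, ?_⟩
    · obtain ⟨ω, ⟨h1, h2⟩, h3, h4⟩ := hne
      rw [Finset.disjoint_left]
      intro e he he'
      have hT : ω e = true := by
        rcases Finset.mem_union.mp he with h | h
        · exact h1 e h
        · exact h3 e h
      have hF : ω e = false := by
        rcases Finset.mem_union.mp he' with h | h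
        · exact h2 e h
        · exact h4 e h
      rw [hT] at hF
      exact absurd hF (by simp)
    · ext ω
      simp only [Set.mem_inter_iff, Set.mem_ofPred_eq, Finset.mem_union]
      constructor
      · rintro ⟨⟨h1, h2⟩, h3, h4⟩
        exact ⟨fun i hi => hi.elim (h1 i) (h3 i), fun i hi => hi.elim (h2 i) (h4 i)⟩
      · rintro ⟨h1, h2⟩
        exact ⟨⟨fun i hi => h1 i (Or.inl hi), fun i hi => h2 i (Or.inl hi)⟩,
          fun i hi => h1 i (Or.inr hi), fun i hi => h2 i (Or.inr hi)⟩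
  have hgen : (MeasurableSpace.pi : MeasurableSpace (ι → Bool)) = MeasurableSpace.generateFrom C := by
    apply le_antisymm
    · refine iSup_le fun i => ?_
      rw [MeasurableSpace.comap_le_iff_le_map]
      intro s _
      have hi : MeasurableSet[MeasurableSpace.generateFrom C] {ω : ι → Bool | ω i = true} := by
        refine MeasurableSpace.measurableSet_generateFrom ⟨{i}, ∅, by simp, ?_⟩
        ext ω; simp
      have hi' : Measurable[MeasurableSpace.generateFrom C] (fun ω : ι → Bool => ω i) :=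
        @measurable_to_bool _ (MeasurableSpace.generateFrom C) _ (by
          have : (fun ω : ι → Bool => ω i) ⁻¹' {true} = {ω : ι → Bool | ω i = true} := by
            ext ω; simp
          rw [this]; exact hi)
      exact hi' (MeasurableSpace.measurableSet_top (s := s))
    · refine MeasurableSpace.generateFrom_le ?_
      rintro _ ⟨P, Q, _, rfl⟩
      exact measurableSet_pattern P Q (fun i (ω : ι → Bool) => ω i) (fun i => measurable_pi_apply i)
  refine ext_of_generate_finite C hgen hpi ?_ (by simp)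
  rintro _ ⟨P, Q, hPQ, rfl⟩
  exact h P Q hPQ

/-- The assembly: the hypotheses on the chain give an equivariant factor of the labels with the
right masses. -/
theorem exists_factor_of_chain (htr : M.LeftTransport)
    (hcauchy : ∀ δ : ℝ, 0 < δ → ∃ F0 : Finset Γ, ∀ F Y : Finset Γ, F0 ⊆ F → F0 ⊆ Y →
      muL Γ {x | M.out x.1 x.2 F 1 ≠ M.out x.1 x.2 Y 1} ≤ ENNReal.ofReal δ)
    (hlaw : ∀ F P : Finset Γ, P ⊆ F →
      muL Γ {x | (∀ e ∈ P, M.out x.1 x.2 F e = true) ∧ (∀ e ∈ F \ P, M.out x.1 x.2 F e = false)}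
        = ENNReal.ofReal (M.m P (F \ P)))
    (hmeas : ∀ (F : Finset Γ) (o : Γ), Measurable fun x : (Γ → unitInterval) × (Γ → unitInterval) =>
      M.out x.1 x.2 F o) :
    ∃ Φ : (Γ → unitInterval) → (Γ → Bool), Measurable Φ ∧
      (∀ (g : Γ) (u : Γ → unitInterval), Φ (leftShift g u) = leftShift g (Φ u)) ∧
      ∀ P Q : Finset Γ, Disjoint P Q →
        labelMeasure Γ {u | (∀ i ∈ P, Φ u i = true) ∧ (∀ i ∈ Q, Φ u i = false)} =
          ENNReal.ofReal (M.m P Q) := by
  obtain ⟨G, hmono, hG⟩ := M.exists_fast 1 hcauchy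
  exact ⟨factorMap M G, measurable_factorMap M hmeas G, factorMap_shift M G,
    law_factorMap M htr hlaw hmeas G hmono hG⟩

end Group

end Crest.Agent.SRC
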