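import Crest.Agent.Lib.SRC.Defs

/-!
Deterministic core for S0254/S0255: the pair functional `V`, the deferral functional `W`,
the recursion `W_f[c; g::l] ≤ E_y W_f[(c,y); l] + 2 κ(f,g) W_g[c; l]`.
-/

namespace Crest.Agent.SRC
namespace MassSys

variable {E : Type*} [DecidableEq E] (M : MassSys E)

/-! ### Basic facts on masses -/

lemma m_ins_left_le (P Q : Finset E) (g : E) : M.m (insert g P) Q ≤ M.m P Q := by
  have := M.split P Q g; have := M.nonneg P (insert g Q); linarith

lemma m_ins_right_le (P Q : Finset E) (g : E) : M.m P (insert g Q) ≤ M.m P Q := by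
  have := M.split P Q g; have := M.nonneg (insert g P) Q; linarith

/-- state mass -/
noncomputable def ms (c : St E) : ℝ := M.m c.1 c.2

lemma ms_nonneg (c : St E) : 0 ≤ M.ms c := M.nonneg _ _

/-- extend a state -/
def add (c : St E) (g : E) (b : Bool) : St E :=
  if b then (insert g c.1, c.2) else (c.1, insert g c.2)

@[simp] lemma add_true (c : St E) (g : E) : add c g true = (insert g c.1, c.2) := rfl
@[simp] lemma add_false (c : St E) (g : E) : add c g false = (c.1, insert g c.2) := rfl

lemma add_comm (c : St E) (f g : E) (x y : Bool) :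
    add (add c f x) g y = add (add c g y) f x := by
  cases x <;> cases y <;> simp [add, Finset.insert_comm]

lemma ms_add_le (c : St E) (g : E) (b : Bool) : M.ms (add c g b) ≤ M.ms c := by
  cases b
  · exact M.m_ins_right_le _ _ _
  · exact M.m_ins_left_le _ _ _

lemma ms_split (c : St E) (g : E) : M.ms c = M.ms (add c g true) + M.ms (add c g false) :=
  M.split _ _ _

lemma a_def (c : St E) (g : E) : M.a c g = M.ms (add c g true) / M.ms c := rfl

lemma a_nonneg (c : St E) (g : E) : 0 ≤ M.a c g :=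
  div_nonneg (M.nonneg _ _) (M.nonneg _ _)

lemma a_le_one (c : St E) (g : E) : M.a c g ≤ 1 := by
  rw [a_def]
  rcases (M.ms_nonneg c).eq_or_lt with h | h
  · simp [← h]
  · rw [div_le_one h]; exact M.ms_add_le c g true

lemma ms_eq_zero_of_add (c : St E) (g : E) (b : Bool) (h : M.ms c = 0) : M.ms (add c g b) = 0 :=
  le_antisymm (h ▸ M.ms_add_le c g b) (M.ms_nonneg _)

lemma ms_mul_a (c : St E) (g : E) : M.ms c * M.a c g = M.ms (add c g true) := by
  rw [a_def]
  rcases (M.ms_nonneg c).eq_or_lt with h | h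
  · rw [M.ms_eq_zero_of_add c g true h.symm, ← h]; simp
  · field_simp

lemma ms_mul_one_sub_a (c : St E) (g : E) : M.ms c * (1 - M.a c g) = M.ms (add c g false) := by
  have h1 := M.ms_mul_a c g
  have h2 := M.ms_split c g
  nlinarith

/-- covariance under a state -/
noncomputable def cov (c : St E) (f g : E) : ℝ :=
  M.ms (add (add c f true) g true) / M.ms c - M.a c f * M.a c g

/-- `π` -/
noncomputable def pi (c : St E) (g : E) : ℝ := M.a c g * (1 - M.a c g)

lemma pi_nonneg (c : St E) (g : E) : 0 ≤ M.pi c g :=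
  mul_nonneg (M.a_nonneg c g) (sub_nonneg.2 (M.a_le_one c g))

/-- hop kernel -/
noncomputable def kap (c : St E) (f g : E) : ℝ := |M.cov c f g| / M.pi c g

lemma kap_nonneg (c : St E) (f g : E) : 0 ≤ M.kap c f g :=
  div_nonneg (abs_nonneg _) (M.pi_nonneg c g)

/-! ### Four-point identities -/

section four
variable (c : St E) (f g : E)

/-- abbreviations -/
private noncomputable def p11 : ℝ := M.ms (add (add c f true) g true)
private noncomputable def p10 : ℝ := M.ms (add (add c f true) g false)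
private noncomputable def p01 : ℝ := M.ms (add (add c f false) g true)
private noncomputable def p00 : ℝ := M.ms (add (add c f false) g false)

lemma af_mul_agf1 (_hc : 0 < M.ms c) :
    M.a c f * M.a (add c f true) g = M.ms (add (add c f true) g true) / M.ms c := by
  have h := M.ms_mul_a (add c f true) g
  rw [M.a_def c f, div_mul_eq_mul_div, h]

lemma af0_mul_agf0 (hc : 0 < M.ms c) :
    (1 - M.a c f) * M.a (add c f false) g = M.ms (add (add c f false) g true) / M.ms c := by
  have h := M.ms_mul_a (add c f false) g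
  have h' := M.ms_mul_one_sub_a c f
  have : 1 - M.a c f = M.ms (add c f false) / M.ms c := by
    rw [← h']; field_simp
  rw [this, div_mul_eq_mul_div, h]

lemma af_mul_agf1' (_hc : 0 < M.ms c) :
    M.a c f * (1 - M.a (add c f true) g) = M.ms (add (add c f true) g false) / M.ms c := by
  have h := M.ms_mul_one_sub_a (add c f true) g
  rw [M.a_def c f, div_mul_eq_mul_div, h]

lemma af0_mul_agf0' (hc : 0 < M.ms c) :
    (1 - M.a c f) * (1 - M.a (add c f false) g) = M.ms (add (add c f false) g false) / M.ms c := by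
  have h := M.ms_mul_one_sub_a (add c f false) g
  have h' := M.ms_mul_one_sub_a c f
  have : 1 - M.a c f = M.ms (add c f false) / M.ms c := by
    rw [← h']; field_simp
  rw [this, div_mul_eq_mul_div, h]

/-- Bayes identities -/
lemma bayes11 (hc : 0 < M.ms c) :
    M.a c f * M.a (add c f true) g = M.a c g * M.a (add c g true) f := by
  rw [M.af_mul_agf1 c f g hc, M.af_mul_agf1 c g f hc, add_comm]

lemma bayes10 (hc : 0 < M.ms c) :
    M.a c f * (1 - M.a (add c f true) g) = (1 - M.a c g) * M.a (add c g false) f := by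
  rw [M.af_mul_agf1' c f g hc, M.af0_mul_agf0 c g f hc, add_comm]

lemma bayes01 (hc : 0 < M.ms c) :
    (1 - M.a c f) * M.a (add c f false) g = M.a c g * (1 - M.a (add c g true) f) := by
  rw [M.af0_mul_agf0 c f g hc, M.af_mul_agf1' c g f hc, add_comm]

lemma bayes00 (hc : 0 < M.ms c) :
    (1 - M.a c f) * (1 - M.a (add c f false) g) = (1 - M.a c g) * (1 - M.a (add c g false) f) := by
  rw [M.af0_mul_agf0' c f g hc, M.af0_mul_agf0' c g f hc, add_comm]

/-- total probability -/
lemma total_prob (hc : 0 < M.ms c) :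
    M.a c g = M.a c f * M.a (add c f true) g + (1 - M.a c f) * M.a (add c f false) g := by
  rw [M.af_mul_agf1 c f g hc, M.af0_mul_agf0 c f g hc, M.a_def, ← add_div,
    M.ms_split (add c g true) f, add_comm c g f true true, add_comm c g f true false]

lemma cov_eq1 (hc : 0 < M.ms c) :
    M.cov c f g = M.a c f * (M.a (add c f true) g - M.a c g) := by
  rw [cov, mul_sub, M.af_mul_agf1 c f g hc]

lemma cov_eq0 (hc : 0 < M.ms c) :
    M.cov c f g = -((1 - M.a c f) * (M.a (add c f false) g - M.a c g)) := by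
  have h1 := M.cov_eq1 c f g hc
  have h2 := M.total_prob c f g hc
  rw [h1]
  nlinarith

lemma cov_comm (hc : 0 < M.ms c) : M.cov c f g = M.cov c g f := by
  rw [cov, cov, add_comm c f g true true, mul_comm]

end four

lemma abs_cov_sum (c : St E) (f g : E) (hc : 0 < M.ms c) :
    M.a c f * |M.a (add c f true) g - M.a c g| +
      (1 - M.a c f) * |M.a (add c f false) g - M.a c g| = 2 * |M.cov c f g| := by
  have h1 := M.cov_eq1 c f g hc
  have h0 := M.cov_eq0 c f g hc
  have ha := M.a_nonneg c f
  have hb := sub_nonneg.2 (M.a_le_one c f)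
  have e1 : M.a c f * |M.a (add c f true) g - M.a c g| = |M.cov c f g| := by
    rw [h1, abs_mul, abs_of_nonneg ha]
  have e0 : (1 - M.a c f) * |M.a (add c f false) g - M.a c g| = |M.cov c f g| := by
    rw [h0, abs_neg, abs_mul, abs_of_nonneg hb]
  rw [e1, e0]; ring

/-- If `π_g = 0` then the covariance with `g` vanishes. -/
lemma cov_eq_zero_of_pi (c : St E) (f g : E) (hc : 0 < M.ms c) (h : M.pi c g = 0) :
    M.cov c f g = 0 := by
  have hcomm := M.cov_comm c f g hc
  rw [hcomm, M.cov_eq1 c g f hc]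
  rcases mul_eq_zero.1 h with h0 | h1
  · rw [h0]; ring
  · -- a_g = 1 : `a (c+g=1) f = a c f`
    have hg : M.a c g = 1 := by linarith
    have h2 := M.total_prob c g f hc
    rw [hg] at h2
    rw [hg]
    simp only [one_mul, sub_self, zero_mul, add_zero] at h2
    rw [← h2]; ring

lemma kap_mul_pi (c : St E) (f g : E) (hc : 0 < M.ms c) :
    M.kap c f g * M.pi c g = |M.cov c f g| := by
  rcases (M.pi_nonneg c g).eq_or_lt with h | h
  · rw [← h, M.cov_eq_zero_of_pi c f g hc h.symm]; simp
  · rw [kap]; field_simp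

/-! ### The two-threshold integral -/

/-- `∫₀¹ φ(v<A, v<B) dv` for `A, B ∈ [0,1]`. -/
noncomputable def I2 (A B : ℝ) (φ : Bool → Bool → ℝ) : ℝ :=
  min A B * φ true true + (1 - max A B) * φ false false +
    max (A - B) 0 * φ true false + max (B - A) 0 * φ false true

lemma I2_nonneg {A B : ℝ} (hA0 : 0 ≤ A) (hA1 : A ≤ 1) (hB0 : 0 ≤ B) (hB1 : B ≤ 1)
    {φ : Bool → Bool → ℝ} (h : ∀ x y, 0 ≤ φ x y) : 0 ≤ I2 A B φ := by
  unfold I2
  have h1 : 0 ≤ min A B := le_min hA0 hB0
  have h2 : 0 ≤ 1 - max A B := sub_nonneg.2 (max_le hA1 hB1)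
  have h3 : 0 ≤ max (A - B) 0 := le_max_right _ _
  have h4 : 0 ≤ max (B - A) 0 := le_max_right _ _
  have := mul_nonneg h1 (h true true)
  have := mul_nonneg h2 (h false false)
  have := mul_nonneg h3 (h true false)
  have := mul_nonneg h4 (h false true)
  linarith

lemma I2_symm (A B : ℝ) (φ : Bool → Bool → ℝ) : I2 A B φ = I2 B A (fun x y => φ y x) := by
  unfold I2
  rw [min_comm, max_comm]; ring

lemma I2_of_le {A B : ℝ} (h : A ≤ B) (φ : Bool → Bool → ℝ) :
    I2 A B φ = A * φ true true + (1 - B) * φ false false + (B - A) * φ false true := by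
  unfold I2
  rw [min_eq_left h, max_eq_right h, max_eq_right (sub_nonpos.2 h), max_eq_left (sub_nonneg.2 h)]
  ring

lemma I2_of_ge {A B : ℝ} (h : B ≤ A) (φ : Bool → Bool → ℝ) :
    I2 A B φ = B * φ true true + (1 - A) * φ false false + (A - B) * φ true false := by
  unfold I2
  rw [min_eq_right h, max_eq_left h, max_eq_right (sub_nonpos.2 h), max_eq_left (sub_nonneg.2 h)]
  ring

/-- Triangle inequality for `I2`: three chains driven by the same uniform variable. -/
lemma I2_triangle {A B C : ℝ} (hA0 : 0 ≤ A) (hA1 : A ≤ 1) (hB0 : 0 ≤ B) (hB1 : B ≤ 1)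
    (hC0 : 0 ≤ C) (hC1 : C ≤ 1)
    {φ ψ χ : Bool → Bool → ℝ} (h : ∀ x y z, φ x y ≤ ψ x z + χ z y) :
    I2 A B φ ≤ I2 A C ψ + I2 C B χ := by
  rcases le_total A B with hAB | hAB <;> rcases le_total A C with hAC | hAC <;>
    rcases le_total C B with hCB | hCB
  all_goals
    first
    | (rw [I2_of_le hAB]) | (rw [I2_of_ge hAB])
  all_goals
    first
    | (rw [I2_of_le hAC]) | (rw [I2_of_ge hAC])
  all_goals
    first
    | (rw [I2_of_le hCB]) | (rw [I2_of_ge hCB])
  all_goals
    have e111 := h true true true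
    have e110 := h true true false
    have e101 := h true false true
    have e100 := h true false false
    have e011 := h false true true
    have e010 := h false true false
    have e001 := h false false true
    have e000 := h false false false
  -- the eight sign cases (two are impossible orderings, handled by the same certificates)
  · -- A ≤ B, A ≤ C, C ≤ B : intervals [0,A] ttt, [A,C] ftt, [C,B] f t f, [B,1] fff
    nlinarith [mul_le_mul_of_nonneg_left e111 hA0, mul_le_mul_of_nonneg_left e011 (sub_nonneg.2 hAC),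
      mul_le_mul_of_nonneg_left e010 (sub_nonneg.2 hCB), mul_le_mul_of_nonneg_left e000 (sub_nonneg.2 hB1)]
  · -- A ≤ B, A ≤ C, B ≤ C : [0,A] ttt, [A,B] f t t, [B,C] f f t, [C,1] fff
    nlinarith [mul_le_mul_of_nonneg_left e111 hA0, mul_le_mul_of_nonneg_left e011 (sub_nonneg.2 hAB),
      mul_le_mul_of_nonneg_left e001 (sub_nonneg.2 hCB), mul_le_mul_of_nonneg_left e000 (sub_nonneg.2 hC1)]
  · -- A ≤ B, C ≤ A, C ≤ B : [0,C] ttt, [C,A] t t f, [A,B] f t f, [B,1] fff
    nlinarith [mul_le_mul_of_nonneg_left e111 hC0, mul_le_mul_of_nonneg_left e110 (sub_nonneg.2 hAC),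
      mul_le_mul_of_nonneg_left e010 (sub_nonneg.2 hAB), mul_le_mul_of_nonneg_left e000 (sub_nonneg.2 hB1)]
  · -- A ≤ B, C ≤ A, B ≤ C : forces all equal
    have e1 : A = B := le_antisymm hAB (hCB.trans hAC)
    have e2 : C = B := le_antisymm (hAC.trans hAB) hCB
    subst e1; subst e2
    nlinarith [mul_le_mul_of_nonneg_left e111 hA0, mul_le_mul_of_nonneg_left e000 (sub_nonneg.2 hA1)]
  · -- B ≤ A, A ≤ C, C ≤ B : forces all equal
    have e1 : A = B := le_antisymm (hAC.trans hCB) hAB
    have e2 : C = B := le_antisymm hCB (hAB.trans hAC)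
    subst e1; subst e2
    nlinarith [mul_le_mul_of_nonneg_left e111 hA0, mul_le_mul_of_nonneg_left e000 (sub_nonneg.2 hA1)]
  · -- B ≤ A, A ≤ C, B ≤ C : [0,B] ttt, [B,A] t f t, [A,C] f f t, [C,1] fff
    nlinarith [mul_le_mul_of_nonneg_left e111 hB0, mul_le_mul_of_nonneg_left e101 (sub_nonneg.2 hAB),
      mul_le_mul_of_nonneg_left e001 (sub_nonneg.2 hAC), mul_le_mul_of_nonneg_left e000 (sub_nonneg.2 hC1)]
  · -- B ≤ A, C ≤ A, C ≤ B : [0,C] ttt, [C,B] t t f, [B,A] t f f, [A,1] fff
    nlinarith [mul_le_mul_of_nonneg_left e111 hC0, mul_le_mul_of_nonneg_left e110 (sub_nonneg.2 hCB),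
      mul_le_mul_of_nonneg_left e100 (sub_nonneg.2 hAB), mul_le_mul_of_nonneg_left e000 (sub_nonneg.2 hA1)]
  · -- B ≤ A, C ≤ A, B ≤ C : [0,B] ttt, [B,C] t f t, [C,A] t f f, [A,1] fff
    nlinarith [mul_le_mul_of_nonneg_left e111 hB0, mul_le_mul_of_nonneg_left e101 (sub_nonneg.2 hCB),
      mul_le_mul_of_nonneg_left e100 (sub_nonneg.2 hAC), mul_le_mul_of_nonneg_left e000 (sub_nonneg.2 hA1)]

end MassSys
end Crest.Agent.SRC
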