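import Crest.Agent.Lib.SRC.Pair

/-!
The pair functional `V` (pseudometric), deferral `W`, the key recursion.
-/

namespace Crest.Agent.SRC
namespace MassSys

variable {E : Type*} [DecidableEq E] (M : MassSys E) (o : E)

/-- Expected difference of the `o`-probabilities of two chains driven by the same thresholds. -/
noncomputable def V : List E → St E → St E → ℝ
  | [], α, β => |M.a α o - M.a β o|
  | g :: l, α, β => I2 (M.a α g) (M.a β g) (fun x y => V l (add α g x) (add β g y))

lemma V_nil (α β : St E) : M.V o [] α β = |M.a α o - M.a β o| := rfl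
lemma V_cons (g : E) (l : List E) (α β : St E) :
    M.V o (g :: l) α β = I2 (M.a α g) (M.a β g) (fun x y => M.V o l (add α g x) (add β g y)) := rfl

lemma V_nonneg (l : List E) : ∀ α β : St E, 0 ≤ M.V o l α β := by
  induction l with
  | nil => intro α β; exact abs_nonneg _
  | cons g l ih =>
    intro α β
    exact I2_nonneg (M.a_nonneg _ _) (M.a_le_one _ _) (M.a_nonneg _ _) (M.a_le_one _ _)
      (fun x y => ih _ _)

lemma V_symm (l : List E) : ∀ α β : St E, M.V o l α β = M.V o l β α := by
  induction l with
  | nil => intro α β; exact abs_sub_comm _ _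
  | cons g l ih =>
    intro α β
    rw [V_cons, V_cons, I2_symm]
    congr 1
    funext x y
    exact ih _ _

lemma V_triangle (l : List E) : ∀ α β γ : St E, M.V o l α β ≤ M.V o l α γ + M.V o l γ β := by
  induction l with
  | nil => intro α β γ; exact abs_sub_le _ _ _
  | cons g l ih =>
    intro α β γ
    exact I2_triangle (M.a_nonneg _ _) (M.a_le_one _ _) (M.a_nonneg _ _) (M.a_le_one _ _)
      (M.a_nonneg _ _) (M.a_le_one _ _) (fun x y z => ih _ _ _)

lemma V_self (l : List E) : ∀ α : St E, M.V o l α α = 0 := by
  induction l with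
  | nil => intro α; simp [V_nil]
  | cons g l ih =>
    intro α
    rw [V_cons]
    simp only [I2, ih, min_self, max_self, sub_self]
    have h : ∀ x y, M.V o l (add α g x) (add α g y) = M.V o l (add α g x) (add α g y) := fun _ _ => rfl
    simp

lemma I2_le_one {A B : ℝ} (hA0 : 0 ≤ A) (hA1 : A ≤ 1) (hB0 : 0 ≤ B) (hB1 : B ≤ 1)
    {φ : Bool → Bool → ℝ} (h : ∀ x y, φ x y ≤ 1) : I2 A B φ ≤ 1 := by
  rcases le_total A B with hAB | hAB
  · rw [I2_of_le hAB]
    nlinarith [mul_le_mul_of_nonneg_left (h true true) hA0,
      mul_le_mul_of_nonneg_left (h false false) (sub_nonneg.2 hB1),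
      mul_le_mul_of_nonneg_left (h false true) (sub_nonneg.2 hAB)]
  · rw [I2_of_ge hAB]
    nlinarith [mul_le_mul_of_nonneg_left (h true true) hB0,
      mul_le_mul_of_nonneg_left (h false false) (sub_nonneg.2 hA1),
      mul_le_mul_of_nonneg_left (h true false) (sub_nonneg.2 hAB)]

lemma V_le_one (l : List E) : ∀ α β : St E, M.V o l α β ≤ 1 := by
  induction l with
  | nil =>
    intro α β
    rw [V_nil, abs_le]
    constructor <;> nlinarith [M.a_nonneg α o, M.a_le_one α o, M.a_nonneg β o, M.a_le_one β o]
  | cons g l ih =>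
    intro α β
    exact I2_le_one (M.a_nonneg _ _) (M.a_le_one _ _) (M.a_nonneg _ _) (M.a_le_one _ _)
      (fun x y => ih _ _)

/-- Deferral functional. -/
noncomputable def W (f : E) (c : St E) (l : List E) : ℝ :=
  M.a c f * M.V o l (add c f true) c + (1 - M.a c f) * M.V o l (add c f false) c

lemma W_nonneg (f : E) (c : St E) (l : List E) : 0 ≤ M.W o f c l :=
  add_nonneg (mul_nonneg (M.a_nonneg _ _) (M.V_nonneg o l _ _))
    (mul_nonneg (sub_nonneg.2 (M.a_le_one _ _)) (M.V_nonneg o l _ _))

lemma W_le_one (f : E) (c : St E) (l : List E) : M.W o f c l ≤ 1 := by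
  unfold W
  have h1 := M.V_le_one o l (add c f true) c
  have h0 := M.V_le_one o l (add c f false) c
  have ha := M.a_nonneg c f
  have hb := sub_nonneg.2 (M.a_le_one c f)
  nlinarith [mul_le_mul_of_nonneg_left h1 ha, mul_le_mul_of_nonneg_left h0 hb]

/-- Flip functional. -/
noncomputable def Fl (g : E) (c : St E) (l : List E) : ℝ :=
  M.V o l (add c g true) (add c g false)

lemma Fl_le_one (g : E) (c : St E) (l : List E) : M.Fl o g c l ≤ 1 := M.V_le_one o l _ _
lemma Fl_nonneg (g : E) (c : St E) (l : List E) : 0 ≤ M.Fl o g c l := M.V_nonneg o l _ _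

/-- (R2) `π_g Flip_g ≤ W_g`. -/
lemma pi_mul_Fl_le (g : E) (c : St E) (l : List E) : M.pi c g * M.Fl o g c l ≤ M.W o g c l := by
  have h := M.V_triangle o l (add c g true) (add c g false) c
  rw [M.V_symm o l c (add c g false)] at h
  unfold W pi Fl
  have ha := M.a_nonneg c g
  have hb := sub_nonneg.2 (M.a_le_one c g)
  have h1 := M.V_nonneg o l (add c g true) c
  have h0 := M.V_nonneg o l (add c g false) c
  have hab : 0 ≤ M.a c g * (1 - M.a c g) := mul_nonneg ha hb
  have e := mul_le_mul_of_nonneg_left h hab
  have e1 : M.a c g * (1 - M.a c g) * M.V o l (add c g true) c ≤ M.a c g * M.V o l (add c g true) c := by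
    have : (1 - M.a c g) ≤ 1 := by linarith
    nlinarith [mul_nonneg ha h1, mul_le_mul_of_nonneg_left this (mul_nonneg ha h1)]
  have e0 : M.a c g * (1 - M.a c g) * M.V o l (add c g false) c ≤
      (1 - M.a c g) * M.V o l (add c g false) c := by
    have := M.a_le_one c g
    nlinarith [mul_nonneg hb h0, mul_le_mul_of_nonneg_left this (mul_nonneg hb h0)]
  nlinarith

/-- One chain step with a disagreement term, pair (conditioned on `x`) vs. unconditioned. -/
lemma I2_step_le {A B F : ℝ} (φ : Bool → Bool → ℝ) (hA0 : 0 ≤ A) (hA1 : A ≤ 1)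
    (h10 : φ true false ≤ φ true true + F) (h01 : φ false true ≤ φ false false + F)
    (hB0 : 0 ≤ B) (hB1 : B ≤ 1) :
    I2 A B φ ≤ A * φ true true + (1 - A) * φ false false + |A - B| * F := by
  rcases le_total A B with hAB | hAB
  · rw [I2_of_le hAB, abs_of_nonpos (sub_nonpos.2 hAB)]
    nlinarith [mul_le_mul_of_nonneg_left h01 (sub_nonneg.2 hAB)]
  · rw [I2_of_ge hAB, abs_of_nonneg (sub_nonneg.2 hAB)]
    nlinarith [mul_le_mul_of_nonneg_left h10 (sub_nonneg.2 hAB)]

/-- (R1) the key one-step inequality. -/
lemma W_cons_le_Fl (f g : E) (c : St E) (l : List E) (hc : 0 < M.ms c) :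
    M.W o f c (g :: l) ≤
      M.a c g * M.W o f (add c g true) l + (1 - M.a c g) * M.W o f (add c g false) l
        + 2 * |M.cov c f g| * M.Fl o g c l := by
  set F := M.Fl o g c l with hF
  have key : ∀ x : Bool, M.V o (g :: l) (add c f x) c ≤
      M.a (add c f x) g * M.V o l (add (add c g true) f x) (add c g true)
        + (1 - M.a (add c f x) g) * M.V o l (add (add c g false) f x) (add c g false)
        + |M.a (add c f x) g - M.a c g| * F := by
    intro x
    rw [V_cons]
    have := I2_step_le (A := M.a (add c f x) g) (B := M.a c g) (F := F)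
      (fun y z => M.V o l (add (add c f x) g y) (add c g z))
      (M.a_nonneg _ _) (M.a_le_one _ _) ?_ ?_ (M.a_nonneg _ _) (M.a_le_one _ _)
    · simpa only [add_comm c f g x] using this
    · exact M.V_triangle o l _ _ (add c g true)
    · have := M.V_triangle o l (add (add c f x) g false) (add c g true) (add c g false)
      rw [M.V_symm o l (add c g false) (add c g true)] at this
      exact this
  have k1 := key true
  have k0 := key false
  unfold W
  have ha := M.a_nonneg c f
  have hb := sub_nonneg.2 (M.a_le_one c f)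
  have e1 := mul_le_mul_of_nonneg_left k1 ha
  have e0 := mul_le_mul_of_nonneg_left k0 hb
  have b11 := M.bayes11 c f g hc
  have b10 := M.bayes10 c f g hc
  have b01 := M.bayes01 c f g hc
  have b00 := M.bayes00 c f g hc
  have hsum := M.abs_cov_sum c f g hc
  -- abbreviations for the `V`s
  set v11 := M.V o l (add (add c g true) f true) (add c g true)
  set v10 := M.V o l (add (add c g false) f true) (add c g false)
  set v01 := M.V o l (add (add c g true) f false) (add c g true)
  set v00 := M.V o l (add (add c g false) f false) (add c g false)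
  have g1 : M.a c f * (M.a (add c f true) g * v11 + (1 - M.a (add c f true) g) * v10 +
        |M.a (add c f true) g - M.a c g| * F) =
      (M.a c f * M.a (add c f true) g) * v11 + (M.a c f * (1 - M.a (add c f true) g)) * v10 +
        (M.a c f * |M.a (add c f true) g - M.a c g|) * F := by ring
  have g0 : (1 - M.a c f) * (M.a (add c f false) g * v01 + (1 - M.a (add c f false) g) * v00 +
        |M.a (add c f false) g - M.a c g| * F) =
      ((1 - M.a c f) * M.a (add c f false) g) * v01 + ((1 - M.a c f) * (1 - M.a (add c f false) g)) * v00 +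
        ((1 - M.a c f) * |M.a (add c f false) g - M.a c g|) * F := by ring
  rw [g1, b11, b10] at e1
  rw [g0, b01, b00] at e0
  have hF2 : (M.a c f * |M.a (add c f true) g - M.a c g|) * F +
      ((1 - M.a c f) * |M.a (add c f false) g - M.a c g|) * F = 2 * |M.cov c f g| * F := by
    rw [← hsum]; ring
  nlinarith

/-- The key recursion, hop kernel form. -/
lemma W_cons_le (f g : E) (c : St E) (l : List E) (hc : 0 < M.ms c) :
    M.W o f c (g :: l) ≤
      M.a c g * M.W o f (add c g true) l + (1 - M.a c g) * M.W o f (add c g false) l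
        + 2 * M.kap c f g * M.W o g c l := by
  have h := M.W_cons_le_Fl o f g c l hc
  have h2 : |M.cov c f g| * M.Fl o g c l ≤ M.kap c f g * M.W o g c l := by
    rw [← M.kap_mul_pi c f g hc, mul_assoc]
    exact mul_le_mul_of_nonneg_left (M.pi_mul_Fl_le o g c l) (M.kap_nonneg _ _ _)
  nlinarith

/-- Base case of `W`. -/
lemma W_nil (f : E) (c : St E) (hc : 0 < M.ms c) : M.W o f c [] = 2 * |M.cov c f o| := by
  unfold W
  rw [V_nil, V_nil]
  exact M.abs_cov_sum c f o hc

end MassSys
end Crest.Agent.SRC
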