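import Crest.Agent.Lib.SRC.Pair2

/-!
Consequences of (NC) and (ROW): covariance submartingale, `π` supermartingale, row sums,
relative expectations `Es`, total expectations `Esum`, annealed bound for `W`.
-/

namespace Crest.Agent.SRC
namespace MassSys

variable {E : Type*} [DecidableEq E] (M : MassSys E) (o : E)

/-- `f` is not yet revealed in `c`. -/
def Off (c : St E) (f : E) : Prop := f ∉ c.1 ∧ f ∉ c.2

lemma Off.add {c : St E} {f h : E} (hf : Off c f) (hne : f ≠ h) (b : Bool) : Off (add c h b) f := by
  cases b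
  · exact ⟨hf.1, by simpa [hne] using hf.2⟩
  · exact ⟨by simpa [hne] using hf.1, hf.2⟩

lemma m_union_left_le (P Q A : Finset E) : M.m (P ∪ A) Q ≤ M.m P Q := by
  induction A using Finset.induction_on with
  | empty => simp
  | insert g A _ ih =>
    rw [Finset.union_insert]
    exact (M.m_ins_left_le _ _ _).trans ih

lemma m_union_right_le (P Q A : Finset E) : M.m P (Q ∪ A) ≤ M.m P Q := by
  induction A using Finset.induction_on with
  | empty => simp
  | insert g A _ ih =>
    rw [Finset.union_insert]
    exact (M.m_ins_right_le _ _ _).trans ih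

lemma m_mono {P P' Q Q' : Finset E} (hP : P ⊆ P') (hQ : Q ⊆ Q') : M.m P' Q' ≤ M.m P Q := by
  have h1 := M.m_union_left_le P Q' P'
  have h2 := M.m_union_right_le P Q Q'
  rw [Finset.union_eq_right.2 hP] at h1
  rw [Finset.union_eq_right.2 hQ] at h2
  exact h1.trans h2

/-! ### Correlation lemmas -/

lemma ms_zero_a (c : St E) (g : E) (h : M.ms c = 0) : M.a c g = 0 := by
  rw [a_def, h]; simp

lemma ms_zero_cov (c : St E) (f g : E) (h : M.ms c = 0) : M.cov c f g = 0 := by
  rw [cov, h, M.ms_zero_a c f h]; simp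

lemma ms_zero_pi (c : St E) (g : E) (h : M.ms c = 0) : M.pi c g = 0 := by
  rw [pi, M.ms_zero_a c g h]; simp

lemma V_zero (l : List E) : ∀ α β : St E, M.ms α = 0 → M.ms β = 0 → M.V o l α β = 0 := by
  induction l with
  | nil => intro α β h1 h2; simp [V_nil, M.ms_zero_a α o h1, M.ms_zero_a β o h2]
  | cons g l ih =>
    intro α β h1 h2
    rw [V_cons, M.ms_zero_a α g h1, M.ms_zero_a β g h2]
    have e := ih (add α g false) (add β g false) (M.ms_eq_zero_of_add _ _ _ h1) (M.ms_eq_zero_of_add _ _ _ h2)
    simp only [I2, min_self, max_self, sub_self, zero_mul, sub_zero, one_mul, zero_add, add_zero, e]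

lemma W_zero (f : E) (c : St E) (l : List E) (h : M.ms c = 0) : M.W o f c l = 0 := by
  unfold W
  have e0 := M.V_zero o l (add c f false) c (M.ms_eq_zero_of_add _ _ _ h) h
  rw [M.ms_zero_a c f h, e0]
  simp

lemma cov_nonpos (hNC : M.NC) (c : St E) (f g : E) (hfg : f ≠ g) (hf : Off c f) (hg : Off c g) :
    M.cov c f g ≤ 0 := by
  rcases (M.ms_nonneg c).eq_or_lt with h | h
  · rw [M.ms_zero_cov c f g h.symm]
  · have hn := hNC c.1 c.2 f g hfg hf.1 hf.2 hg.1 hg.2
    rw [cov, a_def, a_def, sub_nonpos, div_mul_div_comm, div_le_div_iff₀ h (mul_pos h h)]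
    have e : add (add c f true) g true = (insert f (insert g c.1), c.2) := by
      simp [add, Finset.insert_comm]
    have h' : M.ms (add (add c f true) g true) * M.ms c ≤
        M.ms (add c f true) * M.ms (add c g true) := by
      rw [e]; exact hn
    nlinarith

lemma abs_cov_eq (hNC : M.NC) (c : St E) (f g : E) (hfg : f ≠ g) (hf : Off c f) (hg : Off c g) :
    |M.cov c f g| = - M.cov c f g := abs_of_nonpos (M.cov_nonpos hNC c f g hfg hf hg)

/-- total probability for the two-point function -/
lemma pr_total (c : St E) (f g h : E) (hc : 0 < M.ms c) :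
    M.ms (add (add c f true) g true) / M.ms c =
      M.a c h * (M.ms (add (add (add c h true) f true) g true) / M.ms (add c h true)) +
      (1 - M.a c h) * (M.ms (add (add (add c h false) f true) g true) / M.ms (add c h false)) := by
  have e1 : M.a c h * (M.ms (add (add (add c h true) f true) g true) / M.ms (add c h true)) =
      M.ms (add (add (add c h true) f true) g true) / M.ms c := by
    rw [M.a_def]
    rcases (M.ms_nonneg (add c h true)).eq_or_lt with h0 | h0
    · have h00 : M.ms (add (add (add c h true) f true) g true) = 0 :=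
        M.ms_eq_zero_of_add _ _ _ (M.ms_eq_zero_of_add _ _ _ h0.symm)
      rw [h00, ← h0]; simp
    · field_simp
  have e0 : (1 - M.a c h) * (M.ms (add (add (add c h false) f true) g true) / M.ms (add c h false)) =
      M.ms (add (add (add c h false) f true) g true) / M.ms c := by
    have hh : 1 - M.a c h = M.ms (add c h false) / M.ms c := by
      rw [← M.ms_mul_one_sub_a c h]; field_simp
    rw [hh]
    rcases (M.ms_nonneg (add c h false)).eq_or_lt with h0 | h0
    · have h00 : M.ms (add (add (add c h false) f true) g true) = 0 :=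
        M.ms_eq_zero_of_add _ _ _ (M.ms_eq_zero_of_add _ _ _ h0.symm)
      rw [h00, ← h0]; simp
    · field_simp
  rw [e1, e0, ← add_div]
  congr 1
  have := M.ms_split (add (add c f true) g true) h
  rw [this]
  have a1 : add (add (add c f true) g true) h true = add (add (add c h true) f true) g true := by
    simp [add, Finset.insert_comm]
  have a0 : add (add (add c f true) g true) h false = add (add (add c h false) f true) g true := by
    simp [add]
  rw [a1, a0]

/-- One-step submartingale for the absolute covariance. -/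
lemma abs_cov_le_avg (hNC : M.NC) (c : St E) (f g h : E) (hfg : f ≠ g) (hfh : f ≠ h) (hgh : g ≠ h)
    (hf : Off c f) (hg : Off c g) (hh : Off c h) :
    |M.cov c f g| ≤ M.a c h * |M.cov (add c h true) f g| + (1 - M.a c h) * |M.cov (add c h false) f g| := by
  have ha := M.a_nonneg c h
  have hb := sub_nonneg.2 (M.a_le_one c h)
  rcases (M.ms_nonneg c).eq_or_lt with h0 | h0
  · rw [M.ms_zero_cov c f g h0.symm, abs_zero]
    exact add_nonneg (mul_nonneg ha (abs_nonneg _)) (mul_nonneg hb (abs_nonneg _))
  · rw [M.abs_cov_eq hNC c f g hfg hf hg,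
      M.abs_cov_eq hNC (add c h true) f g hfg (hf.add hfh _) (hg.add hgh _),
      M.abs_cov_eq hNC (add c h false) f g hfg (hf.add hfh _) (hg.add hgh _)]
    have tf := M.total_prob c h f h0
    have tg := M.total_prob c h g h0
    have pr := M.pr_total c f g h h0
    have cf := M.cov_nonpos hNC c h f hfh.symm hh hf
    have cg := M.cov_nonpos hNC c h g hgh.symm hh hg
    have cf' := M.cov_eq1 c h f h0
    have cg' := M.cov_eq1 c h g h0
    -- abbreviations
    set α := M.a c h
    set f1 := M.a (add c h true) f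
    set f0 := M.a (add c h false) f
    set g1 := M.a (add c h true) g
    set g0 := M.a (add c h false) g
    have ef : M.a c f = α * f1 + (1 - α) * f0 := tf
    have eg : M.a c g = α * g1 + (1 - α) * g0 := tg
    have cf2 : α * (1 - α) * (f1 - f0) ≤ 0 := by
      have : M.cov c h f = α * (1 - α) * (f1 - f0) := by rw [cf', ef]; ring
      linarith
    have cg2 : α * (1 - α) * (g1 - g0) ≤ 0 := by
      have : M.cov c h g = α * (1 - α) * (g1 - g0) := by rw [cg', eg]; ring
      linarith
    have key : 0 ≤ α * (1 - α) * ((f1 - f0) * (g1 - g0)) := by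
      rcases (mul_nonneg ha hb).eq_or_lt with h1 | h1
      · rw [← h1]; simp
      · have hf' : f1 - f0 ≤ 0 := by
          by_contra hc; rw [not_le] at hc
          have := mul_pos h1 hc; linarith
        have hg' : g1 - g0 ≤ 0 := by
          by_contra hc; rw [not_le] at hc
          have := mul_pos h1 hc; linarith
        exact mul_nonneg h1.le (mul_nonneg_of_nonpos_of_nonpos hf' hg')
    have e1 : M.cov (add c h true) f g =
        M.ms (add (add (add c h true) f true) g true) / M.ms (add c h true) - f1 * g1 := rfl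
    have e0 : M.cov (add c h false) f g =
        M.ms (add (add (add c h false) f true) g true) / M.ms (add c h false) - f0 * g0 := rfl
    have e : M.cov c f g = M.ms (add (add c f true) g true) / M.ms c - M.a c f * M.a c g := rfl
    rw [e, e1, e0, pr, ef, eg]
    nlinarith

/-- One-step supermartingale for `π`. -/
lemma pi_avg_le (c : St E) (g h : E) (hc : 0 < M.ms c) :
    M.a c h * M.pi (add c h true) g + (1 - M.a c h) * M.pi (add c h false) g ≤ M.pi c g := by
  have t := M.total_prob c h g hc
  unfold pi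
  rw [t]
  set α := M.a c h
  set x := M.a (add c h true) g
  set y := M.a (add c h false) g
  have ha := M.a_nonneg c h
  have hb := sub_nonneg.2 (M.a_le_one c h)
  nlinarith [mul_nonneg (mul_nonneg ha hb) (sq_nonneg (x - y))]

/-- Row sum. -/
lemma sum_abs_cov_le (hNC : M.NC) (hROW : M.ROW) (c : St E) (g : E) (J : Finset E)
    (hgJ : g ∉ J) (hg : Off c g) (hJ : ∀ f ∈ J, Off c f) :
    ∑ f ∈ J, |M.cov c f g| ≤ M.pi c g := by
  rcases (M.ms_nonneg c).eq_or_lt with h0 | h0
  · rw [M.ms_zero_pi c g h0.symm]
    apply le_of_eq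
    apply Finset.sum_eq_zero
    intro f _
    rw [M.ms_zero_cov c f g h0.symm, abs_zero]
  · have hR := hROW c.1 c.2 g J hgJ hg.1 hg.2
      (Finset.disjoint_left.2 fun f hf => (hJ f hf).1) (Finset.disjoint_left.2 fun f hf => (hJ f hf).2)
    have hm : M.ms c * M.ms c ≠ 0 := (mul_pos h0 h0).ne'
    have e : ∀ f ∈ J, |M.cov c f g| =
        (M.m (insert f c.1) c.2 * M.m (insert g c.1) c.2 - M.m (insert f (insert g c.1)) c.2 * M.m c.1 c.2)
          / (M.ms c * M.ms c) := by
      intro f hf
      have hfg : f ≠ g := fun e => hgJ (e ▸ hf)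
      rw [M.abs_cov_eq hNC c f g hfg (hJ f hf) hg]
      have ee : add (add c f true) g true = (insert f (insert g c.1), c.2) := by
        simp [add, Finset.insert_comm]
      rw [cov, ee, M.a_def, M.a_def]
      show -(M.ms (insert f (insert g c.1), c.2) / M.ms c - M.ms (insert f c.1, c.2) / M.ms c * (M.ms (insert g c.1, c.2) / M.ms c)) = _
      have h0' := h0.ne'
      unfold ms
      unfold ms at h0'
      field_simp
      ring
    rw [Finset.sum_congr rfl e, ← Finset.sum_div, div_le_iff₀ (mul_pos h0 h0)]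
    have hp : M.pi c g * (M.ms c * M.ms c) = M.m (insert g c.1) c.2 * M.m c.1 (insert g c.2) := by
      have h1 := M.ms_mul_a c g
      have h2 := M.ms_mul_one_sub_a c g
      unfold pi
      calc M.a c g * (1 - M.a c g) * (M.ms c * M.ms c)
          = (M.ms c * M.a c g) * (M.ms c * (1 - M.a c g)) := by ring
        _ = _ := by rw [h1, h2]; rfl
    rw [hp]
    exact hR

lemma sum_kap_le (hNC : M.NC) (hROW : M.ROW) (c : St E) (g : E) (J : Finset E)
    (hgJ : g ∉ J) (hg : Off c g) (hJ : ∀ f ∈ J, Off c f) :
    ∑ f ∈ J, M.kap c f g ≤ 1 := by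
  unfold kap
  rw [← Finset.sum_div]
  rcases (M.pi_nonneg c g).eq_or_lt with h | h
  · rw [← h]; simp
  · rw [div_le_one h]
    exact M.sum_abs_cov_le hNC hROW c g J hgJ hg hJ

/-! ### Total expectation over a finite domain -/

/-- Expectation over the pattern on the finite set `C`. -/
noncomputable def Esum (C : Finset E) (φ : St E → ℝ) : ℝ :=
  ∑ S ∈ C.powerset, M.ms (S, C \ S) * φ (S, C \ S)

lemma Esum_empty (φ : St E → ℝ) : M.Esum ∅ φ = φ (∅, ∅) := by
  simp [Esum, ms, M.empty]

lemma Esum_congr_pos {C : Finset E} {φ ψ : St E → ℝ}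
    (h : ∀ S ⊆ C, 0 < M.ms (S, C \ S) → φ (S, C \ S) = ψ (S, C \ S)) : M.Esum C φ = M.Esum C ψ := by
  apply Finset.sum_congr rfl
  intro S hS
  rcases (M.ms_nonneg (S, C \ S)).eq_or_lt with h0 | h0
  · rw [← h0]; simp
  · rw [h S (Finset.mem_powerset.1 hS) h0]

lemma Esum_mono {C : Finset E} {φ ψ : St E → ℝ}
    (h : ∀ S ⊆ C, 0 < M.ms (S, C \ S) → φ (S, C \ S) ≤ ψ (S, C \ S)) : M.Esum C φ ≤ M.Esum C ψ := by
  apply Finset.sum_le_sum
  intro S hS
  rcases (M.ms_nonneg (S, C \ S)).eq_or_lt with h0 | h0
  · rw [← h0]; simp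
  · exact mul_le_mul_of_nonneg_left (h S (Finset.mem_powerset.1 hS) h0) h0.le

lemma Esum_nonneg {C : Finset E} {φ : St E → ℝ} (h : ∀ S ⊆ C, 0 ≤ φ (S, C \ S)) : 0 ≤ M.Esum C φ :=
  Finset.sum_nonneg fun S hS => mul_nonneg (M.ms_nonneg _) (h S (Finset.mem_powerset.1 hS))

lemma Esum_add (C : Finset E) (φ ψ : St E → ℝ) :
    M.Esum C (fun c => φ c + ψ c) = M.Esum C φ + M.Esum C ψ := by
  simp only [Esum, mul_add, Finset.sum_add_distrib]

lemma Esum_mul_left (C : Finset E) (b : ℝ) (φ : St E → ℝ) :
    M.Esum C (fun c => b * φ c) = b * M.Esum C φ := by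
  simp only [Esum, Finset.mul_sum]
  exact Finset.sum_congr rfl fun _ _ => by ring

lemma Esum_sum {ι : Type*} (C : Finset E) (J : Finset ι) (φ : ι → St E → ℝ) :
    M.Esum C (fun c => ∑ j ∈ J, φ j c) = ∑ j ∈ J, M.Esum C (φ j) := by
  simp only [Esum, Finset.mul_sum]
  rw [Finset.sum_comm]

/-- Peeling one site off the domain. -/
lemma Esum_insert (C : Finset E) (g : E) (hg : g ∉ C) (φ : St E → ℝ) :
    M.Esum (insert g C) φ =
      M.Esum C (fun c => M.a c g * φ (add c g true) + (1 - M.a c g) * φ (add c g false)) := by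
  unfold Esum
  rw [Finset.sum_powerset_insert hg, ← Finset.sum_add_distrib]
  apply Finset.sum_congr rfl
  intro S hS
  have hS' : S ⊆ C := Finset.mem_powerset.1 hS
  have hgS : g ∉ S := fun h => hg (hS' h)
  have e1 : insert g C \ S = insert g (C \ S) := Finset.insert_sdiff_of_notMem _ hgS
  have e2 : insert g C \ insert g S = C \ S := by
    ext x; simp only [Finset.mem_sdiff, Finset.mem_insert]
    constructor
    · rintro ⟨h1 | h1, h2⟩
      · exact absurd (Or.inl h1) h2
      · exact ⟨h1, fun h => h2 (Or.inr h)⟩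
    · rintro ⟨h1, h2⟩
      exact ⟨Or.inr h1, fun h => h.elim (fun e => hg (e ▸ h1)) h2⟩
  rw [e1, e2]
  have h1 := M.ms_mul_a (S, C \ S) g
  have h0 := M.ms_mul_one_sub_a (S, C \ S) g
  simp only [add_true, add_false] at h1 h0 ⊢
  rw [← h1, ← h0]
  ring

lemma Esum_one (C : Finset E) : M.Esum C (fun _ => (1 : ℝ)) = 1 := by
  induction C using Finset.induction_on with
  | empty => simp [Esum, ms, M.empty]
  | insert g C hg ih =>
    rw [M.Esum_insert _ _ hg]
    have e : (fun c : St E => M.a c g * (1 : ℝ) + (1 - M.a c g) * 1) = fun _ => 1 := by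
      funext c; ring
    rw [e, ih]

lemma Esum_le_one {C : Finset E} {φ : St E → ℝ} (h : ∀ S ⊆ C, φ (S, C \ S) ≤ 1) : M.Esum C φ ≤ 1 := by
  rw [← M.Esum_one C]
  exact M.Esum_mono fun S hS _ => h S hS

/-- Enlarging the domain increases the expected absolute covariance. -/
lemma Esum_abs_cov_mono (hNC : M.NC) (f g : E) (hfg : f ≠ g) {C C' : Finset E} (hCC : C ⊆ C')
    (hf : f ∉ C') (hg : g ∉ C') :
    M.Esum C (fun c => |M.cov c f g|) ≤ M.Esum C' (fun c => |M.cov c f g|) := by
  have key : ∀ A : Finset E, Disjoint A C → f ∉ A → g ∉ A →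
      M.Esum C (fun c => |M.cov c f g|) ≤ M.Esum (A ∪ C) (fun c => |M.cov c f g|) := by
    intro A
    induction A using Finset.induction_on with
    | empty => intro _ _ _; simp
    | insert h A hA ih =>
      intro hd hfA hgA
      rw [Finset.insert_union]
      have hd' : Disjoint A C := (Finset.disjoint_insert_left.1 hd).2
      have hhC : h ∉ C := (Finset.disjoint_insert_left.1 hd).1
      have hfA' : f ∉ A := fun h' => hfA (Finset.mem_insert_of_mem h')
      have hgA' : g ∉ A := fun h' => hgA (Finset.mem_insert_of_mem h')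
      have hfh : f ≠ h := fun e => hfA (e ▸ Finset.mem_insert_self _ _)
      have hgh : g ≠ h := fun e => hgA (e ▸ Finset.mem_insert_self _ _)
      have hh' : h ∉ A ∪ C := by simp [hA, hhC]
      refine (ih hd' hfA' hgA').trans ?_
      rw [M.Esum_insert _ _ hh']
      apply M.Esum_mono
      intro S hS _
      have hfS : f ∉ (A ∪ C) := by
        simp only [Finset.mem_union, not_or]
        exact ⟨hfA', fun h' => hf (hCC h')⟩
      have hgS : g ∉ (A ∪ C) := by
        simp only [Finset.mem_union, not_or]
        exact ⟨hgA', fun h' => hg (hCC h')⟩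
      have offOf : ∀ x, x ∉ A ∪ C → Off (S, (A ∪ C) \ S) x := by
        intro x hx
        exact ⟨fun h' => hx (hS h'), fun h' => hx (Finset.mem_sdiff.1 h').1⟩
      exact M.abs_cov_le_avg hNC _ f g h hfg hfh hgh (offOf f hfS) (offOf g hgS) (offOf h hh')
  have := key (C' \ C) Finset.sdiff_disjoint (fun h => hf (Finset.mem_sdiff.1 h).1)
    (fun h => hg (Finset.mem_sdiff.1 h).1)
  rwa [Finset.sdiff_union_of_subset hCC] at this

/-- Supermartingale: `E π` decreases with the domain. -/
lemma Esum_pi_le (C : Finset E) (g : E) : ∀ C' : Finset E, C ⊆ C' →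
    M.Esum C' (fun c => M.pi c g) ≤ M.Esum C (fun c => M.pi c g) := by
  have key : ∀ A : Finset E, Disjoint A C →
      M.Esum (A ∪ C) (fun c => M.pi c g) ≤ M.Esum C (fun c => M.pi c g) := by
    intro A
    induction A using Finset.induction_on with
    | empty => intro _; simp
    | insert h A hA ih =>
      intro hd
      rw [Finset.insert_union]
      have hd' : Disjoint A C := (Finset.disjoint_insert_left.1 hd).2
      have hhC : h ∉ C := (Finset.disjoint_insert_left.1 hd).1
      have hh' : h ∉ A ∪ C := by simp [hA, hhC]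
      refine le_trans ?_ (ih hd')
      rw [M.Esum_insert _ _ hh']
      apply M.Esum_mono
      intro S _ hpos
      exact M.pi_avg_le _ g h hpos
  intro C' hCC
  have := key (C' \ C) Finset.sdiff_disjoint
  rwa [Finset.sdiff_union_of_subset hCC] at this

end MassSys
end Crest.Agent.SRC
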