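import Crest.Agent.Lib.SRC.Defs

/-!
Splitting one uniform label into two independent ones, coordinatewise, and invariance of the label
law under permutations of the sites; labels are almost surely distinct.
-/

open MeasureTheory Crest.ProbabilityR.Labels

namespace Crest.Agent.SRC

/-- One uniform label carries two independent uniform labels. -/
theorem exists_split : ∃ ψ : unitInterval → unitInterval × unitInterval, Measurable ψ ∧
    (volume : Measure unitInterval).map ψ =
      (volume : Measure unitInterval).prod (volume : Measure unitInterval) :=
  Measure.exists_measurable_map_eq _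

/-- The splitting map of one label. -/
noncomputable def splitPsi : unitInterval → unitInterval × unitInterval := exists_split.choose

lemma measurable_splitPsi : Measurable splitPsi := exists_split.choose_spec.1

lemma map_splitPsi : (volume : Measure unitInterval).map splitPsi =
    (volume : Measure unitInterval).prod (volume : Measure unitInterval) :=
  exists_split.choose_spec.2

/-- The coordinatewise splitting map of a label field. -/
noncomputable def splitMap (E : Type*) (u : E → unitInterval) :
    (E → unitInterval) × (E → unitInterval) :=
  (fun e => (splitPsi (u e)).1, fun e => (splitPsi (u e)).2)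

lemma measurable_splitMap (E : Type*) : Measurable (splitMap E) := by
  unfold splitMap
  refine Measurable.prodMk ?_ ?_
  · exact measurable_pi_lambda _ fun e =>
      measurable_fst.comp (measurable_splitPsi.comp (measurable_pi_apply e))
  · exact measurable_pi_lambda _ fun e =>
      measurable_snd.comp (measurable_splitPsi.comp (measurable_pi_apply e))

instance (E : Type*) : IsProbabilityMeasure (labelMeasure E) := by
  unfold labelMeasure; infer_instance

instance (E : Type*) : IsProbabilityMeasure (muL E) := by
  unfold muL; infer_instance

/-- The split label field has the law `muL`. -/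
theorem map_split_eq_muL (E : Type*) : (labelMeasure E).map (splitMap E) = muL E := by
  classical
  symm
  unfold muL
  have hpi : IsPiSystem (squareCylinders fun _ : E => {s : Set unitInterval | MeasurableSet s}) :=
    isPiSystem_squareCylinders (fun _ => MeasurableSpace.isPiSystem_measurableSet)
      (fun _ => by simp)
  have huniv : (Set.univ : Set (E → unitInterval)) ∈
      squareCylinders fun _ : E => {s : Set unitInterval | MeasurableSet s} := by
    refine ⟨∅, fun _ => Set.univ, ?_, ?_⟩
    · simp
    · simp
  let fs : (labelMeasure E).FiniteSpanningSetsIn
      (squareCylinders fun _ : E => {s : Set unitInterval | MeasurableSet s}) :=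
    { set := fun _ => Set.univ
      set_mem := fun _ => huniv
      finite := fun _ => measure_lt_top _ _
      spanning := Set.iUnion_const _ }
  refine Measure.prod_eq_generateFrom generateFrom_squareCylinders generateFrom_squareCylinders
    hpi hpi fs fs ?_
  rintro _ ⟨F, A, hA, rfl⟩ _ ⟨G, B, hB, rfl⟩
  have hA' : ∀ e, MeasurableSet (A e) := by
    intro e; simpa using hA e (Set.mem_univ e)
  have hB' : ∀ e, MeasurableSet (B e) := by
    intro e; simpa using hB e (Set.mem_univ e)
  let A' : E → Set unitInterval := fun e => if e ∈ F then A e else Set.univ
  let B' : E → Set unitInterval := fun e => if e ∈ G then B e else Set.univ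
  have hA'm : ∀ e, MeasurableSet (A' e) := by
    intro e; by_cases he : e ∈ F <;> simp [A', he, hA' e]
  have hB'm : ∀ e, MeasurableSet (B' e) := by
    intro e; by_cases he : e ∈ G <;> simp [B', he, hB' e]
  have hFA : (F : Set E).pi A = ((F ∪ G : Finset E) : Set E).pi A' := by
    ext x
    simp only [Set.mem_pi, Finset.mem_coe, Finset.mem_union, A']
    constructor
    · intro h e he
      by_cases heF : e ∈ F
      · simpa [heF] using h e heF
      · simp [heF]
    · intro h e he
      simpa [he] using h e (Or.inl he)
  have hGB : (G : Set E).pi B = ((F ∪ G : Finset E) : Set E).pi B' := by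
    ext x
    simp only [Set.mem_pi, Finset.mem_coe, Finset.mem_union, B']
    constructor
    · intro h e he
      by_cases heG : e ∈ G
      · simpa [heG] using h e heG
      · simp [heG]
    · intro h e he
      simpa [he] using h e (Or.inr he)
  have hset : splitMap E ⁻¹' (((F ∪ G : Finset E) : Set E).pi A' ×ˢ
      ((F ∪ G : Finset E) : Set E).pi B') =
      ((F ∪ G : Finset E) : Set E).pi (fun e => splitPsi ⁻¹' (A' e ×ˢ B' e)) := by
    ext u
    simp only [Set.mem_preimage, Set.mem_prod, Set.mem_pi, splitMap]
    constructor
    · rintro ⟨h1, h2⟩ e he
      exact ⟨h1 e he, h2 e he⟩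
    · intro h
      exact ⟨fun e he => (h e he).1, fun e he => (h e he).2⟩
  rw [hFA, hGB, Measure.map_apply (measurable_splitMap E)
    ((MeasurableSet.pi (Finset.countable_toSet _) fun e _ => hA'm e).prod
      (MeasurableSet.pi (Finset.countable_toSet _) fun e _ => hB'm e)), hset]
  unfold labelMeasure
  rw [Measure.infinitePi_pi _ (fun e _ => measurable_splitPsi ((hA'm e).prod (hB'm e))),
    Measure.infinitePi_pi _ (fun e _ => hA'm e), Measure.infinitePi_pi _ (fun e _ => hB'm e),
    ← Finset.prod_mul_distrib]
  refine Finset.prod_congr rfl fun e _ => ?_
  rw [← Measure.map_apply measurable_splitPsi ((hA'm e).prod (hB'm e)), map_splitPsi,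
    Measure.prod_prod]

/-- The label law is invariant under permutations of the sites. -/
theorem map_comp_equiv_labelMeasure {E : Type*} (ι : E ≃ E) :
    (labelMeasure E).map (fun t => t ∘ ι) = labelMeasure E :=
  Measure.map_infinitePi_infinitePi_of_inj ι.injective

/-- The two label fields law is invariant under permutations of the sites. -/
theorem map_comp_equiv_muL {E : Type*} (ι : E ≃ E) :
    (muL E).map (fun x => (x.1 ∘ ι, x.2 ∘ ι)) = muL E := by
  have h : MeasurePreserving (fun t : E → unitInterval => t ∘ ι) (labelMeasure E) (labelMeasure E) :=
    ⟨measurable_pi_lambda _ fun e => measurable_pi_apply (ι e), map_comp_equiv_labelMeasure ι⟩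
  exact (h.prod h).map_eq

/-- Two labels coincide with probability zero. -/
theorem labelMeasure_eq_zero {E : Type*} {a b : E} (hab : a ≠ b) :
    labelMeasure E {t | t a = t b} = 0 := by
  classical
  have hmap := Measure.infinitePi_map_eval_prod (P := fun _ : E => (volume : Measure unitInterval)) hab
  have hm : Measurable (fun ω : E → unitInterval => (ω a, ω b)) :=
    (measurable_pi_apply a).prodMk (measurable_pi_apply b)
  have hset : {t : E → unitInterval | t a = t b} =
      (fun ω : E → unitInterval => (ω a, ω b)) ⁻¹' Set.diagonal unitInterval := by
    ext t; simp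
  unfold labelMeasure
  rw [hset, ← Measure.map_apply hm measurableSet_diagonal, hmap, Measure.measure_prod_null measurableSet_diagonal]
  refine Filter.Eventually.of_forall fun x => ?_
  have : Prod.mk x ⁻¹' Set.diagonal unitInterval = {x} := by
    ext y; simp [eq_comm]
  simp [this]

/-- Labels are almost surely injective on any given finite set. -/
theorem ae_injOn_labels {E : Type*} (F : Finset E) :
    ∀ᵐ t ∂(labelMeasure E), Set.InjOn t (F : Set E) := by
  classical
  have h : ∀ᵐ t ∂(labelMeasure E), ∀ a ∈ (F : Set E), ∀ b ∈ (F : Set E), a ≠ b → t a ≠ t b := by
    rw [ae_ball_iff (Finset.countable_toSet F)]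
    intro a _
    rw [ae_ball_iff (Finset.countable_toSet F)]
    intro b _
    by_cases hab : a = b
    · simp [hab]
    · have := labelMeasure_eq_zero (E := E) hab
      rw [ae_iff]
      simpa [hab] using this
  filter_upwards [h] with t ht a ha b hb hab
  by_contra hne
  exact ht a ha b hb hne hab

end Crest.Agent.SRC
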