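import Crest.Agent.Lib.SRC.Chain
import Crest.Agent.Lib.SRC.Lab

/-!
Time level: integrating over labels.
-/

open MeasureTheory Set
open scoped Classical

namespace Crest.Agent.SRC
open Crest.ProbabilityR.Labels
namespace MassSys

variable {E : Type*} [DecidableEq E] (M : MassSys E) (o : E)

/-! ### congruences -/

lemma dm_congr {A B : Finset E} {s r : unitInterval} {t t' : E → unitInterval}
    (h : ∀ e, e ∈ A ∨ e ∈ B → t' e = t e) : dm A B s r t' = dm A B s r t := by
  unfold dm
  congr 1
  · apply Finset.filter_congr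
    intro e he
    rw [h e (Or.inl he)]
  · apply Finset.filter_congr
    intro e he
    rw [h e (Or.inr he)]

lemma ls_congr {B : Finset E} {r T : unitInterval} {t t' : E → unitInterval}
    (h : ∀ e ∈ B, t' e = t e) : ls B r T t' = ls B r T t := by
  unfold ls
  have e1 : B.filter (fun e => r ≤ t' e ∧ t' e < T) = B.filter (fun e => r ≤ t e ∧ t e < T) := by
    apply Finset.filter_congr
    intro e he
    rw [h e he]
  rw [e1]
  apply hf_sortedL_congr
  intro e he
  exact h e (Finset.mem_filter.1 he).1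

lemma Phi_congr {A B : Finset E} {s r T : unitInterval} {t t' : E → unitInterval} (g : E)
    (h : ∀ e, e ∈ A ∨ e ∈ B → t' e = t e) : M.Phi o A B s r T t' g = M.Phi o A B s r T t g := by
  unfold Phi
  rw [dm_congr h, ls_congr (fun e he => h e (Or.inr he))]

lemma Psi_congr {A B : Finset E} {s r T : unitInterval} {t t' : E → unitInterval} (g g' : E)
    (h : ∀ e, e ∈ A ∨ e ∈ B → t' e = t e) : M.Psi o A B s r T t' g g' = M.Psi o A B s r T t g g' := by
  unfold Psi
  rw [dm_congr h, ls_congr (fun e he => h e (Or.inr he))]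

section meas
variable [Countable E] {Ω : Type*} [MeasurableSpace Ω]

lemma Dm_dm (A B : Finset E) {s r : Ω → unitInterval} {t : Ω → E → unitInterval}
    (hs : Measurable s) (hr : Measurable r) (ht : ∀ e, Measurable fun ω => t ω e) :
    Dm (fun ω => dm A B (s ω) (r ω) (t ω)) := by
  unfold dm
  have h1 : Dm (fun ω => A.filter (fun e => t ω e < s ω)) :=
    Dm.filter _ _ fun e _ => measurableSet_lt (ht e) hs
  have h2 : Dm (fun ω => B.filter (fun e => t ω e < r ω)) :=
    Dm.filter _ _ fun e _ => measurableSet_lt (ht e) hr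
  exact Dm.comp (h1.prod h2) (fun p : Finset E × Finset E => p.1 ∪ p.2)

lemma Dm_ls (B : Finset E) {r T : Ω → unitInterval} {t : Ω → E → unitInterval}
    (hr : Measurable r) (hT : Measurable T) (ht : ∀ e, Measurable fun ω => t ω e) :
    Dm (fun ω => ls B (r ω) (T ω) (t ω)) := by
  unfold ls
  refine Dm.sortedL B _ ?_ (fun ω => Finset.filter_subset _ _) t ht
  refine Dm.filter _ _ fun e _ => ?_
  have h1 : MeasurableSet {ω | r ω ≤ t ω e} := measurableSet_le hr (ht e)
  have h2 : MeasurableSet {ω | t ω e < T ω} := measurableSet_lt (ht e) hT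
  exact h1.inter h2

lemma measurable_Phi (A B : Finset E) {s r T : Ω → unitInterval} {t : Ω → E → unitInterval}
    (hs : Measurable s) (hr : Measurable r) (hT : Measurable T)
    (ht : ∀ e, Measurable fun ω => t ω e) (g : E) :
    Measurable fun ω => ENNReal.ofReal (M.Phi o A B (s ω) (r ω) (T ω) (t ω) g) :=
  ((Dm_dm A B hs hr ht).prod (Dm_ls B hr hT ht)).measurable
    (fun p : Finset E × List E => ENNReal.ofReal (M.Esum p.1 (fun c => M.W o g c p.2)))

lemma measurable_Psi (A B : Finset E) {s r T : Ω → unitInterval} {t : Ω → E → unitInterval}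
    (hs : Measurable s) (hr : Measurable r) (hT : Measurable T)
    (ht : ∀ e, Measurable fun ω => t ω e) (g h : E) :
    Measurable fun ω => ENNReal.ofReal (M.Psi o A B (s ω) (r ω) (T ω) (t ω) g h) :=
  ((Dm_dm A B hs hr ht).prod (Dm_ls B hr hT ht)).measurable
    (fun p : Finset E × List E => ENNReal.ofReal
      (M.Esum p.1 (fun c => |M.cov c g h| * M.Fl o h c p.2)))

end meas

/-- Labels are a.s. injective. -/
lemma ae_injective [Countable E] : ∀ᵐ t ∂(labelMeasure E), Function.Injective t := by
  have : ∀ᵐ t ∂(labelMeasure E), ∀ e f : E, e ≠ f → t e ≠ t f := by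
    rw [ae_all_iff]; intro e
    rw [ae_all_iff]; intro f
    by_cases hef : e = f
    · simp [hef]
    · filter_upwards [ae_ne_labels hef] with t ht _ using ht
  filter_upwards [this] with t ht e f hef
  by_contra hne
  exact ht e f hne hef

/-! ### Integrated unrolling -/

section
variable [Countable E]

lemma measurable_Psi_x (A B : Finset E) (s T : unitInterval) (g h : E) :
    Measurable (fun p : unitInterval × (E → unitInterval) =>
        ENNReal.ofReal (M.Psi o A B s p.1 T p.2 g h)) :=
  M.measurable_Psi o A B (Ω := unitInterval × (E → unitInterval))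
    (s := fun _ => s) (r := fun p => p.1) (T := fun _ => T)
    (t := fun p => p.2) measurable_const measurable_fst measurable_const
    (fun e => (measurable_pi_apply e).comp measurable_snd) g h

lemma measurable_Psi_t (A B : Finset E) (s x T : unitInterval) (g h : E) :
    Measurable (fun t : E → unitInterval => ENNReal.ofReal (M.Psi o A B s x T t g h)) :=
  M.measurable_Psi o A B (Ω := E → unitInterval) (s := fun _ => s) (r := fun _ => x) (T := fun _ => T)
    (t := fun t => t) measurable_const measurable_const measurable_const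
    (fun e => measurable_pi_apply e) g h

lemma measurable_Psi_th (A B : Finset E) (s T : unitInterval) (g h h' : E) :
    Measurable (fun t : E → unitInterval => ENNReal.ofReal (M.Psi o A B s (t h') T t g h)) :=
  M.measurable_Psi o A B (Ω := E → unitInterval) (s := fun _ => s) (r := fun t => t h') (T := fun _ => T)
    (t := fun t => t) measurable_const (measurable_pi_apply h') measurable_const
    (fun e => measurable_pi_apply e) g h

lemma measurable_Phi_t (A B : Finset E) (s r T : unitInterval) (g : E) :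
    Measurable (fun t : E → unitInterval => ENNReal.ofReal (M.Phi o A B s r T t g)) :=
  M.measurable_Phi o A B (Ω := E → unitInterval) (s := fun _ => s) (r := fun _ => r) (T := fun _ => T)
    (t := fun t => t) measurable_const measurable_const measurable_const
    (fun e => measurable_pi_apply e) g

lemma measurable_Phi_x (A B : Finset E) (s T : unitInterval) (g : E) :
    Measurable (fun p : unitInterval × (E → unitInterval) =>
        ENNReal.ofReal (M.Phi o A B s p.1 T p.2 g)) :=
  M.measurable_Phi o A B (Ω := unitInterval × (E → unitInterval))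
    (s := fun _ => s) (r := fun p => p.1) (T := fun _ => T)
    (t := fun p => p.2) measurable_const measurable_fst measurable_const
    (fun e => (measurable_pi_apply e).comp measurable_snd) g

lemma measurable_ind (r T : unitInterval) :
    Measurable ((Ico r T).indicator (fun _ => (1 : ENNReal))) :=
  measurable_const.indicator measurableSet_Ico

/-- One hop term integrated. -/
lemma lint_hop {A B : Finset E} (s r T : unitInterval) (g h : E) (hA : h ∉ A) (hB : h ∉ B) :
    ∫⁻ t, (Ico r T).indicator (fun _ => (1 : ENNReal)) (t h) *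
        ENNReal.ofReal (M.Psi o A B s (t h) T t g h) ∂(labelMeasure E) =
      ∫⁻ x, (Ico r T).indicator (fun _ => (1 : ENNReal)) x *
        ∫⁻ t, ENNReal.ofReal (M.Psi o A B s x T t g h) ∂(labelMeasure E)
        ∂(volume : Measure unitInterval) := by
  have := lintegral_coord_param (E := E) h
    (G := fun x t => (Ico r T).indicator (fun _ => (1 : ENNReal)) x *
      ENNReal.ofReal (M.Psi o A B s x T t g h)) ?_ ?_
  · rw [this]
    congr 1
    funext x
    exact lintegral_const_mul _ (M.measurable_Psi_t o A B s x T g h)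
  · exact ((measurable_ind r T).comp measurable_fst).mul (M.measurable_Psi_x o A B s T g h)
  · intro x t y
    congr 2
    apply M.Psi_congr
    rintro e (he | he)
    · exact Function.update_of_ne (ne_of_mem_of_not_mem he hA) _ _
    · exact Function.update_of_ne (ne_of_mem_of_not_mem he hB) _ _

/-- Step A. -/
lemma lint_Phi_le {A B : Finset E} (hAB : Disjoint A B) (s r T : unitInterval) (hrT : r ≤ T) (g : E) :
    ∫⁻ t, ENNReal.ofReal (M.Phi o A B s r T t g) ∂(labelMeasure E) ≤
      ∫⁻ t, ENNReal.ofReal (M.Phi o A B s T T t g) ∂(labelMeasure E) +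
      2 * ∑ h ∈ B, ∫⁻ x, (Ico r T).indicator (fun _ => (1 : ENNReal)) x *
        ∫⁻ t, ENNReal.ofReal (M.Psi o A (B.erase h) s x T t g h) ∂(labelMeasure E)
        ∂(volume : Measure unitInterval) := by
  have hmeas : ∀ h ∈ B, Measurable (fun t : E → unitInterval =>
      (Ico r T).indicator (fun _ => (1 : ENNReal)) (t h) *
        ENNReal.ofReal (M.Psi o A (B.erase h) s (t h) T t g h)) := by
    intro h _
    exact ((measurable_ind r T).comp (measurable_pi_apply h)).mul
      (M.measurable_Psi_th o A (B.erase h) s T g h h)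
  -- pointwise a.e.
  have hpt : ∀ᵐ t ∂(labelMeasure E), ENNReal.ofReal (M.Phi o A B s r T t g) ≤
      ENNReal.ofReal (M.Phi o A B s T T t g) +
      2 * ∑ h ∈ B, (Ico r T).indicator (fun _ => (1 : ENNReal)) (t h) *
        ENNReal.ofReal (M.Psi o A (B.erase h) s (t h) T t g h) := by
    filter_upwards [ae_injective (E := E)] with t ht
    have key := M.Phi_unroll o hAB (s := s) (r := r) (T := T) (t := t) (ht.injOn) hrT g
    have e1 : ∑ h ∈ B, (Ico r T).indicator (fun _ => (1 : ENNReal)) (t h) *
        ENNReal.ofReal (M.Psi o A (B.erase h) s (t h) T t g h) =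
        ENNReal.ofReal (∑ h ∈ B.filter (fun e => r ≤ t e ∧ t e < T),
          M.Psi o A (B.erase h) s (t h) T t g h) := by
      rw [ENNReal.ofReal_sum_of_nonneg (fun h _ => M.Psi_nonneg o _ _ _ _ _ _ _ _), Finset.sum_filter]
      apply Finset.sum_congr rfl
      intro h _
      by_cases hx : r ≤ t h ∧ t h < T
      · have : t h ∈ Ico r T := hx
        simp [this, hx]
      · have : t h ∉ Ico r T := hx
        simp [this, hx]
    rw [e1]
    have e2 : (2 : ENNReal) = ENNReal.ofReal 2 := by simp
    rw [e2, ← ENNReal.ofReal_mul (by norm_num),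
      ← ENNReal.ofReal_add (M.Phi_nonneg o _ _ _ _ _ _ _)
        (mul_nonneg (by norm_num) (Finset.sum_nonneg fun h _ => M.Psi_nonneg o _ _ _ _ _ _ _ _))]
    exact ENNReal.ofReal_le_ofReal key
  refine (lintegral_mono_ae hpt).trans_eq ?_
  rw [lintegral_add_left (M.measurable_Phi_t o A B s T T g),
    lintegral_const_mul _ (Finset.measurable_sum _ hmeas), lintegral_finsetSum _ hmeas]
  congr 2
  exact Finset.sum_congr rfl fun h hh =>
    M.lint_hop o s r T g h (fun hc => Finset.disjoint_left.1 hAB hc hh) (Finset.notMem_erase _ _)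

/-! ### Erasing a site with a large label -/

lemma dm_erase_of_lt {A B : Finset E} {s x T0 : unitInterval} {t : E → unitInterval} {g : E}
    (hs : s ≤ T0) (hx : x ≤ T0) (hg : T0 < t g) :
    dm (A.erase g) (B.erase g) s x t = dm A B s x t := by
  ext e
  simp only [dm, Finset.mem_union, Finset.mem_filter, Finset.mem_erase]
  constructor
  · rintro (⟨⟨_, h1⟩, h2⟩ | ⟨⟨_, h1⟩, h2⟩)
    · exact Or.inl ⟨h1, h2⟩
    · exact Or.inr ⟨h1, h2⟩
  · rintro (⟨h1, h2⟩ | ⟨h1, h2⟩)
    · refine Or.inl ⟨⟨?_, h1⟩, h2⟩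
      rintro rfl
      exact lt_asymm (h2.trans_le hs) hg
    · refine Or.inr ⟨⟨?_, h1⟩, h2⟩
      rintro rfl
      exact lt_asymm (h2.trans_le hx) hg

lemma ls_erase_of_lt {B : Finset E} {x T T0 : unitInterval} {t : E → unitInterval} {g : E}
    (hT : T ≤ T0) (hg : T0 < t g) : ls (B.erase g) x T t = ls B x T t := by
  unfold ls
  congr 1
  ext e
  simp only [Finset.mem_filter, Finset.mem_erase]
  constructor
  · rintro ⟨⟨_, h1⟩, h2⟩
    exact ⟨h1, h2⟩
  · rintro ⟨h1, h2⟩
    refine ⟨⟨?_, h1⟩, h2⟩
    rintro rfl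
    exact lt_asymm (h2.2.trans_le hT) hg

/-- Row sum for hop terms. -/
lemma sum_Psi_le_Phi (hNC : M.NC) (hROW : M.ROW) {A B : Finset E} {h : E} (hA : h ∉ A) (hB : h ∉ B)
    {J : Finset E} (hJ : h ∉ J) {s x T T0 : unitInterval} (hs : s ≤ T0) (hx : x ≤ T0)
    {t : E → unitInterval} (ht : ∀ g ∈ J, T0 < t g) :
    ∑ g ∈ J, M.Psi o A B s x T t g h ≤ M.Phi o A B s x T t h := by
  unfold Psi Phi
  rw [← Esum_sum]
  apply M.Esum_mono
  intro S hS _
  have hoff : ∀ f, f ∉ dm A B s x t → Off (S, dm A B s x t \ S) f := by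
    intro f hf
    exact ⟨fun h' => hf (hS h'), fun h' => hf (Finset.mem_sdiff.1 h').1⟩
  have hh : h ∉ dm A B s x t := by
    intro hc
    rcases Finset.mem_union.1 hc with hc | hc
    · exact hA (Finset.mem_filter.1 hc).1
    · exact hB (Finset.mem_filter.1 hc).1
  have hg : ∀ g ∈ J, g ∉ dm A B s x t := by
    intro g hgJ hc
    have := ht g hgJ
    rcases Finset.mem_union.1 hc with hc | hc
    · exact lt_asymm ((Finset.mem_filter.1 hc).2.trans_le hs) this
    · exact lt_asymm ((Finset.mem_filter.1 hc).2.trans_le hx) this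
  have key := M.sum_abs_cov_le hNC hROW (S, dm A B s x t \ S) h J hJ (hoff h hh)
    (fun f hf => hoff f (hg f hf))
  rw [← Finset.sum_mul]
  calc _ ≤ M.pi (S, dm A B s x t \ S) h * M.Fl o h (S, dm A B s x t \ S) (ls B x T t) :=
        mul_le_mul_of_nonneg_right key (M.Fl_nonneg o _ _ _)
    _ ≤ _ := M.pi_mul_Fl_le o h _ _

/-- Far bound with the label trick. -/
lemma far_bound (hNC : M.NC) (hROW : M.ROW) {A B : Finset E} {h : E} (hA : h ∉ A) (hB : h ∉ B)
    {J : Finset E} (hJ : h ∉ J) {s x T T0 : unitInterval} (hs : s ≤ T0) (hx : x ≤ T0) (hT : T ≤ T0) :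
    (volume (Ioi T0)) * ∑ g ∈ J, ∫⁻ t, ENNReal.ofReal (M.Psi o (A.erase g) (B.erase g) s x T t g h)
        ∂(labelMeasure E) ≤ ∫⁻ t, ENNReal.ofReal (M.Phi o A B s x T t h) ∂(labelMeasure E) := by
  have hS : MeasurableSet (Ioi T0) := measurableSet_Ioi
  have hm : ∀ g ∈ J, Measurable (fun t : E → unitInterval => (Ioi T0).indicator (fun _ => (1 : ENNReal)) (t g) *
      ENNReal.ofReal (M.Psi o (A.erase g) (B.erase g) s x T t g h)) := by
    intro g _
    exact ((measurable_const.indicator hS).comp (measurable_pi_apply g)).mul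
      (M.measurable_Psi_t o _ _ s x T g h)
  have e1 : ∀ g ∈ J, volume (Ioi T0) * ∫⁻ t, ENNReal.ofReal (M.Psi o (A.erase g) (B.erase g) s x T t g h)
        ∂(labelMeasure E) = ∫⁻ t, (Ioi T0).indicator (fun _ => (1 : ENNReal)) (t g) *
      ENNReal.ofReal (M.Psi o (A.erase g) (B.erase g) s x T t g h) ∂(labelMeasure E) := by
    intro g _
    symm
    apply lintegral_label_trick g (M.measurable_Psi_t o _ _ s x T g h) _ _ hS
    intro t y
    congr 1
    apply M.Psi_congr
    rintro e (he | he)
    · exact Function.update_of_ne (Finset.ne_of_mem_erase he) _ _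
    · exact Function.update_of_ne (Finset.ne_of_mem_erase he) _ _
  rw [Finset.mul_sum, Finset.sum_congr rfl e1, ← lintegral_finsetSum _ hm]
  apply lintegral_mono
  intro t
  show ∑ g ∈ J, (Ioi T0).indicator (fun _ => (1 : ENNReal)) (t g) *
      ENNReal.ofReal (M.Psi o (A.erase g) (B.erase g) s x T t g h) ≤ _
  have e2 : ∑ g ∈ J, (Ioi T0).indicator (fun _ => (1 : ENNReal)) (t g) *
      ENNReal.ofReal (M.Psi o (A.erase g) (B.erase g) s x T t g h) =
      ENNReal.ofReal (∑ g ∈ J.filter (fun g => T0 < t g), M.Psi o A B s x T t g h) := by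
    rw [ENNReal.ofReal_sum_of_nonneg (fun g _ => M.Psi_nonneg o _ _ _ _ _ _ _ _), Finset.sum_filter]
    apply Finset.sum_congr rfl
    intro g _
    by_cases hx' : T0 < t g
    · have hmem : t g ∈ Ioi T0 := hx'
      have : M.Psi o (A.erase g) (B.erase g) s x T t g h = M.Psi o A B s x T t g h := by
        unfold Psi
        rw [dm_erase_of_lt hs hx hx', ls_erase_of_lt hT hx']
      simp [hmem, hx', this]
    · have hmem : t g ∉ Ioi T0 := hx'
      simp [hmem, hx']
  rw [e2]
  apply ENNReal.ofReal_le_ofReal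
  apply M.sum_Psi_le_Phi o hNC hROW hA hB _ hs hx
  · intro g hg
    exact (Finset.mem_filter.1 hg).2
  · intro hc
    exact hJ (Finset.mem_filter.1 hc).1

/-! ### The `Z` kernel -/

/-- Annealed absolute covariance. -/
noncomputable def Zf (T0 : unitInterval) (Y : Finset E) (g h : E) : ENNReal :=
  ∫⁻ t, ENNReal.ofReal (M.Esum (((Y.erase g).erase h).filter (fun e => t e < T0))
    (fun c => |M.cov c g h|)) ∂(labelMeasure E)

lemma measurable_Esum_filter (Z : Finset E) (T0 : unitInterval) (φ : St E → ℝ) :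
    Measurable (fun t : E → unitInterval =>
      ENNReal.ofReal (M.Esum (Z.filter (fun e => t e < T0)) φ)) := by
  have h : Dm (fun t : E → unitInterval => Z.filter (fun e => t e < T0)) :=
    Dm.filter _ _ fun e _ => measurableSet_lt (measurable_pi_apply e) measurable_const
  exact h.measurable (fun D => ENNReal.ofReal (M.Esum D φ))

lemma Zf_mono (hNC : M.NC) (T0 : unitInterval) {Y Y' : Finset E} (hY : Y ⊆ Y') {g h : E} (hgh : g ≠ h) :
    M.Zf T0 Y g h ≤ M.Zf T0 Y' g h := by
  apply lintegral_mono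
  intro t
  apply ENNReal.ofReal_le_ofReal
  apply M.Esum_abs_cov_mono hNC g h hgh
  · intro e he
    simp only [Finset.mem_filter, Finset.mem_erase] at he ⊢
    exact ⟨⟨he.1.1, he.1.2.1, hY he.1.2.2⟩, he.2⟩
  · simp
  · simp

/-- Near bound: a hop term is dominated by the annealed covariance. -/
lemma near_bound (hNC : M.NC) {A B Y : Finset E} {g h : E} (hgh : g ≠ h) (hAY : A ⊆ Y) (hBY : B ⊆ Y)
    (hgA : g ∉ A) (hgB : g ∉ B) (hhA : h ∉ A) (hhB : h ∉ B) {s x T T0 : unitInterval} (hs : s ≤ T0)
    (hx : x ≤ T0) :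
    ∫⁻ t, ENNReal.ofReal (M.Psi o A B s x T t g h) ∂(labelMeasure E) ≤ M.Zf T0 Y g h := by
  apply lintegral_mono
  intro t
  apply ENNReal.ofReal_le_ofReal
  have h1 : M.Psi o A B s x T t g h ≤ M.Esum (dm A B s x t) (fun c => |M.cov c g h|) := by
    unfold Psi
    apply M.Esum_mono
    intro S _ _
    have := M.Fl_le_one o h (S, dm A B s x t \ S) (ls B x T t)
    exact mul_le_of_le_one_right (abs_nonneg _) this
  refine h1.trans ?_
  apply M.Esum_abs_cov_mono hNC g h hgh
  · intro e he
    simp only [Finset.mem_filter, Finset.mem_erase]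
    rcases Finset.mem_union.1 he with he | he
    · obtain ⟨h1, h2⟩ := Finset.mem_filter.1 he
      exact ⟨⟨ne_of_mem_of_not_mem h1 hhA, ne_of_mem_of_not_mem h1 hgA, hAY h1⟩, h2.trans_le hs⟩
    · obtain ⟨h1, h2⟩ := Finset.mem_filter.1 he
      exact ⟨⟨ne_of_mem_of_not_mem h1 hhB, ne_of_mem_of_not_mem h1 hgB, hBY h1⟩, h2.trans_le hx⟩
  · simp
  · simp

/-- Base of the recursion. -/
lemma base_bound (hNC : M.NC) {A B Y : Finset E} {g : E} (hgo : g ≠ o) (hAY : A ⊆ Y) (hBY : B ⊆ Y)
    (hgA : g ∉ A) (hgB : g ∉ B) (hoA : o ∉ A) (hoB : o ∉ B) {s T T0 : unitInterval} (hs : s ≤ T0)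
    (hT : T ≤ T0) :
    ∫⁻ t, ENNReal.ofReal (M.Phi o A B s T T t g) ∂(labelMeasure E) ≤ 2 * M.Zf T0 Y g o := by
  unfold Zf
  rw [← lintegral_const_mul _ (M.measurable_Esum_filter _ T0 _)]
  apply lintegral_mono
  intro t
  show _ ≤ 2 * ENNReal.ofReal _
  have e2 : (2 : ENNReal) = ENNReal.ofReal 2 := by simp
  rw [e2, ← ENNReal.ofReal_mul (by norm_num)]
  apply ENNReal.ofReal_le_ofReal
  have hl : ls B T T t = [] := by
    unfold ls
    have : B.filter (fun e => T ≤ t e ∧ t e < T) = ∅ := by
      ext e; simp only [Finset.mem_filter, Finset.notMem_empty, iff_false]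
      rintro ⟨_, h1, h2⟩; exact absurd h2 (not_lt.2 h1)
    rw [this, hf_sortedL_empty]
  have h1 : M.Phi o A B s T T t g = 2 * M.Esum (dm A B s T t) (fun c => |M.cov c g o|) := by
    unfold Phi
    rw [hl, ← Esum_mul_left]
    apply M.Esum_congr_pos
    intro S _ hpos
    exact M.W_nil o g _ hpos
  rw [h1]
  apply mul_le_mul_of_nonneg_left _ (by norm_num)
  apply M.Esum_abs_cov_mono hNC g o hgo
  · intro e he
    simp only [Finset.mem_filter, Finset.mem_erase]
    rcases Finset.mem_union.1 he with he | he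
    · obtain ⟨h1, h2⟩ := Finset.mem_filter.1 he
      exact ⟨⟨ne_of_mem_of_not_mem h1 hoA, ne_of_mem_of_not_mem h1 hgA, hAY h1⟩, h2.trans_le hs⟩
    · obtain ⟨h1, h2⟩ := Finset.mem_filter.1 he
      exact ⟨⟨ne_of_mem_of_not_mem h1 hoB, ne_of_mem_of_not_mem h1 hgB, hBY h1⟩, h2.trans_le hT⟩
  · simp
  · simp

/-- Sum bound for the annealed covariance with a fixed `Y`. -/
lemma Zf_sum_le (hNC : M.NC) (hROW : M.ROW) (T0 : unitInterval) (Y : Finset E) {h : E} {J : Finset E}
    (hJ : h ∉ J) : volume (Ioi T0) * ∑ g ∈ J, M.Zf T0 Y g h ≤ 1 := by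
  have hS : MeasurableSet (Ioi T0) := measurableSet_Ioi
  have hm0 : ∀ g, Measurable (fun t : E → unitInterval =>
      ENNReal.ofReal (M.Esum (((Y.erase g).erase h).filter (fun e => t e < T0)) (fun c => |M.cov c g h|))) :=
    fun g => M.measurable_Esum_filter _ T0 _
  have hm : ∀ g ∈ J, Measurable (fun t : E → unitInterval => (Ioi T0).indicator (fun _ => (1 : ENNReal)) (t g) *
      ENNReal.ofReal (M.Esum (((Y.erase g).erase h).filter (fun e => t e < T0)) (fun c => |M.cov c g h|))) := by
    intro g _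
    exact ((measurable_const.indicator hS).comp (measurable_pi_apply g)).mul (hm0 g)
  have e1 : ∀ g ∈ J, volume (Ioi T0) * M.Zf T0 Y g h =
      ∫⁻ t, (Ioi T0).indicator (fun _ => (1 : ENNReal)) (t g) *
      ENNReal.ofReal (M.Esum (((Y.erase g).erase h).filter (fun e => t e < T0)) (fun c => |M.cov c g h|))
        ∂(labelMeasure E) := by
    intro g _
    symm
    unfold Zf
    apply lintegral_label_trick g (hm0 g) _ _ hS
    intro t y
    congr 2
    apply Finset.filter_congr
    intro e he
    have : e ≠ g := by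
      intro hc
      subst hc
      simp at he
    rw [Function.update_of_ne this]
  rw [Finset.mul_sum, Finset.sum_congr rfl e1, ← lintegral_finsetSum _ hm]
  refine (lintegral_mono (g := fun _ => (1 : ENNReal)) ?_).trans_eq (by simp)
  intro t
  show ∑ g ∈ J, (Ioi T0).indicator (fun _ => (1 : ENNReal)) (t g) *
      ENNReal.ofReal (M.Esum (((Y.erase g).erase h).filter (fun e => t e < T0)) (fun c => |M.cov c g h|)) ≤ 1
  set D := (Y.erase h).filter (fun e => t e < T0) with hD
  have e2 : ∑ g ∈ J, (Ioi T0).indicator (fun _ => (1 : ENNReal)) (t g) *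
      ENNReal.ofReal (M.Esum (((Y.erase g).erase h).filter (fun e => t e < T0)) (fun c => |M.cov c g h|)) =
      ENNReal.ofReal (∑ g ∈ J.filter (fun g => T0 < t g), M.Esum D (fun c => |M.cov c g h|)) := by
    rw [ENNReal.ofReal_sum_of_nonneg (fun g _ => M.Esum_nonneg fun _ _ => abs_nonneg _), Finset.sum_filter]
    apply Finset.sum_congr rfl
    intro g _
    by_cases hx' : T0 < t g
    · have hmem : t g ∈ Ioi T0 := hx'
      have e3 : ((Y.erase g).erase h).filter (fun e => t e < T0) = D := by
        ext e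
        simp only [hD, Finset.mem_filter, Finset.mem_erase]
        constructor
        · rintro ⟨⟨h1, _, h2⟩, h3⟩
          exact ⟨⟨h1, h2⟩, h3⟩
        · rintro ⟨⟨h1, h2⟩, h3⟩
          refine ⟨⟨h1, ?_, h2⟩, h3⟩
          rintro rfl
          exact lt_asymm h3 hx'
      simp [hmem, hx', e3]
    · have hmem : t g ∉ Ioi T0 := hx'
      simp [hmem, hx']
  rw [e2, ← ENNReal.ofReal_one]
  apply ENNReal.ofReal_le_ofReal
  rw [← Esum_sum]
  have hoff : ∀ f S, S ⊆ D → f ∉ D → Off (S, D \ S) f := by
    intro f S hS hf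
    exact ⟨fun h' => hf (hS h'), fun h' => hf (Finset.mem_sdiff.1 h').1⟩
  have h1 : M.Esum D (fun c => ∑ g ∈ J.filter (fun g => T0 < t g), |M.cov c g h|) ≤
      M.Esum D (fun c => M.pi c h) := by
    apply M.Esum_mono
    intro S hS _
    apply M.sum_abs_cov_le hNC hROW _ h _ (fun hc => hJ (Finset.mem_filter.1 hc).1)
    · exact hoff h S hS (by simp [hD])
    · intro f hf
      apply hoff f S hS
      intro hc
      exact lt_asymm (Finset.mem_filter.1 hc).2 (Finset.mem_filter.1 hf).2
  have h2 := M.Esum_pi_le ∅ h D (Finset.empty_subset _)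
  rw [Esum_empty] at h2
  have h3 : M.pi (∅, ∅) h ≤ 1 := by
    unfold pi
    have a0 := M.a_nonneg (∅, ∅) h
    have a1 := M.a_le_one (∅, ∅) h
    nlinarith
  linarith

/-- Kernel. -/
noncomputable def Z (T0 : unitInterval) (g h : E) : ENNReal :=
  if g = h then 0 else ⨆ Y : Finset E, M.Zf T0 Y g h

lemma Zf_le_Z (T0 : unitInterval) (Y : Finset E) {g h : E} (hgh : g ≠ h) : M.Zf T0 Y g h ≤ M.Z T0 g h := by
  unfold Z
  rw [if_neg hgh]
  exact le_iSup (fun Y => M.Zf T0 Y g h) Y

lemma Z_sum_le (hNC : M.NC) (hROW : M.ROW) (T0 : unitInterval) (h : E) (J : Finset E) :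
    volume (Ioi T0) * ∑ g ∈ J, M.Z T0 g h ≤ 1 := by
  have e : ∀ g, M.Z T0 g h = ⨆ Y : Finset E, (if g = h then 0 else M.Zf T0 Y g h) := by
    intro g
    by_cases hg : g = h <;> simp [Z, hg]
  simp only [e]
  rw [ENNReal.finsetSum_iSup_of_monotone, ENNReal.mul_iSup]
  · apply iSup_le
    intro Y
    have e2 : ∑ g ∈ J, (if g = h then 0 else M.Zf T0 Y g h) = ∑ g ∈ J.erase h, M.Zf T0 Y g h := by
      rw [Finset.sum_ite, Finset.sum_const_zero, zero_add]
      apply Finset.sum_congr _ fun _ _ => rfl
      ext g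
      simp [Finset.mem_erase, and_comm]
    rw [e2]
    exact M.Zf_sum_le hNC hROW T0 Y (Finset.notMem_erase _ _)
  · intro g Y Y' hY
    by_cases hg : g = h
    · simp [hg]
    · simp only [hg, if_false]
      exact M.Zf_mono hNC T0 hY hg

end

end MassSys
end Crest.Agent.SRC
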